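import Mathlib

/-!
# Two-dimensional Euclidean Hausdorff measure of linear images of planar sets in `ℝ³`
-/

set_option autoImplicit false

namespace Crest.Agent.Tetra

open MeasureTheory Measure Set
open scoped ENNReal NNReal

abbrev E3 := EuclideanSpace ℝ (Fin 3)
abbrev E2 := EuclideanSpace ℝ (Fin 2)

/-- The Gram area of the parallelogram spanned by `a, b`. -/
noncomputable def gram (a b : E3) : ℝ := Real.sqrt (‖a‖ ^ 2 * ‖b‖ ^ 2 - (inner ℝ a b) ^ 2)

/-- The linear map `x ↦ x₀ a + x₁ b`. -/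
noncomputable def lin2 (a b : E3) : E2 →ₗ[ℝ] E3 where
  toFun x := x 0 • a + x 1 • b
  map_add' x y := by
    simp only [PiLp.add_apply, add_smul]; abel
  map_smul' r x := by
    simp only [PiLp.smul_apply, smul_eq_mul, RingHom.id_apply, smul_add, mul_smul]

@[simp] lemma lin2_apply (a b : E3) (x : E2) : lin2 a b x = x 0 • a + x 1 • b := rfl

lemma norm_sq_E2 (x : E2) : ‖x‖ ^ 2 = x 0 ^ 2 + x 1 ^ 2 := by
  rw [EuclideanSpace.real_norm_sq_eq]; simp [Fin.sum_univ_two]

/-- A set contained in a line through the origin is `μHE[2]`-null. -/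
lemma muHE_line (d : E3) (S : Set E3) (hS : ∀ x ∈ S, ∃ t : ℝ, x = t • d) : μHE[2] S = 0 := by
  have hsub : S ⊆ (fun t : ℝ => t • d) '' univ := by
    intro x hx
    obtain ⟨t, rfl⟩ := hS x hx
    exact ⟨t, mem_univ _, rfl⟩
  have hlip : LipschitzWith ‖d‖₊ (fun t : ℝ => t • d) := by
    apply LipschitzWith.of_dist_le_mul
    intro x y
    rw [dist_eq_norm, ← sub_smul, norm_smul, Real.dist_eq, Real.norm_eq_abs, mul_comm]
    rfl
  have hdim : dimH ((fun t : ℝ => t • d) '' univ) < ((2 : ℝ≥0) : ℝ≥0∞) := by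
    refine lt_of_le_of_lt (hlip.dimH_image_le univ) ?_
    rw [Real.dimH_univ]
    norm_num
  have h0 := hausdorffMeasure_of_dimH_lt hdim
  have h1 : (μH[((2 : ℕ) : ℝ)] : Measure E3) S = 0 := by
    refine measure_mono_null hsub ?_
    simpa using h0
  rw [euclideanHausdorffMeasure_def, Measure.smul_apply, h1, smul_zero]

/-- Orthonormal pairs give an isometry `E2 → E3`. -/
lemma lin2_isometry (f g : E3) (hf : ‖f‖ = 1) (hg : ‖g‖ = 1) (hfg : inner ℝ f g = (0 : ℝ)) :
    Isometry (lin2 f g) := by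
  apply AddMonoidHomClass.isometry_of_norm
  intro x
  have h : ‖lin2 f g x‖ ^ 2 = ‖x‖ ^ 2 := by
    rw [norm_sq_E2, lin2_apply, @norm_add_sq_real, norm_smul, norm_smul, inner_smul_left,
      inner_smul_right, hfg, hf, hg]
    simp only [Real.norm_eq_abs, mul_one, mul_pow, sq_abs, mul_zero]
    simp
  have h1 := norm_nonneg (lin2 f g x)
  have h2 := norm_nonneg x
  exact (sq_eq_sq₀ h1 h2).mp h

/-- The main area formula. -/
theorem muHE_lin2_image (a b : E3) (B : Set E2) :
    μHE[2] (lin2 a b '' B) = ENNReal.ofReal (gram a b) * volume B := by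
  by_cases ha : a = 0
  · subst ha
    have h1 : μHE[2] (lin2 (0 : E3) b '' B) = 0 := by
      apply muHE_line b
      rintro x ⟨y, -, rfl⟩
      exact ⟨y 1, by simp⟩
    have h2 : gram 0 b = 0 := by simp [gram]
    rw [h1, h2]; simp
  set f : E3 := (‖a‖⁻¹) • a with hf_def
  have hna : 0 < ‖a‖ := norm_pos_iff.mpr ha
  have hf : ‖f‖ = 1 := by
    rw [hf_def, norm_smul, norm_inv, norm_norm]; field_simp
  have haf : a = ‖a‖ • f := by
    rw [hf_def, smul_smul]; field_simp; simp
  set k : ℝ := inner ℝ b f with hk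
  set b' : E3 := b - k • f with hb'
  have hb'f : inner ℝ b' f = (0 : ℝ) := by
    rw [hb', inner_sub_left, inner_smul_left, real_inner_self_eq_norm_sq, hf, ← hk]; simp
  have hbdecomp : b = k • f + b' := by rw [hb']; abel
  have hnb : ‖b‖ ^ 2 = k ^ 2 + ‖b'‖ ^ 2 := by
    rw [hbdecomp, @norm_add_sq_real, norm_smul, hf, inner_smul_left, real_inner_comm, hb'f]
    simp [mul_pow]
  have hab : (inner ℝ a b : ℝ) = ‖a‖ * k := by
    have h : inner ℝ (‖a‖ • f) b = ‖a‖ * (inner ℝ f b : ℝ) := by rw [inner_smul_left]; simp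
    rw [← haf] at h
    rw [h, real_inner_comm, ← hk]
  have hgram : gram a b = ‖a‖ * ‖b'‖ := by
    rw [gram, hnb, hab]
    have : ‖a‖ ^ 2 * (k ^ 2 + ‖b'‖ ^ 2) - (‖a‖ * k) ^ 2 = (‖a‖ * ‖b'‖) ^ 2 := by ring
    rw [this, Real.sqrt_sq (by positivity)]
  by_cases hb0 : b' = 0
  · have h1 : μHE[2] (lin2 a b '' B) = 0 := by
      apply muHE_line f
      rintro x ⟨y, -, rfl⟩
      refine ⟨y 0 * ‖a‖ + y 1 * k, ?_⟩
      rw [lin2_apply]
      have e1 : y 0 • a = (y 0 * ‖a‖) • f := by rw [← smul_smul, ← haf]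
      have e2 : y 1 • b = (y 1 * k) • f := by
        have : b = k • f := by rw [hbdecomp, hb0, add_zero]
        rw [← smul_smul, ← this]
      rw [e1, e2, add_smul]
    rw [h1, hgram, hb0]; simp
  set g : E3 := (‖b'‖⁻¹) • b' with hg_def
  have hnb' : 0 < ‖b'‖ := norm_pos_iff.mpr hb0
  have hg : ‖g‖ = 1 := by
    rw [hg_def, norm_smul, norm_inv, norm_norm]; field_simp
  have hb'g : b' = ‖b'‖ • g := by
    rw [hg_def, smul_smul]; field_simp; simp
  have hfg : inner ℝ f g = (0 : ℝ) := by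
    rw [hg_def, inner_smul_right, real_inner_comm, hb'f]; simp
  -- the triangular matrix
  let M : Matrix (Fin 2) (Fin 2) ℝ := !![‖a‖, k; 0, ‖b'‖]
  let S : E2 →ₗ[ℝ] E2 := Matrix.toEuclideanLin M
  have hS0 : ∀ x : E2, (S x) 0 = ‖a‖ * x 0 + k * x 1 := by
    intro x
    simp [S, M, Matrix.toLpLin_apply, Matrix.mulVec, dotProduct, Fin.sum_univ_two]
  have hS1 : ∀ x : E2, (S x) 1 = ‖b'‖ * x 1 := by
    intro x
    simp [S, M, Matrix.toLpLin_apply, Matrix.mulVec, dotProduct, Fin.sum_univ_two]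
  have hdet : LinearMap.det S = ‖a‖ * ‖b'‖ := by
    have : S = Matrix.toLin (EuclideanSpace.basisFun (Fin 2) ℝ).toBasis
        (EuclideanSpace.basisFun (Fin 2) ℝ).toBasis M := by
      simp [S, Matrix.toEuclideanLin_eq_toLin_orthonormal]
    rw [this, LinearMap.det_toLin]
    simp [M, Matrix.det_fin_two]
  have hcomp : ∀ x : E2, lin2 a b x = lin2 f g (S x) := by
    intro x
    simp only [lin2_apply, hS0, hS1]
    have e1 : x 0 • a = (‖a‖ * x 0) • f := by
      rw [mul_comm, ← smul_smul, ← haf]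
    have e2 : x 1 • b = (k * x 1) • f + (‖b'‖ * x 1) • g := by
      have : (‖b'‖ * x 1) • g = x 1 • b' := by
        rw [mul_comm, ← smul_smul, ← hb'g]
      rw [this, mul_comm, ← smul_smul, ← smul_add, ← hbdecomp]
    rw [e1, e2, add_smul]
    abel
  have himg : lin2 a b '' B = lin2 f g '' (S '' B) := by
    rw [image_image]
    exact image_congr (fun x _ => hcomp x)
  rw [himg, (lin2_isometry f g hf hg hfg).euclideanHausdorffMeasure_image,
    EuclideanSpace.euclideanHausdorffMeasure_eq_volume, Measure.addHaar_image_linearMap, hdet,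
    hgram, abs_of_nonneg (by positivity)]

end Crest.Agent.Tetra
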