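import Crest.Agent.Lib.Tetra.Family

/-!
# The total area of the two families
-/

set_option autoImplicit false

namespace Crest.Agent.Tetra

open Set Finset

noncomputable section

/-- the squared tilt -/
def www (c : ℝ) (n i : ℕ) : ℝ := vvv c n i ^ 2 + 2 * nuu c n i ^ 2

/-- total normalised area -/
def SS (c κ : ℝ) (n : ℕ) : ℝ :=
  ∑ i ∈ range n, (2 / (n : ℝ)) * (RR c κ n i ^ 2 / Real.sqrt (1 + www c n i))

lemma www_neg (c : ℝ) (n i : ℕ) : www (-c) n i = www c n i := by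
  simp only [www, vvv, nuu]; ring

lemma www_nonneg (c : ℝ) (n i : ℕ) : 0 ≤ www c n i := by
  simp only [www]; positivity

lemma sum_mid2 (n : ℕ) (hn : 0 < n) :
    ∑ i ∈ range n, (2 / (n : ℝ)) * tmid n i ^ 2 = 2 / 3 - (2 / (n : ℝ)) ^ 2 / 6 := by
  have hn' : (n : ℝ) ≠ 0 := by positivity
  set m : ℝ := 2 / n with hm
  have hnm : (n : ℝ) * m = 2 := by rw [hm]; field_simp
  have h : ∑ i ∈ range n, (tt n (i + 1) ^ 3 - tt n i ^ 3) = 2 := by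
    rw [Finset.sum_range_sub (fun i => tt n i ^ 3) n]; simp only [tt_last n hn, tt_zero]; norm_num
  have h2 : ∀ i ∈ range n, tt n (i + 1) ^ 3 - tt n i ^ 3 = 3 * (m * tmid n i ^ 2) + m ^ 3 / 4 := by
    intro i _; rw [tmid, tt_succ, ← hm]; ring
  rw [Finset.sum_congr rfl h2, Finset.sum_add_distrib, ← Finset.mul_sum] at h
  simp only [Finset.sum_const, card_range, nsmul_eq_mul] at h
  have h3 : (n : ℝ) * (m ^ 3 / 4) = m ^ 2 / 2 := by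
    calc (n : ℝ) * (m ^ 3 / 4) = (n * m) * (m ^ 2 / 4) := by ring
      _ = m ^ 2 / 2 := by rw [hnm]; ring
  rw [h3] at h
  linarith

lemma sum_mid4_le (n : ℕ) (hn : 0 < n) :
    ∑ i ∈ range n, (2 / (n : ℝ)) * tmid n i ^ 4 ≤ 2 / 5 := by
  have hn' : (n : ℝ) ≠ 0 := by positivity
  set m : ℝ := 2 / n with hm
  have hm0 : 0 < m := by rw [hm]; positivity
  have hnm : (n : ℝ) * m = 2 := by rw [hm]; field_simp
  have h : ∑ i ∈ range n, (tt n (i + 1) ^ 5 - tt n i ^ 5) = 2 := by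
    rw [Finset.sum_range_sub (fun i => tt n i ^ 5) n]; simp only [tt_last n hn, tt_zero]; norm_num
  have h2 : ∀ i ∈ range n, tt n (i + 1) ^ 5 - tt n i ^ 5 =
      5 * (m * tmid n i ^ 4) + (5 / 2 * m ^ 2) * (m * tmid n i ^ 2) + m ^ 5 / 16 := by
    intro i _; rw [tmid, tt_succ, ← hm]; ring
  rw [Finset.sum_congr rfl h2, Finset.sum_add_distrib, Finset.sum_add_distrib] at h
  have e1 : ∑ i ∈ range n, 5 * (m * tmid n i ^ 4) = 5 * ∑ i ∈ range n, m * tmid n i ^ 4 :=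
    (Finset.mul_sum _ _ _).symm
  have e2 : ∑ i ∈ range n, (5 / 2 * m ^ 2) * (m * tmid n i ^ 2) =
      (5 / 2 * m ^ 2) * ∑ i ∈ range n, m * tmid n i ^ 2 :=
    (Finset.mul_sum _ _ _).symm
  rw [e1, e2] at h
  simp only [Finset.sum_const, card_range, nsmul_eq_mul] at h
  have h3 : 0 ≤ ∑ i ∈ range n, m * tmid n i ^ 2 :=
    Finset.sum_nonneg (fun i _ => by positivity)
  have h4 : 0 ≤ (5 / 2 * m ^ 2) * ∑ i ∈ range n, m * tmid n i ^ 2 := by positivity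
  have h5 : 0 ≤ (n : ℝ) * (m ^ 5 / 16) := by positivity
  linarith

/-- `1/√(1+w) ≤ 1 - w/2 + 3w²/8`. -/
lemma inv_sqrt_le (w : ℝ) (hw : 0 ≤ w) : 1 / Real.sqrt (1 + w) ≤ 1 - w / 2 + 3 / 8 * w ^ 2 := by
  have hpos : 0 < Real.sqrt (1 + w) := Real.sqrt_pos.mpr (by linarith)
  rw [div_le_iff₀ hpos]
  set E := 1 - w / 2 + 3 / 8 * w ^ 2 with hE
  have hE0 : 0 < E := by rw [hE]; nlinarith [sq_nonneg (w - 1)]
  have : 1 ≤ (E * Real.sqrt (1 + w)) ^ 2 := by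
    rw [mul_pow, Real.sq_sqrt (by linarith), hE]
    have : (1 - w / 2 + 3 / 8 * w ^ 2) ^ 2 * (1 + w) =
        1 + w ^ 3 * (40 - 15 * w + 9 * w ^ 2) / 64 := by ring
    rw [this]
    have h1 : 0 ≤ 40 - 15 * w + 9 * w ^ 2 := by nlinarith [sq_nonneg (3 * w - 5 / 2)]
    have h2 : 0 ≤ w ^ 3 * (40 - 15 * w + 9 * w ^ 2) / 64 := by positivity
    linarith
  have h0 : 0 ≤ E * Real.sqrt (1 + w) := by positivity
  nlinarith

set_option maxHeartbeats 1000000 in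
lemma term_real (c κ t μ w R : ℝ) (hc : 0 < c) (hc1 : c ≤ 1) (hκ : 0 ≤ κ) (hμ0 : 0 ≤ μ)
    (hμ1 : μ ≤ 1 / 4) (ht2 : t ^ 2 ≤ 1)
    (hw_eq : w = c ^ 2 / 16 * (t ^ 2 + 1 - μ) ^ 2 + c ^ 2 / 2 * t ^ 2)
    (hR : R = 1 / 2 + c ^ 2 / 16 * (t ^ 4 + t ^ 2) + κ) :
    R ^ 2 / Real.sqrt (1 + w) ≤
      1 / 4 + κ + 27 / 512 * c ^ 4 + (c ^ 2 / 8 + κ) ^ 2 + c ^ 2 / 128 * (4 * μ - 1)
        + 7 * c ^ 2 / 128 * t ^ 4 - c ^ 2 / 64 * t ^ 2 := by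
  have ht2' : 0 ≤ t ^ 2 := sq_nonneg t
  have ht4 : t ^ 4 ≤ 1 := by
    have : t ^ 4 = (t ^ 2) ^ 2 := by ring
    rw [this]; exact pow_le_one₀ ht2' ht2
  have ht4' : 0 ≤ t ^ 4 := by positivity
  have hw0 : 0 ≤ w := by rw [hw_eq]; positivity
  have hQ0 : 0 ≤ t ^ 2 + 1 - μ := by linarith
  have hQ2 : t ^ 2 + 1 - μ ≤ 2 := by linarith
  have hQsq : (t ^ 2 + 1 - μ) ^ 2 ≤ 4 := by nlinarith
  have hc2 : 0 ≤ c ^ 2 := sq_nonneg c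
  have hc2' : c ^ 2 ≤ 1 := pow_le_one₀ hc.le hc1
  have hw_le : w ≤ 3 / 4 * c ^ 2 := by
    rw [hw_eq]
    have h1 := mul_le_mul_of_nonneg_left hQsq (by positivity : 0 ≤ c ^ 2 / 16)
    have h2 := mul_le_mul_of_nonneg_left ht2 (by positivity : 0 ≤ c ^ 2 / 2)
    linarith
  have hw_ge : c ^ 2 / 16 * (t ^ 4 + 10 * t ^ 2 + 1 - 4 * μ) ≤ w := by
    rw [hw_eq]
    have h0 : t ^ 4 + 2 * t ^ 2 + 1 - 4 * μ ≤ (t ^ 2 + 1 - μ) ^ 2 := by nlinarith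
    have h1 := mul_le_mul_of_nonneg_left h0 (by positivity : 0 ≤ c ^ 2 / 16)
    have e : c ^ 2 / 16 * (t ^ 4 + 10 * t ^ 2 + 1 - 4 * μ) =
      c ^ 2 / 16 * (t ^ 4 + 2 * t ^ 2 + 1 - 4 * μ) + c ^ 2 / 2 * t ^ 2 := by ring
    rw [e]; linarith
  have hw_le1 : w ≤ 3 / 4 := by linarith
  have hw2 : w ^ 2 ≤ 9 / 16 * c ^ 4 := by
    have : w ^ 2 ≤ (3 / 4 * c ^ 2) ^ 2 := pow_le_pow_left₀ hw0 hw_le 2
    calc w ^ 2 ≤ (3 / 4 * c ^ 2) ^ 2 := this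
      _ = 9 / 16 * c ^ 4 := by ring
  obtain ⟨ρ, hρ⟩ : ∃ ρ, ρ = c ^ 2 / 16 * (t ^ 4 + t ^ 2) + κ := ⟨_, rfl⟩
  have hρ0 : 0 ≤ ρ := by rw [hρ]; positivity
  have hρ_le : ρ ≤ c ^ 2 / 8 + κ := by
    rw [hρ]
    have h1 : t ^ 4 + t ^ 2 ≤ 2 := by linarith
    have h2 := mul_le_mul_of_nonneg_left h1 (by positivity : 0 ≤ c ^ 2 / 16)
    linarith
  have hρ2 : ρ ^ 2 ≤ (c ^ 2 / 8 + κ) ^ 2 := pow_le_pow_left₀ hρ0 hρ_le 2
  have hRR : R = 1 / 2 + ρ := by rw [hR, hρ]; ring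
  obtain ⟨E, hE⟩ : ∃ E, E = 1 - w / 2 + 3 / 8 * w ^ 2 := ⟨_, rfl⟩
  have hJ := inv_sqrt_le w hw0
  rw [← hE] at hJ
  have hE1 : E ≤ 1 := by rw [hE]; nlinarith
  have hstep : (1 / 2 + ρ) ^ 2 / Real.sqrt (1 + w) ≤ (1 / 2 + ρ) ^ 2 * E := by
    have : (1 / 2 + ρ) ^ 2 / Real.sqrt (1 + w) = (1 / 2 + ρ) ^ 2 * (1 / Real.sqrt (1 + w)) := by ring
    rw [this]
    exact mul_le_mul_of_nonneg_left hJ (by positivity)
  have hstep2 : (1 / 2 + ρ) ^ 2 * E ≤ 1 / 4 * E + (ρ + ρ ^ 2) := by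
    have e : (1 / 2 + ρ) ^ 2 = 1 / 4 + (ρ + ρ ^ 2) := by ring
    rw [e, add_mul]
    have : (ρ + ρ ^ 2) * E ≤ (ρ + ρ ^ 2) * 1 := mul_le_mul_of_nonneg_left hE1 (by positivity)
    linarith
  rw [hRR]
  have e1 : 1 / 4 * E = 1 / 4 - w / 8 + 3 / 32 * w ^ 2 := by rw [hE]; ring
  have hmain : (1 / 2 + ρ) ^ 2 / Real.sqrt (1 + w) ≤
      1 / 4 - w / 8 + 3 / 32 * w ^ 2 + (ρ + ρ ^ 2) := by
    rw [← e1]; linarith
  refine le_trans hmain ?_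
  have : c ^ 2 / 16 * (t ^ 4 + 10 * t ^ 2 + 1 - 4 * μ) / 8 ≤ w / 8 := by linarith
  have h3 : 3 / 32 * w ^ 2 ≤ 27 / 512 * c ^ 4 := by linarith
  have e3 : 1 / 4 + κ + 27 / 512 * c ^ 4 + (c ^ 2 / 8 + κ) ^ 2 + c ^ 2 / 128 * (4 * μ - 1)
        + 7 * c ^ 2 / 128 * t ^ 4 - c ^ 2 / 64 * t ^ 2 =
      1 / 4 - c ^ 2 / 16 * (t ^ 4 + 10 * t ^ 2 + 1 - 4 * μ) / 8 + 27 / 512 * c ^ 4
        + (c ^ 2 / 16 * (t ^ 4 + t ^ 2) + κ) + (c ^ 2 / 8 + κ) ^ 2 := by ring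
  rw [e3, ← hρ]
  linarith

/-- Pointwise bound of a summand. -/
lemma term_le (c κ : ℝ) (n i : ℕ) (hn : 0 < n) (hi : i < n) (hc : 0 < c) (hc1 : c ≤ 1) (hκ : 0 ≤ κ)
    (hm1 : (2 / (n : ℝ)) ≤ 1) :
    RR c κ n i ^ 2 / Real.sqrt (1 + www c n i) ≤
      1 / 4 + κ + 27 / 512 * c ^ 4 + (c ^ 2 / 8 + κ) ^ 2 + c ^ 2 / 128 * (4 * ((2 / (n : ℝ)) ^ 2 / 4) - 1)
        + 7 * c ^ 2 / 128 * tmid n i ^ 4 - c ^ 2 / 64 * tmid n i ^ 2 := by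
  have hm0 : (0 : ℝ) < 2 / n := by positivity
  apply term_real c κ (tmid n i) ((2 / (n : ℝ)) ^ 2 / 4) (www c n i) (RR c κ n i) hc hc1 hκ
    (by positivity)
  · have : (2 / (n : ℝ)) ^ 2 ≤ 1 := pow_le_one₀ hm0.le hm1
    linarith
  · exact (sq_le_one_iff_abs_le_one _).mpr (tmid_abs n hn hi)
  · have ht0 : tt n i = tmid n i - (2 / n) / 2 := by rw [tmid, tt_succ]; ring
    have ht1' : tt n (i + 1) = tmid n i + (2 / n) / 2 := by rw [tmid, tt_succ]; ring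
    rw [www, vvv, nuu, ht0, ht1']
    ring
  · rfl

/-- The upper bound of `SS`. -/
theorem SS_le (c κ : ℝ) (n : ℕ) (hn : 0 < n) (hc : 0 < c) (hc1 : c ≤ 1) (hκ : 0 ≤ κ)
    (hm1 : (2 / (n : ℝ)) ≤ 1) :
    SS c κ n ≤ 1 / 2 + 2 * κ - c ^ 2 / 240 + 27 / 256 * c ^ 4 + 2 * (c ^ 2 / 8 + κ) ^ 2
      + c ^ 2 * (2 / (n : ℝ)) ^ 2 * (7 / 384) := by
  have hn' : (n : ℝ) ≠ 0 := by positivity
  set m : ℝ := 2 / n with hm
  have hm0 : 0 < m := by rw [hm]; positivity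
  have hnm : (n : ℝ) * m = 2 := by rw [hm]; field_simp
  have h1 : SS c κ n ≤ ∑ i ∈ range n, m * (1 / 4 + κ + 27 / 512 * c ^ 4 + (c ^ 2 / 8 + κ) ^ 2 +
      c ^ 2 / 128 * (4 * (m ^ 2 / 4) - 1) + 7 * c ^ 2 / 128 * tmid n i ^ 4
        - c ^ 2 / 64 * tmid n i ^ 2) := by
    apply Finset.sum_le_sum
    intro i hi
    exact mul_le_mul_of_nonneg_left
      (term_le c κ n i hn (Finset.mem_range.mp hi) hc hc1 hκ hm1) hm0.le
  refine le_trans h1 ?_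
  set C0 := 1 / 4 + κ + 27 / 512 * c ^ 4 + (c ^ 2 / 8 + κ) ^ 2 + c ^ 2 / 128 * (4 * (m ^ 2 / 4) - 1)
    with hC0
  have h2 : ∑ i ∈ range n, m * (C0 + 7 * c ^ 2 / 128 * tmid n i ^ 4 - c ^ 2 / 64 * tmid n i ^ 2) =
      2 * C0 + 7 * c ^ 2 / 128 * (∑ i ∈ range n, m * tmid n i ^ 4)
        - c ^ 2 / 64 * (∑ i ∈ range n, m * tmid n i ^ 2) := by
    rw [Finset.mul_sum, Finset.mul_sum]
    have : ∀ i ∈ range n, m * (C0 + 7 * c ^ 2 / 128 * tmid n i ^ 4 - c ^ 2 / 64 * tmid n i ^ 2) =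
        m * C0 + 7 * c ^ 2 / 128 * (m * tmid n i ^ 4) - c ^ 2 / 64 * (m * tmid n i ^ 2) := by
      intro i _; ring
    rw [Finset.sum_congr rfl this, Finset.sum_sub_distrib, Finset.sum_add_distrib]
    simp only [Finset.sum_const, card_range, nsmul_eq_mul]
    have : (n : ℝ) * (m * C0) = 2 * C0 := by
      calc (n : ℝ) * (m * C0) = (n * m) * C0 := by ring
        _ = 2 * C0 := by rw [hnm]
    rw [this]
  rw [h2, sum_mid2 n hn]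
  have h4 := sum_mid4_le n hn
  have h5 := mul_le_mul_of_nonneg_left h4 (by positivity : 0 ≤ 7 * c ^ 2 / 128)
  rw [← hm] at h5 ⊢
  rw [hC0]
  nlinarith

/-- continuity of the total area in `κ`. -/
lemma SS_continuous (c : ℝ) (n : ℕ) : Continuous (fun κ : ℝ => SS c κ n) := by
  unfold SS RR
  refine continuous_finset_sum _ (fun i _ => ?_)
  exact continuous_const.mul (((continuous_const.add continuous_id).pow 2).div_const _)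

lemma www_le (c : ℝ) (n i : ℕ) (hn : 0 < n) (hi : i < n) (hc : 0 < c) (hc1 : c ≤ 1)
    (hm1 : (2 / (n : ℝ)) ≤ 1) : www c n i ≤ 3 / 4 := by
  have hm0 : (0 : ℝ) < 2 / n := by positivity
  have ht0 : tt n i = tmid n i - (2 / n) / 2 := by rw [tmid, tt_succ]; ring
  have ht1' : tt n (i + 1) = tmid n i + (2 / n) / 2 := by rw [tmid, tt_succ]; ring
  obtain ⟨t, ht⟩ : ∃ t, t = tmid n i := ⟨_, rfl⟩
  obtain ⟨μ, hμ⟩ : ∃ μ, μ = (2 / (n : ℝ)) ^ 2 / 4 := ⟨_, rfl⟩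
  have hw_eq : www c n i = c ^ 2 / 16 * (t ^ 2 + 1 - μ) ^ 2 + c ^ 2 / 2 * t ^ 2 := by
    rw [www, vvv, nuu, ht0, ht1', hμ, ht]
    ring
  have ht2 : t ^ 2 ≤ 1 := by
    rw [ht]; exact (sq_le_one_iff_abs_le_one _).mpr (tmid_abs n hn hi)
  have hμ0 : 0 ≤ μ := by rw [hμ]; positivity
  have hμ1 : μ ≤ 1 / 4 := by
    have : (2 / (n : ℝ)) ^ 2 ≤ 1 := pow_le_one₀ hm0.le hm1
    rw [hμ]; linarith
  have ht2' : 0 ≤ t ^ 2 := sq_nonneg t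
  have hQ0 : 0 ≤ t ^ 2 + 1 - μ := by linarith
  have hQ2 : t ^ 2 + 1 - μ ≤ 2 := by linarith
  have hQsq : (t ^ 2 + 1 - μ) ^ 2 ≤ 4 := by nlinarith
  have hc2' : c ^ 2 ≤ 1 := pow_le_one₀ hc.le hc1
  have hc2 : 0 ≤ c ^ 2 := sq_nonneg c
  rw [hw_eq]
  have h1 := mul_le_mul_of_nonneg_left hQsq (by positivity : 0 ≤ c ^ 2 / 16)
  have h2 := mul_le_mul_of_nonneg_left ht2 (by positivity : 0 ≤ c ^ 2 / 2)
  linarith

lemma SS_ge_one (c : ℝ) (n : ℕ) (hn : 0 < n) (hc : 0 < c) (hc1 : c ≤ 1) (hm1 : (2 / (n : ℝ)) ≤ 1) :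
    1 / 2 ≤ SS c 1 n := by
  have hn' : (n : ℝ) ≠ 0 := by positivity
  have hm0 : (0 : ℝ) < 2 / n := by positivity
  have hterm : ∀ i ∈ range n, (2 / (n : ℝ)) * (1 / 2) ≤
      (2 / (n : ℝ)) * (RR c 1 n i ^ 2 / Real.sqrt (1 + www c n i)) := by
    intro i hi
    apply mul_le_mul_of_nonneg_left _ hm0.le
    have hw := www_le c n i hn (Finset.mem_range.mp hi) hc hc1 hm1
    have hw0 := www_nonneg c n i
    have hsq : Real.sqrt (1 + www c n i) ≤ 2 := by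
      rw [Real.sqrt_le_left (by norm_num)]
      linarith
    have hsq0 : 0 < Real.sqrt (1 + www c n i) := Real.sqrt_pos.mpr (by linarith)
    have hR : 1 ≤ RR c 1 n i := by
      simp only [RR]
      have : 0 ≤ c ^ 2 / 16 * (tmid n i ^ 4 + tmid n i ^ 2) := by positivity
      linarith
    have hR2 : 1 ≤ RR c 1 n i ^ 2 := by nlinarith
    rw [le_div_iff₀ hsq0]
    nlinarith
  have := Finset.sum_le_sum hterm
  simp only [Finset.sum_const, card_range, nsmul_eq_mul] at this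
  have e : (n : ℝ) * (2 / (n : ℝ) * (1 / 2)) = 1 := by field_simp
  rw [e] at this
  unfold SS
  linarith

/-- The choice of `κ` making the area exactly the prescribed value. -/
theorem exists_kappa (ε : ℝ) (hε : 0 < ε) (hε1 : ε ≤ 1 / 2000) (n : ℕ) (hn : 0 < n)
    (hm : (2 / (n : ℝ)) ≤ ε ^ 2) :
    ∃ κ, 7 / 32 * ε ^ 3 + ε * (2 / n) * (1 + ε) * (1 / 8 + ε / 16) ≤ κ ∧
      SS ε κ n = 1 / 2 - 13 / 6000 * ε ^ 2 := by
  obtain ⟨m, hmdef⟩ : ∃ m : ℝ, m = 2 / n := ⟨_, rfl⟩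
  rw [← hmdef] at hm ⊢
  have hm0 : 0 < m := by rw [hmdef]; positivity
  obtain ⟨y, hy⟩ : ∃ y, y = ε ^ 2 := ⟨_, rfl⟩
  have hy0 : 0 < y := by rw [hy]; positivity
  have hy1 : y ≤ 1 / 4000000 := by
    rw [hy]
    have : ε ^ 2 ≤ (1 / 2000) ^ 2 := pow_le_pow_left₀ hε.le hε1 2
    linarith [this, (by norm_num : ((1 : ℝ) / 2000) ^ 2 = 1 / 4000000)]
  have hm1 : (2 / (n : ℝ)) ≤ 1 := by
    rw [← hmdef]; rw [hy] at hy1; linarith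
  obtain ⟨κ₀, hκ₀⟩ : ∃ κ₀, κ₀ = 7 / 32 * ε ^ 3 + ε * m * (1 + ε) * (1 / 8 + ε / 16) := ⟨_, rfl⟩
  have hκ₀0 : 0 ≤ κ₀ := by rw [hκ₀]; positivity
  have hfac : (1 + ε) * (1 / 8 + ε / 16) ≤ 1 / 7 := by nlinarith
  have hκ₀le : κ₀ ≤ 3 / 8 * (ε * y) := by
    rw [hκ₀]
    have h1 : ε * m * ((1 + ε) * (1 / 8 + ε / 16)) ≤ ε * y * (1 / 7) := by
      apply mul_le_mul _ hfac (by positivity) (by positivity)
      apply mul_le_mul_of_nonneg_left _ hε.le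
      rw [hy]; exact hm
    have e : ε ^ 3 = ε * y := by rw [hy]; ring
    rw [e]
    nlinarith
  have hκ₀1 : κ₀ ≤ 1 := by
    have : ε * y ≤ 1 := by nlinarith
    linarith
  have hup : SS ε κ₀ n ≤ 1 / 2 - 13 / 6000 * ε ^ 2 := by
    have h := SS_le ε κ₀ n hn hε (by linarith) hκ₀0 hm1
    rw [← hmdef] at h
    refine le_trans h ?_
    rw [← hy]
    have e4 : ε ^ 4 = y * y := by rw [hy]; ring
    rw [e4]
    have hεy : ε * y ≤ y / 2000 := by nlinarith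
    have h1 : 2 * κ₀ ≤ 3 / 8000 * y := by linarith
    have h2 : 27 / 256 * (y * y) ≤ y / 100000 := by nlinarith
    have h3 : y / 8 + κ₀ ≤ y / 7 := by linarith
    have h3' : (y / 8 + κ₀) ^ 2 ≤ (y / 7) ^ 2 :=
      pow_le_pow_left₀ (by positivity) h3 2
    have h4 : 2 * (y / 7) ^ 2 ≤ y / 100000 := by nlinarith
    have h5 : y * m ^ 2 * (7 / 384) ≤ y / 100000 := by
      have hm2 : m ^ 2 ≤ 1 / 4 := by
        have : m ≤ 1 / 4000000 := le_trans (by rw [← hy] at hm; exact hm) hy1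
        nlinarith
      have := mul_le_mul_of_nonneg_left hm2 hy0.le
      nlinarith
    have h6 : y * m ^ 2 * (7 / 384) ≤ y / 100000 := h5
    linarith
  have hlow : 1 / 2 - 13 / 6000 * ε ^ 2 ≤ SS ε 1 n := by
    have h := SS_ge_one ε n hn hε (by linarith) hm1
    have : 0 ≤ 13 / 6000 * ε ^ 2 := by positivity
    linarith
  have hcont := (SS_continuous ε n).continuousOn (s := Icc κ₀ 1)
  obtain ⟨κ, hκ, hκeq⟩ := intermediate_value_Icc hκ₀1 hcont ⟨hup, hlow⟩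
  refine ⟨κ, ?_, hκeq⟩
  rw [← hκ₀]; exact hκ.1

end

end Crest.Agent.Tetra
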