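import Crest.Agent.Lib.Tetra.Cost

/-!
# The explicit cover of the standard tetrahedron
-/

set_option autoImplicit false

namespace Crest.Agent.Tetra

open Set Finset MeasureTheory

noncomputable section

lemma topD_ne (c : ℝ) (n i : ℕ) : topD c n i ≠ 0 := by
  intro h
  have := congrArg (fun x : E3 => x 1) h
  simp [topD] at this

lemma botD_ne (c : ℝ) (n i : ℕ) : botD c n i ≠ 0 := by
  intro h
  have := congrArg (fun x : E3 => x 0) h
  simp [botD] at this

lemma norm_topD (c : ℝ) (n i : ℕ) : ‖topD c n i‖ = Real.sqrt (1 + www c n i) := by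
  rw [← Real.sqrt_sq (norm_nonneg (topD c n i)), norm_sq_E3]
  congr 1
  show vvv c n i ^ 2 + 1 ^ 2 + (-(Real.sqrt 2 * nuu c n i)) ^ 2 = 1 + www c n i
  rw [www]
  have := sqrt2_sq
  nlinarith

lemma norm_botD (c : ℝ) (n i : ℕ) : ‖botD c n i‖ = Real.sqrt (1 + www c n i) := by
  rw [← Real.sqrt_sq (norm_nonneg (botD c n i)), norm_sq_E3, ← www_neg c]
  congr 1
  show 1 ^ 2 + vvv (-c) n i ^ 2 + (Real.sqrt 2 * nuu (-c) n i) ^ 2 = 1 + www (-c) n i
  rw [www]
  have := sqrt2_sq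
  nlinarith

lemma RR_nonneg (c κ : ℝ) (hκ : 0 ≤ κ) (n i : ℕ) : 0 ≤ RR c κ n i := by
  simp only [RR]; positivity

lemma det_top (c κ : ℝ) (n i : ℕ) :
    det3 (topD c n i) (topQ c κ n i - topP) (topR c κ n i - topP) =
      -(Real.sqrt 2 * RR c κ n i ^ 2 * (2 / n)) := by
  show vvv c n i * ((0 - 0) * (Real.sqrt 2 * (1 - RR c κ n i) - Real.sqrt 2) -
        (Real.sqrt 2 * (1 - RR c κ n i) - Real.sqrt 2) * (0 - 0))
      + 1 * ((Real.sqrt 2 * (1 - RR c κ n i) - Real.sqrt 2) * (tt n (i + 1) * RR c κ n i - 0) -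
        (tt n i * RR c κ n i - 0) * (Real.sqrt 2 * (1 - RR c κ n i) - Real.sqrt 2))
      + (-(Real.sqrt 2 * nuu c n i)) * ((tt n i * RR c κ n i - 0) * (0 - 0) -
        (0 - 0) * (tt n (i + 1) * RR c κ n i - 0)) = _
  rw [tt_succ]; ring

lemma det_bot (c κ : ℝ) (n i : ℕ) :
    det3 (botD c n i) (botQ c κ n i - botP) (botR c κ n i - botP) =
      -(Real.sqrt 2 * RR c κ n i ^ 2 * (2 / n)) := by
  show 1 * ((tt n i * RR c κ n i - 0) * (Real.sqrt 2 * RR c κ n i - 0) -
        (Real.sqrt 2 * RR c κ n i - 0) * (tt n (i + 1) * RR c κ n i - 0))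
      + vvv (-c) n i * ((Real.sqrt 2 * RR c κ n i - 0) * (0 - 0) -
        (0 - 0) * (Real.sqrt 2 * RR c κ n i - 0))
      + (Real.sqrt 2 * nuu (-c) n i) * ((0 - 0) * (tt n (i + 1) * RR c κ n i - 0) -
        (tt n i * RR c κ n i - 0) * (0 - 0)) = _
  rw [tt_succ]; ring

lemma area_abs (c κ : ℝ) (n i : ℕ) (hn : 0 < n) :
    |(-(Real.sqrt 2 * RR c κ n i ^ 2 * (2 / (n : ℝ))))| / (2 * Real.sqrt (1 + www c n i)) =
      Real.sqrt 2 * ((1 / 2) * ((2 / (n : ℝ)) * (RR c κ n i ^ 2 / Real.sqrt (1 + www c n i)))) := by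
  have hs := sqrt2_pos
  rw [abs_neg, abs_of_nonneg (by positivity)]
  ring

/-- Direction, and triangle vertices, of the combined family. -/
def dAll (c : ℝ) (n k : ℕ) : E3 := if k < n then topD c n k else botD c n (k - n)
def pAll (n k : ℕ) : E3 := if k < n then topP else botP
def qAll (c κ : ℝ) (n k : ℕ) : E3 := if k < n then topQ c κ n k else botQ c κ n (k - n)
def rAll (c κ : ℝ) (n k : ℕ) : E3 := if k < n then topR c κ n k else botR c κ n (k - n)

lemma dAll_ne (c : ℝ) (n k : ℕ) : dAll c n k ≠ 0 := by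
  unfold dAll; split_ifs
  · exact topD_ne _ _ _
  · exact botD_ne _ _ _

/-- The area of one piece. -/
lemma area_all (c κ : ℝ) (n k : ℕ) (hn : 0 < n) :
    (μHE[2] (convexHull ℝ {prj (unitOf (dAll c n k)) (pAll n k),
        prj (unitOf (dAll c n k)) (qAll c κ n k), prj (unitOf (dAll c n k)) (rAll c κ n k)})).toReal =
      Real.sqrt 2 * ((1 / 2) * ((2 / (n : ℝ)) * (RR c κ n (if k < n then k else k - n) ^ 2 /
        Real.sqrt (1 + www c n (if k < n then k else k - n))))) := by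
  rw [area_proj_tri _ _ _ _ (dAll_ne c n k)]
  by_cases h : k < n
  · simp only [dAll, pAll, qAll, rAll, if_pos h]
    rw [det_top, norm_topD, area_abs c κ n k hn]
  · simp only [dAll, pAll, qAll, rAll, if_neg h]
    rw [det_bot, norm_botD, area_abs c κ n (k - n) hn]

/-- The total area of the combined family. -/
lemma total_area (c κ : ℝ) (n : ℕ) (hn : 0 < n) :
    ∑ k : Fin (2 * n), (μHE[2] (convexHull ℝ {prj (unitOf (dAll c n k)) (pAll n k),
        prj (unitOf (dAll c n k)) (qAll c κ n k), prj (unitOf (dAll c n k)) (rAll c κ n k)})).toReal =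
      Real.sqrt 2 * SS c κ n := by
  simp_rw [area_all c κ n _ hn]
  rw [Fin.sum_univ_eq_sum_range (fun k : ℕ => Real.sqrt 2 * ((1 / 2) * ((2 / (n : ℝ)) *
    (RR c κ n (if k < n then k else k - n) ^ 2 /
      Real.sqrt (1 + www c n (if k < n then k else k - n)))))) (2 * n), two_mul,
    Finset.sum_range_add, SS, Finset.mul_sum]
  have h1 : ∀ x ∈ range n, Real.sqrt 2 * ((1 / 2) * ((2 / (n : ℝ)) *
      (RR c κ n (if x < n then x else x - n) ^ 2 /
        Real.sqrt (1 + www c n (if x < n then x else x - n))))) =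
      (1 / 2) * (Real.sqrt 2 * ((2 / (n : ℝ)) * (RR c κ n x ^ 2 / Real.sqrt (1 + www c n x)))) := by
    intro x hx
    rw [if_pos (Finset.mem_range.mp hx)]; ring
  have h2 : ∀ x ∈ range n, Real.sqrt 2 * ((1 / 2) * ((2 / (n : ℝ)) *
      (RR c κ n (if n + x < n then n + x else n + x - n) ^ 2 /
        Real.sqrt (1 + www c n (if n + x < n then n + x else n + x - n))))) =
      (1 / 2) * (Real.sqrt 2 * ((2 / (n : ℝ)) * (RR c κ n x ^ 2 / Real.sqrt (1 + www c n x)))) := by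
    intro x _
    rw [if_neg (by omega), Nat.add_sub_cancel_left]; ring
  rw [Finset.sum_congr rfl h1, Finset.sum_congr rfl h2, ← Finset.mul_sum, ← add_mul]
  norm_num

/-- The explicit cover. -/
theorem cover_family (ε : ℝ) (hε : 0 < ε) (hε1 : ε ≤ 1 / 2000) :
    ∃ u p q r : Fin (2 * ⌈2 / ε ^ 2⌉₊) → E3,
      (∀ i, ‖u i‖ = 1) ∧
      (∀ i, inner ℝ (p i) (u i) = (0 : ℝ) ∧ inner ℝ (q i) (u i) = (0 : ℝ) ∧
        inner ℝ (r i) (u i) = (0 : ℝ)) ∧
      stdK ⊆ ⋃ i, {x : E3 | ∃ b ∈ convexHull ℝ {p i, q i, r i}, ∃ t : ℝ, x = b + t • u i} ∧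
      ∑ i, (μHE[2] (convexHull ℝ {p i, q i, r i})).toReal =
        Real.sqrt 2 * (1 / 2 - 13 / 6000 * ε ^ 2) ∧
      (∀ i, 0 < (μHE[2] (convexHull ℝ {p i, q i, r i})).toReal) := by
  set n := ⌈2 / ε ^ 2⌉₊ with hn_def
  have h2 : 0 < 2 / ε ^ 2 := by positivity
  have hn : 0 < n := Nat.ceil_pos.mpr h2
  have hle : 2 / ε ^ 2 ≤ n := Nat.le_ceil _
  have hnpos : (0 : ℝ) < n := by exact_mod_cast hn
  have hm : (2 / (n : ℝ)) ≤ ε ^ 2 := by
    rw [div_le_iff₀ hnpos]
    rw [div_le_iff₀ (by positivity)] at hle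
    linarith
  have hε2 : ε ^ 2 ≤ 1 / 4000000 := by
    have : ε ^ 2 ≤ (1 / 2000) ^ 2 := pow_le_pow_left₀ hε.le hε1 2
    linarith [this, (by norm_num : ((1 : ℝ) / 2000) ^ 2 = 1 / 4000000)]
  have hn2 : 2 ≤ n := by
    have h3 : (2 : ℝ) ≤ n := by
      refine le_trans ?_ hle
      rw [le_div_iff₀ (by positivity)]
      nlinarith
    exact_mod_cast h3
  obtain ⟨κ, hκ, hSS⟩ := exists_kappa ε hε hε1 n hn hm
  have hκ0 : 0 ≤ κ := le_trans (by positivity) hκ
  refine ⟨fun k => unitOf (dAll ε n k), fun k => prj (unitOf (dAll ε n k)) (pAll n k),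
    fun k => prj (unitOf (dAll ε n k)) (qAll ε κ n k),
    fun k => prj (unitOf (dAll ε n k)) (rAll ε κ n k),
    fun k => norm_unitOf _ (dAll_ne _ _ _), ?_, ?_, ?_, ?_⟩
  · intro k
    exact ⟨inner_prj _ _ (norm_unitOf _ (dAll_ne _ _ _)), inner_prj _ _ (norm_unitOf _ (dAll_ne _ _ _)),
      inner_prj _ _ (norm_unitOf _ (dAll_ne _ _ _))⟩
  · intro z hz
    have hcov := stdK_cover ε κ n hn hε (by linarith) hn2 hκ z hz
    rw [mem_iUnion]
    rcases hcov with ⟨i, hi, b, hb, τ, hτ⟩ | ⟨i, hi, b, hb, τ, hτ⟩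
    · refine ⟨⟨i, by omega⟩, ?_⟩
      have e1 : dAll ε n i = topD ε n i := by simp [dAll, hi]
      have e2 : pAll n i = topP := by simp [pAll, hi]
      have e3 : qAll ε κ n i = topQ ε κ n i := by simp [qAll, hi]
      have e4 : rAll ε κ n i = topR ε κ n i := by simp [rAll, hi]
      simp only [e1, e2, e3, e4]
      exact cyl_subset _ _ _ _ _ (topD_ne _ _ _) b hb τ hτ
    · refine ⟨⟨n + i, by omega⟩, ?_⟩
      have hni : ¬ (n + i < n) := by omega
      have e1 : dAll ε n (n + i) = botD ε n i := by simp [dAll]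
      have e2 : pAll n (n + i) = botP := by simp [pAll]
      have e3 : qAll ε κ n (n + i) = botQ ε κ n i := by simp [qAll]
      have e4 : rAll ε κ n (n + i) = botR ε κ n i := by simp [rAll]
      simp only [e1, e2, e3, e4]
      exact cyl_subset _ _ _ _ _ (botD_ne _ _ _) b hb τ hτ
  · have := total_area ε κ n hn
    rw [hSS] at this
    exact this
  · intro k
    simp only
    rw [area_all ε κ n k hn]
    have hs := sqrt2_pos
    have hR : 0 < RR ε κ n (if (k : ℕ) < n then k else k - n) := by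
      simp only [RR]; positivity
    have hw := www_nonneg ε n (if (k : ℕ) < n then k else k - n)
    have hsq : 0 < Real.sqrt (1 + www ε n (if (k : ℕ) < n then k else k - n)) :=
      Real.sqrt_pos.mpr (by linarith)
    positivity

end

end Crest.Agent.Tetra
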