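import Mathlib

/-!
# The key inequality for the two families of cylinders
-/

set_option autoImplicit false

namespace Crest.Agent.Tetra

lemma abs4 (p q r s P Q R S : ℝ) (hp : |p| ≤ P) (hq : |q| ≤ Q) (hr : |r| ≤ R) (hs : |s| ≤ S) :
    |p * q * r * s| ≤ P * Q * R * S := by
  rw [abs_mul, abs_mul, abs_mul]
  have hP : 0 ≤ P := le_trans (abs_nonneg _) hp
  have hQ : 0 ≤ Q := le_trans (abs_nonneg _) hq
  have hR : 0 ≤ R := le_trans (abs_nonneg _) hr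
  exact mul_le_mul (mul_le_mul (mul_le_mul hp hq (abs_nonneg _) hP) hr (abs_nonneg _)
    (by positivity)) hs (abs_nonneg _) (by positivity)

lemma abs3 (p q r P Q R : ℝ) (hp : |p| ≤ P) (hq : |q| ≤ Q) (hr : |r| ≤ R) :
    |p * q * r| ≤ P * Q * R := by
  rw [abs_mul, abs_mul]
  have hP : 0 ≤ P := le_trans (abs_nonneg _) hp
  have hQ : 0 ≤ Q := le_trans (abs_nonneg _) hq
  exact mul_le_mul (mul_le_mul hp hq (abs_nonneg _) hP) hr (abs_nonneg _) (by positivity)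

set_option maxHeartbeats 1000000 in
lemma key_ineq (c m κ t τ θ θ' x y A B ξ v v' : ℝ)
    (hc : 0 < c) (hc1 : c ≤ 1) (hm : 0 < m) (hm1 : m ≤ 1)
    (ht : |t| ≤ 1) (hτ : |τ| ≤ 1) (hθ : |θ| ≤ m / 2) (hθ' : |θ'| ≤ m / 2)
    (hv : v = c / 4 * (t ^ 2 - m ^ 2 / 4 + 1)) (hv' : v' = -(c / 4 * (τ ^ 2 - m ^ 2 / 4 + 1)))
    (ex : x - y * v = (t + θ) * A) (ey : y - x * v' = (τ + θ') * B)
    (eA : A = ξ - y * (c / 2 * t)) (eB : B = (1 - ξ) + x * (c / 2 * τ))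
    (hx : |x| ≤ ξ) (hy : |y| ≤ 1 - ξ)
    (hA : 1 / 2 + c ^ 2 / 16 * (t ^ 4 + t ^ 2) + κ < A)
    (hB : 1 / 2 + c ^ 2 / 16 * (τ ^ 4 + τ ^ 2) + κ < B)
    (hκ : 7 / 32 * c ^ 3 + c * m * (1 + c) * (1 / 8 + c / 16) ≤ κ) : False := by
  have ht2 : t ^ 2 ≤ 1 := (sq_le_one_iff_abs_le_one t).mpr ht
  have hτ2 : τ ^ 2 ≤ 1 := (sq_le_one_iff_abs_le_one τ).mpr hτ
  have ht2' : 0 ≤ t ^ 2 := sq_nonneg t
  have hτ2' : 0 ≤ τ ^ 2 := sq_nonneg τ
  have ht4 : t ^ 4 ≤ 1 := by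
    have : t ^ 4 = (t ^ 2) ^ 2 := by ring
    rw [this]; exact pow_le_one₀ ht2' ht2
  have hτ4 : τ ^ 4 ≤ 1 := by
    have : τ ^ 4 = (τ ^ 2) ^ 2 := by ring
    rw [this]; exact pow_le_one₀ hτ2' hτ2
  have ht4' : 0 ≤ t ^ 4 := by positivity
  have hτ4' : 0 ≤ τ ^ 4 := by positivity
  set μ := m ^ 2 / 4 with hμ
  have hμ0 : 0 ≤ μ := by positivity
  have hμ1 : μ ≤ 1 / 4 := by
    have : m ^ 2 ≤ 1 := pow_le_one₀ hm.le hm1
    rw [hμ]; linarith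
  have hκ0 : 0 ≤ κ := le_trans (by positivity) hκ
  set ρ₁ := c ^ 2 / 16 * (t ^ 4 + t ^ 2) + κ with hρ₁
  set ρ₂ := c ^ 2 / 16 * (τ ^ 4 + τ ^ 2) + κ with hρ₂
  have hρ₁0 : 0 ≤ ρ₁ := by rw [hρ₁]; positivity
  have hρ₂0 : 0 ≤ ρ₂ := by rw [hρ₂]; positivity
  have ha : ρ₁ < A - 1 / 2 := by linarith
  have hb : ρ₂ < B - 1 / 2 := by linarith
  have hxy : |x| + |y| ≤ 1 := by linarith
  have hsum : (A - 1 / 2) + (B - 1 / 2) = -(c / 2) * (y * t - x * τ) := by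
    rw [eA, eB]; ring
  have habsxy : |y * t - x * τ| ≤ 1 := by
    have h1 : |y * t| ≤ |y| * 1 := by
      rw [abs_mul]; exact mul_le_mul_of_nonneg_left ht (abs_nonneg _)
    have h2 : |x * τ| ≤ |x| * 1 := by
      rw [abs_mul]; exact mul_le_mul_of_nonneg_left hτ (abs_nonneg _)
    have h3 := abs_sub (y * t) (x * τ)
    linarith
  have hsumle : (A - 1 / 2) + (B - 1 / 2) ≤ c / 2 := by
    rw [hsum]
    have h1 := (abs_le.mp habsxy).1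
    have h2 : c / 2 * (-(y * t - x * τ)) ≤ c / 2 * 1 :=
      mul_le_mul_of_nonneg_left (by linarith) (by positivity)
    linarith
  have hA_le : A ≤ (1 + c) / 2 := by linarith
  have hB_le : B ≤ (1 + c) / 2 := by linarith
  have hA_ge : 1 / 2 ≤ A := by linarith
  have hB_ge : 1 / 2 ≤ B := by linarith
  have hAabs : |A| ≤ (1 + c) / 2 := by rw [abs_of_nonneg (by linarith)]; exact hA_le
  have hBabs : |B| ≤ (1 + c) / 2 := by rw [abs_of_nonneg (by linarith)]; exact hB_le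
  have e1 : x = (t + θ) * A + y * v := by linarith
  have e2 : y = (τ + θ') * B + x * v' := by linarith
  set P := τ ^ 2 + 1 - μ with hP
  set Q := t ^ 2 + 1 - μ with hQ
  have hP0 : 0 ≤ P := by rw [hP]; linarith
  have hQ0 : 0 ≤ Q := by rw [hQ]; linarith
  have hPle : P ≤ τ ^ 2 + 1 := by rw [hP]; linarith
  have hQle : Q ≤ t ^ 2 + 1 := by rw [hQ]; linarith
  have hPabs : |P| ≤ 2 := by rw [abs_of_nonneg hP0]; linarith
  have hQabs : |Q| ≤ 2 := by rw [abs_of_nonneg hQ0]; linarith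
  have hvQ : v = c / 4 * Q := by rw [hv, hQ]; ring
  have hv'P : v' = -(c / 4 * P) := by rw [hv', hP]; ring
  have hvabs : |v| ≤ c / 2 := by
    rw [hvQ, abs_mul, abs_of_pos (by positivity : 0 < c / 4)]
    have := mul_le_mul_of_nonneg_left hQabs (by positivity : 0 ≤ c / 4)
    linarith
  have hv'abs : |v'| ≤ c / 2 := by
    rw [hv'P, abs_neg, abs_mul, abs_of_pos (by positivity : 0 < c / 4)]
    have := mul_le_mul_of_nonneg_left hPabs (by positivity : 0 ≤ c / 4)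
    linarith
  set κ' := c / 2 * t * τ with hκ'
  have hκ'abs : |κ'| ≤ c / 2 := by
    rw [hκ', abs_mul, abs_mul, abs_of_pos (by positivity : 0 < c / 2)]
    have h1 : |t| * |τ| ≤ 1 * 1 := mul_le_mul ht hτ (abs_nonneg _) (by norm_num)
    have h2 := mul_le_mul_of_nonneg_left h1 (by positivity : 0 ≤ c / 2)
    linarith
  set W := t * x * P + τ * y * Q with hW
  -- the main identity
  have hident : (A - 1 / 2) * (1 - κ') + (B - 1 / 2) * (1 + κ') =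
      -(c / 2) * (t * θ' * B - τ * θ * A) + c ^ 2 / 8 * W := by
    have h1 : y * t - x * τ = t * ((τ + θ') * B + x * v') - τ * ((t + θ) * A + y * v) := by
      linear_combination t * e2 - τ * e1
    have h2 : (A - 1 / 2) * (1 - κ') + (B - 1 / 2) * (1 + κ') =
        ((A - 1 / 2) + (B - 1 / 2)) + κ' * (B - A) := by ring
    rw [h2, hsum, h1, hκ', hW, hvQ, hv'P]
    ring
  -- bound of W
  have hW_le : W ≤ (1 + c) / 2 * (2 * t ^ 2 * τ ^ 2 + t ^ 2 + τ ^ 2) + m * (1 + c) + c := by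
    have h0 : W = t ^ 2 * A * P + t * θ * A * P + t * y * v * P
        + (τ ^ 2 * B * Q + τ * θ' * B * Q + τ * x * v' * Q) := by
      have hx' : t * x * P = t * ((t + θ) * A + y * v) * P := by rw [← e1]
      have hy' : τ * y * Q = τ * ((τ + θ') * B + x * v') * Q := by rw [← e2]
      rw [hW, hx', hy']; ring
    have h1 : t ^ 2 * A * P ≤ t ^ 2 * ((1 + c) / 2) * (τ ^ 2 + 1) :=
      mul_le_mul (mul_le_mul_of_nonneg_left hA_le ht2') hPle hP0 (by positivity)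
    have h2 : τ ^ 2 * B * Q ≤ τ ^ 2 * ((1 + c) / 2) * (t ^ 2 + 1) :=
      mul_le_mul (mul_le_mul_of_nonneg_left hB_le hτ2') hQle hQ0 (by positivity)
    have h3 := abs4 t θ A P 1 (m / 2) ((1 + c) / 2) 2 ht hθ hAabs hPabs
    have h4 := abs4 τ θ' B Q 1 (m / 2) ((1 + c) / 2) 2 hτ hθ' hBabs hQabs
    have h5 := abs4 t y v P 1 |y| (c / 2) 2 ht le_rfl hvabs hPabs
    have h6 := abs4 τ x v' Q 1 |x| (c / 2) 2 hτ le_rfl hv'abs hQabs
    have h3' := (abs_le.mp h3).2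
    have h4' := (abs_le.mp h4).2
    have h5' := (abs_le.mp h5).2
    have h6' := (abs_le.mp h6).2
    have hc_xy : c * |x| + c * |y| ≤ c := by
      have := mul_le_mul_of_nonneg_left hxy hc.le
      linarith
    rw [h0]
    linarith
  -- bound of the mesh term
  have hmesh : |t * θ' * B - τ * θ * A| ≤ (m / 2) * (1 + c) := by
    have h3 := abs3 t θ' B 1 (m / 2) ((1 + c) / 2) ht hθ' hBabs
    have h4 := abs3 τ θ A 1 (m / 2) ((1 + c) / 2) hτ hθ hAabs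
    have := abs_sub (t * θ' * B) (τ * θ * A)
    calc |t * θ' * B - τ * θ * A| ≤ |t * θ' * B| + |τ * θ * A| := this
      _ ≤ 1 * (m / 2) * ((1 + c) / 2) + 1 * (m / 2) * ((1 + c) / 2) := add_le_add h3 h4
      _ = (m / 2) * (1 + c) := by ring
  -- lower bound of the left-hand side
  have h1κ : 0 < 1 - κ' := by
    have := (abs_le.mp hκ'abs).2
    linarith
  have h2κ : 0 < 1 + κ' := by
    have := (abs_le.mp hκ'abs).1
    linarith
  have hlow : ρ₁ * (1 - κ') + ρ₂ * (1 + κ') < (A - 1 / 2) * (1 - κ') + (B - 1 / 2) * (1 + κ') :=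
    add_lt_add (mul_lt_mul_of_pos_right ha h1κ) (mul_lt_mul_of_pos_right hb h2κ)
  have hρdiff : |ρ₂ - ρ₁| ≤ c ^ 2 / 8 := by
    have : ρ₂ - ρ₁ = c ^ 2 / 16 * ((τ ^ 4 + τ ^ 2) - (t ^ 4 + t ^ 2)) := by
      rw [hρ₁, hρ₂]; ring
    rw [this, abs_mul, abs_of_nonneg (by positivity : (0 : ℝ) ≤ c ^ 2 / 16)]
    have h3 : |(τ ^ 4 + τ ^ 2) - (t ^ 4 + t ^ 2)| ≤ 2 := by
      rw [abs_le]; constructor <;> linarith
    have hcc : 0 ≤ c ^ 2 / 16 := by positivity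
    have := mul_le_mul_of_nonneg_left h3 hcc
    linarith
  have hlow2 : ρ₁ + ρ₂ - c ^ 3 / 16 ≤ ρ₁ * (1 - κ') + ρ₂ * (1 + κ') := by
    have h1 : ρ₁ * (1 - κ') + ρ₂ * (1 + κ') = ρ₁ + ρ₂ + κ' * (ρ₂ - ρ₁) := by ring
    have h2 : |κ' * (ρ₂ - ρ₁)| ≤ c / 2 * (c ^ 2 / 8) := by
      rw [abs_mul]; exact mul_le_mul hκ'abs hρdiff (abs_nonneg _) (by positivity)
    have h3 := (abs_le.mp h2).1
    rw [h1]
    have : c / 2 * (c ^ 2 / 8) = c ^ 3 / 16 := by ring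
    linarith
  -- upper bound of the right-hand side
  have hup1 : -(c / 2) * (t * θ' * B - τ * θ * A) ≤ (c / 2) * ((m / 2) * (1 + c)) := by
    have h1 := (abs_le.mp hmesh).1
    have hc2 : 0 ≤ c / 2 := by positivity
    have h2 : c / 2 * (-(t * θ' * B - τ * θ * A)) ≤ c / 2 * ((m / 2) * (1 + c)) :=
      mul_le_mul_of_nonneg_left (by linarith) hc2
    linarith
  have hcc8 : 0 ≤ c ^ 2 / 8 := by positivity
  have hup2 : c ^ 2 / 8 * W ≤ c ^ 2 / 8 *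
      ((1 + c) / 2 * (2 * t ^ 2 * τ ^ 2 + t ^ 2 + τ ^ 2) + m * (1 + c) + c) :=
    mul_le_mul_of_nonneg_left hW_le hcc8
  have hsq : 2 * t ^ 2 * τ ^ 2 ≤ t ^ 4 + τ ^ 4 := by
    have h := sq_nonneg (t ^ 2 - τ ^ 2)
    have e : (t ^ 2 - τ ^ 2) ^ 2 = t ^ 4 + τ ^ 4 - 2 * t ^ 2 * τ ^ 2 := by ring
    rw [e] at h; linarith
  have hquad : 2 * t ^ 2 * τ ^ 2 + t ^ 2 + τ ^ 2 ≤ 4 := by linarith
  have hquad0 : 0 ≤ 2 * t ^ 2 * τ ^ 2 + t ^ 2 + τ ^ 2 := by positivity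
  have hc3 : 0 ≤ c ^ 3 / 16 := by positivity
  have h_c3q : c ^ 3 / 16 * (2 * t ^ 2 * τ ^ 2 + t ^ 2 + τ ^ 2) ≤ c ^ 3 / 16 * 4 :=
    mul_le_mul_of_nonneg_left hquad hc3
  have hcc16 : 0 ≤ c ^ 2 / 16 := by positivity
  have h_c2q : c ^ 2 / 16 * (2 * t ^ 2 * τ ^ 2) ≤ c ^ 2 / 16 * (t ^ 4 + τ ^ 4) :=
    mul_le_mul_of_nonneg_left hsq hcc16
  have hfinal : ρ₁ + ρ₂ - c ^ 3 / 16 < (c / 2) * ((m / 2) * (1 + c)) + c ^ 2 / 8 *
      ((1 + c) / 2 * (2 * t ^ 2 * τ ^ 2 + t ^ 2 + τ ^ 2) + m * (1 + c) + c) := by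
    have := hident
    linarith
  rw [hρ₁, hρ₂] at hfinal
  have hexp : c ^ 2 / 8 * ((1 + c) / 2 * (2 * t ^ 2 * τ ^ 2 + t ^ 2 + τ ^ 2) + m * (1 + c) + c) =
      c ^ 2 / 16 * (2 * t ^ 2 * τ ^ 2) + c ^ 2 / 16 * (t ^ 2 + τ ^ 2)
        + c ^ 3 / 16 * (2 * t ^ 2 * τ ^ 2 + t ^ 2 + τ ^ 2) + c ^ 2 / 8 * (m * (1 + c)) + c ^ 3 / 8 := by
    ring
  rw [hexp] at hfinal
  have hkk : 2 * κ ≥ 7 / 16 * c ^ 3 + c * m * (1 + c) * (1 / 4 + c / 8) := by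
    have : 2 * (7 / 32 * c ^ 3 + c * m * (1 + c) * (1 / 8 + c / 16)) =
      7 / 16 * c ^ 3 + c * m * (1 + c) * (1 / 4 + c / 8) := by ring
    linarith
  have hexp2 : (c / 2) * ((m / 2) * (1 + c)) + c ^ 2 / 8 * (m * (1 + c)) =
      c * m * (1 + c) * (1 / 4 + c / 8) := by ring
  linarith

end Crest.Agent.Tetra
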