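import Crest.Agent.Lib.Tetra.Shapes
import Crest.Agent.Lib.Tetra.Key

/-!
# The two families of thin cylinders covering the regular tetrahedron
-/

set_option autoImplicit false

namespace Crest.Agent.Tetra

open Set

noncomputable section

lemma vec3_ext (x y : E3) (h0 : x 0 = y 0) (h1 : x 1 = y 1) (h2 : x 2 = y 2) : x = y := by
  ext i; fin_cases i
  · exact h0
  · exact h1
  · exact h2

@[simp] lemma vec_0 (a b c : ℝ) : (!₂[a, b, c] : E3) 0 = a := rfl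
@[simp] lemma vec_1 (a b c : ℝ) : (!₂[a, b, c] : E3) 1 = b := rfl
@[simp] lemma vec_2 (a b c : ℝ) : (!₂[a, b, c] : E3) 2 = c := rfl

/-- The standard tetrahedron. -/
def stdK : Set E3 :=
  convexHull ℝ {!₂[1, 0, 0], !₂[-1, 0, 0], !₂[0, 1, Real.sqrt 2], !₂[0, -1, Real.sqrt 2]}

lemma sqrt2_pos : 0 < Real.sqrt 2 := Real.sqrt_pos.mpr (by norm_num)
lemma sqrt2_sq : Real.sqrt 2 ^ 2 = 2 := Real.sq_sqrt (by norm_num)

/-- Coordinates inequalities on `stdK`. -/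
lemma stdK_ineq (z : E3) (hz : z ∈ stdK) :
    |z 0| ≤ 1 - z 2 / Real.sqrt 2 ∧ |z 1| ≤ z 2 / Real.sqrt 2 := by
  have hs := sqrt2_pos
  let C : Set E3 := {z | z 0 ≤ 1 - z 2 / Real.sqrt 2 ∧ -z 0 ≤ 1 - z 2 / Real.sqrt 2 ∧
    z 1 ≤ z 2 / Real.sqrt 2 ∧ -z 1 ≤ z 2 / Real.sqrt 2}
  have hC : Convex ℝ C := by
    intro x hx y hy a b ha hb hab
    obtain ⟨h1, h2, h3, h4⟩ := hx
    obtain ⟨h1', h2', h3', h4'⟩ := hy
    have e : ∀ k : Fin 3, (a • x + b • y) k = a * x k + b * y k := by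
      intro k; simp
    have e2 : (a * x 2 + b * y 2) / Real.sqrt 2 =
        a * (x 2 / Real.sqrt 2) + b * (y 2 / Real.sqrt 2) := by ring
    refine ⟨?_, ?_, ?_, ?_⟩ <;> simp only [Set.mem_ofPred_eq, e, e2]
    · have := mul_le_mul_of_nonneg_left h1 ha
      have := mul_le_mul_of_nonneg_left h1' hb
      have : a + b = 1 := hab
      nlinarith
    · have := mul_le_mul_of_nonneg_left h2 ha
      have := mul_le_mul_of_nonneg_left h2' hb
      nlinarith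
    · have := mul_le_mul_of_nonneg_left h3 ha
      have := mul_le_mul_of_nonneg_left h3' hb
      nlinarith
    · have := mul_le_mul_of_nonneg_left h4 ha
      have := mul_le_mul_of_nonneg_left h4' hb
      nlinarith
  have hsub : ({!₂[1, 0, 0], !₂[-1, 0, 0], !₂[0, 1, Real.sqrt 2], !₂[0, -1, Real.sqrt 2]} :
      Set E3) ⊆ C := by
    have hd : Real.sqrt 2 / Real.sqrt 2 = 1 := div_self hs.ne'
    rintro y (rfl | rfl | rfl | rfl)
    · show (1 : ℝ) ≤ 1 - 0 / Real.sqrt 2 ∧ -(1 : ℝ) ≤ 1 - 0 / Real.sqrt 2 ∧ (0 : ℝ) ≤ 0 / Real.sqrt 2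
        ∧ -(0 : ℝ) ≤ 0 / Real.sqrt 2
      norm_num
    · show (-1 : ℝ) ≤ 1 - 0 / Real.sqrt 2 ∧ -(-1 : ℝ) ≤ 1 - 0 / Real.sqrt 2 ∧ (0 : ℝ) ≤ 0 / Real.sqrt 2
        ∧ -(0 : ℝ) ≤ 0 / Real.sqrt 2
      norm_num
    · show (0 : ℝ) ≤ 1 - Real.sqrt 2 / Real.sqrt 2 ∧ -(0 : ℝ) ≤ 1 - Real.sqrt 2 / Real.sqrt 2 ∧
        (1 : ℝ) ≤ Real.sqrt 2 / Real.sqrt 2 ∧ -(1 : ℝ) ≤ Real.sqrt 2 / Real.sqrt 2
      rw [hd]; norm_num
    · show (0 : ℝ) ≤ 1 - Real.sqrt 2 / Real.sqrt 2 ∧ -(0 : ℝ) ≤ 1 - Real.sqrt 2 / Real.sqrt 2 ∧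
        (-1 : ℝ) ≤ Real.sqrt 2 / Real.sqrt 2 ∧ -(-1 : ℝ) ≤ Real.sqrt 2 / Real.sqrt 2
      rw [hd]; norm_num
  have := convexHull_min hsub hC hz
  obtain ⟨h1, h2, h3, h4⟩ := this
  exact ⟨abs_le.mpr ⟨by linarith, h1⟩, abs_le.mpr ⟨by linarith, h3⟩⟩

/-- nodes -/
def tt (n i : ℕ) : ℝ := -1 + i * (2 / n)
def qq (c : ℝ) (n i : ℕ) : ℝ := c / 4 * (tt n i ^ 2 - 1)
def nuu (c : ℝ) (n i : ℕ) : ℝ := c / 4 * (tt n i + tt n (i + 1))
def vvv (c : ℝ) (n i : ℕ) : ℝ := c / 4 * (tt n i * tt n (i + 1) + 1)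
def tmid (n i : ℕ) : ℝ := (tt n i + tt n (i + 1)) / 2
def RR (c κ : ℝ) (n i : ℕ) : ℝ := 1 / 2 + c ^ 2 / 16 * (tmid n i ^ 4 + tmid n i ^ 2) + κ

lemma tt_succ (n i : ℕ) : tt n (i + 1) = tt n i + 2 / n := by
  simp only [tt]; push_cast; ring

lemma tt_zero (n : ℕ) : tt n 0 = -1 := by simp [tt]

lemma tt_last (n : ℕ) (hn : 0 < n) : tt n n = 1 := by
  have : (n : ℝ) ≠ 0 := by positivity
  simp only [tt]; field_simp; norm_num

lemma tt_mono (n : ℕ) (hn : 0 < n) {i j : ℕ} (hij : i ≤ j) : tt n i ≤ tt n j := by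
  simp only [tt]
  have : (i : ℝ) ≤ j := by exact_mod_cast hij
  have h2 : (0 : ℝ) < 2 / n := by positivity
  nlinarith

lemma tt_ge (n : ℕ) (hn : 0 < n) (i : ℕ) : -1 ≤ tt n i := by
  rw [← tt_zero n]; exact tt_mono n hn (Nat.zero_le _)

lemma tt_le (n : ℕ) (hn : 0 < n) {i : ℕ} (hi : i ≤ n) : tt n i ≤ 1 := by
  rw [← tt_last n hn]; exact tt_mono n hn hi

lemma tmid_abs (n : ℕ) (hn : 0 < n) {i : ℕ} (hi : i < n) : |tmid n i| ≤ 1 := by
  have h1 := tt_ge n hn i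
  have h2 := tt_ge n hn (i + 1)
  have h3 := tt_le n hn hi.le
  have h4 := tt_le n hn hi
  rw [abs_le, tmid]; constructor <;> linarith

lemma qq_left (c : ℝ) (n i : ℕ) : qq c n i = tt n i * nuu c n i - vvv c n i := by
  simp only [qq, nuu, vvv]; ring

lemma qq_right (c : ℝ) (n i : ℕ) : qq c n (i + 1) = tt n (i + 1) * nuu c n i - vvv c n i := by
  simp only [qq, nuu, vvv]; ring

lemma crossing (c x y ξ : ℝ) (n : ℕ) (hn : 0 < n) (hx : |x| ≤ ξ) :
    ∃ i, i < n ∧ tt n i * ξ - y * qq c n i ≤ x ∧ x ≤ tt n (i + 1) * ξ - y * qq c n (i + 1) := by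
  have hx' := abs_le.mp hx
  let f : ℕ → ℝ := fun i => tt n i * ξ - y * qq c n i
  have hf0 : f 0 = -ξ := by simp [f, qq, tt_zero]
  have hfn : f n = ξ := by simp [f, qq, tt_last n hn]
  have hex : ∃ j, x ≤ f (j + 1) := by
    refine ⟨n - 1, ?_⟩
    rw [Nat.sub_add_cancel hn, hfn]; exact hx'.2
  classical
  let j := Nat.find hex
  have hj : x ≤ f (j + 1) := Nat.find_spec hex
  have hjmin : ∀ k, k < j → f (k + 1) < x := by
    intro k hk
    have := Nat.find_min hex hk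
    exact not_le.mp this
  have hjn : j < n := by
    by_contra hcon
    push Not at hcon
    rcases Nat.lt_or_ge (n - 1) j with h | h
    · have := hjmin (n - 1) h
      rw [Nat.sub_add_cancel hn, hfn] at this
      linarith [hx'.2]
    · omega
  refine ⟨j, hjn, ?_, hj⟩
  change f j ≤ x
  rcases Nat.eq_zero_or_pos j with h | h
  · rw [h, hf0]; exact hx'.1
  · have := hjmin (j - 1) (by omega)
    rw [Nat.sub_add_cancel h] at this
    exact this.le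

/-- direction of the upper family -/
def topD (c : ℝ) (n i : ℕ) : E3 := !₂[vvv c n i, 1, -(Real.sqrt 2 * nuu c n i)]
def topP : E3 := !₂[0, 0, Real.sqrt 2]
def topQ (c κ : ℝ) (n i : ℕ) : E3 :=
  !₂[tt n i * RR c κ n i, 0, Real.sqrt 2 * (1 - RR c κ n i)]
def topR (c κ : ℝ) (n i : ℕ) : E3 :=
  !₂[tt n (i + 1) * RR c κ n i, 0, Real.sqrt 2 * (1 - RR c κ n i)]
/-- direction of the lower family -/
def botD (c : ℝ) (n i : ℕ) : E3 := !₂[1, vvv (-c) n i, Real.sqrt 2 * nuu (-c) n i]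
def botP : E3 := !₂[0, 0, 0]
def botQ (c κ : ℝ) (n i : ℕ) : E3 :=
  !₂[0, tt n i * RR c κ n i, Real.sqrt 2 * RR c κ n i]
def botR (c κ : ℝ) (n i : ℕ) : E3 :=
  !₂[0, tt n (i + 1) * RR c κ n i, Real.sqrt 2 * RR c κ n i]

/-- A point of the planar cone sector lies in the top triangle. -/
lemma top_mem (c κ : ℝ) (n i : ℕ) (hn : 0 < n) (A w : ℝ) (hR : 0 < RR c κ n i)
    (h1 : tt n i * A ≤ w) (h2 : w ≤ tt n (i + 1) * A) (hA : A ≤ RR c κ n i) :
    (!₂[w, 0, Real.sqrt 2 * (1 - A)] : E3) ∈ convexHull ℝ {topP, topQ c κ n i, topR c κ n i} := by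
  rw [mem_conv3]
  set R := RR c κ n i with hRdef
  set t₀ := tt n i with ht₀
  set t₁ := tt n (i + 1) with ht₁
  have hδ : 0 < t₁ - t₀ := by
    rw [ht₁, tt_succ]
    have : (0 : ℝ) < 2 / n := by positivity
    linarith
  have hA0 : 0 ≤ A := by
    have : (t₁ - t₀) * A ≥ 0 := by nlinarith
    exact nonneg_of_mul_nonneg_right this hδ
  refine ⟨1 - A / R, (t₁ * A - w) / ((t₁ - t₀) * R), (w - t₀ * A) / ((t₁ - t₀) * R), ?_, ?_, ?_, ?_, ?_⟩
  · rw [sub_nonneg, div_le_one hR]; exact hA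
  · apply div_nonneg (by linarith) (by positivity)
  · apply div_nonneg (by linarith) (by positivity)
  · field_simp; ring
  · apply vec3_ext
    · simp [topP, topQ, topR, ← hRdef, ← ht₀, ← ht₁]; field_simp; ring
    · simp [topP, topQ, topR, ← hRdef]
    · simp [topP, topQ, topR, ← hRdef, ← ht₀, ← ht₁]; field_simp; ring

lemma bot_mem (c κ : ℝ) (n i : ℕ) (hn : 0 < n) (B w : ℝ) (hR : 0 < RR c κ n i)
    (h1 : tt n i * B ≤ w) (h2 : w ≤ tt n (i + 1) * B) (hB : B ≤ RR c κ n i) :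
    (!₂[0, w, Real.sqrt 2 * B] : E3) ∈ convexHull ℝ {botP, botQ c κ n i, botR c κ n i} := by
  rw [mem_conv3]
  set R := RR c κ n i with hRdef
  set t₀ := tt n i with ht₀
  set t₁ := tt n (i + 1) with ht₁
  have hδ : 0 < t₁ - t₀ := by
    rw [ht₁, tt_succ]
    have : (0 : ℝ) < 2 / n := by positivity
    linarith
  have hA0 : 0 ≤ B := by
    have : (t₁ - t₀) * B ≥ 0 := by nlinarith
    exact nonneg_of_mul_nonneg_right this hδ
  refine ⟨1 - B / R, (t₁ * B - w) / ((t₁ - t₀) * R), (w - t₀ * B) / ((t₁ - t₀) * R), ?_, ?_, ?_, ?_, ?_⟩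
  · rw [sub_nonneg, div_le_one hR]; exact hB
  · apply div_nonneg (by linarith) (by positivity)
  · apply div_nonneg (by linarith) (by positivity)
  · field_simp; ring
  · apply vec3_ext
    · simp [botP, botQ, botR, ← hRdef]
    · simp [botP, botQ, botR, ← hRdef, ← ht₀, ← ht₁]; field_simp; ring
    · simp [botP, botQ, botR, ← hRdef, ← ht₀, ← ht₁]; field_simp; ring

/-- The cover of the standard tetrahedron by the two families. -/
theorem stdK_cover (c κ : ℝ) (n : ℕ) (hn : 0 < n) (hc : 0 < c) (hc1 : c ≤ 1) (hn1 : 2 ≤ n)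
    (hκ : 7 / 32 * c ^ 3 + c * (2 / n) * (1 + c) * (1 / 8 + c / 16) ≤ κ) (z : E3) (hz : z ∈ stdK) :
    (∃ i, i < n ∧ ∃ b ∈ convexHull ℝ {topP, topQ c κ n i, topR c κ n i}, ∃ τ : ℝ,
        z = b + τ • topD c n i) ∨
    (∃ i, i < n ∧ ∃ b ∈ convexHull ℝ {botP, botQ c κ n i, botR c κ n i}, ∃ τ : ℝ,
        z = b + τ • botD c n i) := by
  obtain ⟨hzx, hzy⟩ := stdK_ineq z hz
  have hs := sqrt2_pos
  have hs2 := sqrt2_sq
  set x := z 0 with hx
  set y := z 1 with hy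
  set ξ := 1 - z 2 / Real.sqrt 2 with hξ
  have hz2 : z 2 = Real.sqrt 2 * (1 - ξ) := by
    rw [hξ]; field_simp; ring
  have hzy' : |y| ≤ 1 - ξ := by
    have : z 2 / Real.sqrt 2 = 1 - ξ := by rw [hξ]; ring
    rw [← this]; exact hzy
  have hκ0 : 0 ≤ κ := le_trans (by positivity) hκ
  have hRpos : ∀ i, 0 < RR c κ n i := by
    intro i
    simp only [RR]
    positivity
  obtain ⟨i, hi, hi1, hi2⟩ := crossing c x y ξ n hn hzx
  obtain ⟨j, hj, hj1, hj2⟩ := crossing (-c) y x (1 - ξ) n hn hzy'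
  -- top data
  set A := ξ - y * nuu c n i with hA
  set w := x - y * vvv c n i with hw
  have h1 : tt n i * A ≤ w := by
    rw [qq_left] at hi1
    rw [hA, hw]; linarith
  have h2 : w ≤ tt n (i + 1) * A := by
    rw [qq_right] at hi2
    rw [hA, hw]; linarith
  -- bottom data
  set B := (1 - ξ) - x * nuu (-c) n j with hB
  set w' := y - x * vvv (-c) n j with hw'
  have h3 : tt n j * B ≤ w' := by
    rw [qq_left] at hj1
    rw [hB, hw']; linarith
  have h4 : w' ≤ tt n (j + 1) * B := by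
    rw [qq_right] at hj2
    rw [hB, hw']; linarith
  by_cases hAR : A ≤ RR c κ n i
  · left
    refine ⟨i, hi, _, top_mem c κ n i hn A w (hRpos i) h1 h2 hAR, y, ?_⟩
    apply vec3_ext
    · show z 0 = w + y * vvv c n i
      rw [hw, hx]; ring
    · show z 1 = 0 + y * 1
      rw [hy]; ring
    · show z 2 = Real.sqrt 2 * (1 - A) + y * (-(Real.sqrt 2 * nuu c n i))
      rw [hz2, hA]; ring
  by_cases hBR : B ≤ RR c κ n j
  · right
    refine ⟨j, hj, _, bot_mem c κ n j hn B w' (hRpos j) h3 h4 hBR, x, ?_⟩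
    apply vec3_ext
    · show z 0 = 0 + x * 1
      rw [hx]; ring
    · show z 1 = w' + x * vvv (-c) n j
      rw [hw', hy]; ring
    · show z 2 = Real.sqrt 2 * B + x * (Real.sqrt 2 * nuu (-c) n j)
      rw [hz2, hB]; ring
  exfalso
  push Not at hAR hBR
  have hm : (0 : ℝ) < 2 / n := by positivity
  have hm1 : (2 : ℝ) / n ≤ 1 := by
    rw [div_le_one (by positivity)]
    exact_mod_cast hn1
  have hA0 : 0 < A := lt_trans (hRpos i) hAR
  have hB0 : 0 < B := lt_trans (hRpos j) hBR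
  set t := tmid n i with ht
  set τ := tmid n j with hτ
  have ht0 : tt n i = t - (2 / n) / 2 := by
    rw [ht, tmid, tt_succ]; ring
  have ht1 : tt n (i + 1) = t + (2 / n) / 2 := by
    rw [ht, tmid, tt_succ]; ring
  have hτ0 : tt n j = τ - (2 / n) / 2 := by
    rw [hτ, tmid, tt_succ]; ring
  have hτ1 : tt n (j + 1) = τ + (2 / n) / 2 := by
    rw [hτ, tmid, tt_succ]; ring
  refine key_ineq c (2 / n) κ t τ (w / A - t) (w' / B - τ) x y A B ξ (vvv c n i) (vvv (-c) n j)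
    hc hc1 hm hm1 (tmid_abs n hn hi) (tmid_abs n hn hj) ?_ ?_ ?_ ?_ ?_ ?_ ?_ ?_ hzx hzy' ?_ ?_ hκ
  · rw [abs_le]
    have h5 : tt n i ≤ w / A := by rw [le_div_iff₀ hA0]; exact h1
    have h6 : w / A ≤ tt n (i + 1) := by rw [div_le_iff₀ hA0]; exact h2
    rw [ht0] at h5; rw [ht1] at h6
    constructor <;> linarith
  · rw [abs_le]
    have h5 : tt n j ≤ w' / B := by rw [le_div_iff₀ hB0]; exact h3
    have h6 : w' / B ≤ tt n (j + 1) := by rw [div_le_iff₀ hB0]; exact h4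
    rw [hτ0] at h5; rw [hτ1] at h6
    constructor <;> linarith
  · rw [vvv, ht0, ht1]; ring
  · rw [vvv, hτ0, hτ1]; ring
  · have : t + (w / A - t) = w / A := by ring
    rw [this, div_mul_cancel₀ _ hA0.ne']
  · have : τ + (w' / B - τ) = w' / B := by ring
    rw [this, div_mul_cancel₀ _ hB0.ne']
  · rw [hA, nuu, ht0, ht1]; ring
  · rw [hB, nuu, hτ0, hτ1]; ring
  · exact hAR
  · exact hBR

end

end Crest.Agent.Tetra
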