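import Crest.Agent.Lib.Tetra.Shapes

/-!
# Lattices of unit squares covering the plane; the frame of a traceless matrix
-/

set_option autoImplicit false

namespace Crest.Agent.Tetra

open Set MeasureTheory

noncomputable section

/-- The sheared lattice `ℤ(1, γ) + ℤ(β, 1)` with `β, γ ≥ 0`, `βγ < 1`: unit squares around its
points cover the plane. -/
lemma lat_cover_pos (β γ : ℝ) (hβ : 0 ≤ β) (hγ : 0 ≤ γ) (hβγ : β * γ < 1) (y₁ y₂ : ℝ) :
    ∃ m n : ℤ, |y₁ - m - β * n| ≤ 1 / 2 ∧ |y₂ - n - γ * m| ≤ 1 / 2 := by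
  obtain ⟨κ, hκ⟩ : ∃ κ, κ = 1 - β * γ := ⟨_, rfl⟩
  have hκ0 : 0 < κ := by rw [hκ]; linarith
  let mm : ℤ → ℤ := fun n => round (y₁ - β * n)
  have hmm : ∀ n : ℤ, |y₁ - β * n - mm n| ≤ 1 / 2 := fun n => abs_sub_round _
  have hmono : ∀ n : ℤ, mm (n + 1) ≤ mm n := by
    intro n
    simp only [mm, round_eq]
    apply Int.floor_le_floor
    push_cast
    nlinarith
  let φ : ℤ → ℝ := fun n => n + γ * mm n
  have hstep : ∀ n : ℤ, φ (n + 1) ≤ φ n + 1 := by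
    intro n
    simp only [φ]
    have h1 : ((mm (n + 1) : ℤ) : ℝ) ≤ mm n := by exact_mod_cast hmono n
    push_cast
    nlinarith
  have hbd : ∀ n : ℤ, |φ n - (n * κ + γ * y₁)| ≤ γ / 2 := by
    intro n
    have h1 : φ n - (n * κ + γ * y₁) = - γ * (y₁ - β * n - mm n) := by
      simp only [φ]; rw [hκ]; ring
    rw [h1, abs_mul, abs_neg, abs_of_nonneg hγ]
    have := hmm n
    nlinarith
  have hex : ∃ n : ℤ, y₂ - 1 / 2 ≤ φ n := by
    refine ⟨⌈(y₂ - 1 / 2 - γ * y₁ + γ / 2) / κ⌉, ?_⟩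
    have h1 := (abs_le.mp (hbd ⌈(y₂ - 1 / 2 - γ * y₁ + γ / 2) / κ⌉)).1
    have h2 := Int.le_ceil ((y₂ - 1 / 2 - γ * y₁ + γ / 2) / κ)
    rw [div_le_iff₀ hκ0] at h2
    linarith
  have hbdd : ∃ b : ℤ, ∀ n : ℤ, y₂ - 1 / 2 ≤ φ n → b ≤ n := by
    refine ⟨⌊(y₂ - 1 / 2 - γ * y₁ - γ / 2) / κ⌋, ?_⟩
    intro n hn
    have h1 := (abs_le.mp (hbd n)).2
    have h2 : (y₂ - 1 / 2 - γ * y₁ - γ / 2) / κ ≤ n := by
      rw [div_le_iff₀ hκ0]; linarith
    have h3 := le_trans (Int.floor_le _) h2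
    exact_mod_cast h3
  obtain ⟨n, hn, hleast⟩ := Int.exists_least_of_bdd hbdd hex
  refine ⟨mm n, n, ?_, ?_⟩
  · have := hmm n
    rwa [show y₁ - ((mm n : ℤ) : ℝ) - β * n = y₁ - β * n - mm n by ring]
  · have h1 : ¬ (y₂ - 1 / 2 ≤ φ (n - 1)) := by
      intro h
      have := hleast _ h
      omega
    push Not at h1
    have h2 := hstep (n - 1)
    rw [sub_add_cancel] at h2
    have h3 : φ n = n + γ * mm n := rfl
    rw [abs_le]
    constructor <;> linarith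

lemma lat_cover (β γ : ℝ) (hβγ0 : 0 ≤ β * γ) (hβγ : β * γ < 1) (y₁ y₂ : ℝ) :
    ∃ m n : ℤ, |y₁ - m - β * n| ≤ 1 / 2 ∧ |y₂ - n - γ * m| ≤ 1 / 2 := by
  have hcases : (0 ≤ β ∧ 0 ≤ γ) ∨ (β ≤ 0 ∧ γ ≤ 0) := by
    rcases le_total 0 β with h | h
    · rcases h.eq_or_lt with h0 | h0
      · rcases le_total 0 γ with h' | h'
        · exact Or.inl ⟨h, h'⟩
        · exact Or.inr ⟨h0.symm.le, h'⟩
      · exact Or.inl ⟨h, nonneg_of_mul_nonneg_right hβγ0 h0⟩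
    · rcases h.eq_or_lt with h0 | h0
      · rcases le_total 0 γ with h' | h'
        · exact Or.inl ⟨h0.symm.le, h'⟩
        · exact Or.inr ⟨h, h'⟩
      · refine Or.inr ⟨h, ?_⟩
        by_contra hγ
        push Not at hγ
        have := mul_neg_of_neg_of_pos h0 hγ
        linarith
  rcases hcases with ⟨h1, h2⟩ | ⟨h1, h2⟩
  · exact lat_cover_pos β γ h1 h2 hβγ y₁ y₂
  · obtain ⟨m, n, h3, h4⟩ := lat_cover_pos (-β) (-γ) (by linarith) (by linarith)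
      (by nlinarith) y₁ (-y₂)
    refine ⟨m, -n, ?_, ?_⟩
    · push_cast
      rwa [show y₁ - (m : ℝ) - β * -(n : ℝ) = y₁ - m - -β * n by ring]
    · push_cast
      rw [show y₂ - -(n : ℝ) - γ * m = -(-y₂ - n - -γ * m) by ring, abs_neg]
      exact h4

/-- Solving the sheared system: the size of the difference vector. -/
lemma lat_bound (β γ u v κ B : ℝ) (hκ : 0 < κ) (hβγ : κ ≤ 1 - β * γ)
    (hβ : |β| ≤ B) (hγ : |γ| ≤ B) (h1 : |u + β * v| ≤ 1 / 2) (h2 : |v + γ * u| ≤ 1 / 2) :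
    |u| ≤ (1 + B) / (2 * κ) ∧ |v| ≤ (1 + B) / (2 * κ) := by
  have hB : 0 ≤ B := le_trans (abs_nonneg _) hβ
  have e1 : (1 - β * γ) * u = (u + β * v) - β * (v + γ * u) := by ring
  have e2 : (1 - β * γ) * v = (v + γ * u) - γ * (u + β * v) := by ring
  have key : ∀ (x a b c : ℝ), (1 - β * γ) * x = a - c * b → |a| ≤ 1 / 2 → |b| ≤ 1 / 2 → |c| ≤ B →
      |x| ≤ (1 + B) / (2 * κ) := by
    intro x a b c hx ha hb hc
    rw [le_div_iff₀ (by positivity)]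
    have h3 : (1 - β * γ) * |x| = |a - c * b| := by
      rw [← hx, abs_mul, abs_of_pos (by linarith : 0 < 1 - β * γ)]
    have h4 : |a - c * b| ≤ |a| + |c| * |b| := by
      calc |a - c * b| ≤ |a| + |c * b| := abs_sub _ _
        _ = |a| + |c| * |b| := by rw [abs_mul]
    have h5 : |c| * |b| ≤ B * (1 / 2) := mul_le_mul hc hb (abs_nonneg _) hB
    have h6 : κ * |x| ≤ (1 - β * γ) * |x| := mul_le_mul_of_nonneg_right hβγ (abs_nonneg _)
    linarith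
  exact ⟨key u _ _ _ e1 h1 h2 hβ, key v _ _ _ e2 h2 h1 hγ⟩

lemma vec2_ext (x y : E2) (h0 : x 0 = y 0) (h1 : x 1 = y 1) : x = y := by
  ext i
  fin_cases i
  · exact h0
  · exact h1

/-- An orthonormal frame in which a traceless `A` has zero diagonal. -/
lemma frame_exists (A : E2 →ₗ[ℝ] E2) (htr : LinearMap.trace ℝ E2 A = 0) :
    ∃ (f₁ f₂ : E2) (C₁₂ C₂₁ : ℝ), ‖f₁‖ = 1 ∧ ‖f₂‖ = 1 ∧ (inner ℝ f₁ f₂ : ℝ) = 0 ∧
      (∀ x : E2, x = (inner ℝ x f₁ : ℝ) • f₁ + (inner ℝ x f₂ : ℝ) • f₂) ∧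
      A f₁ = C₂₁ • f₂ ∧ A f₂ = C₁₂ • f₁ ∧ C₁₂ * C₂₁ = - LinearMap.det A := by
  let B := (EuclideanSpace.basisFun (Fin 2) ℝ).toBasis
  let M := LinearMap.toMatrix B B A
  obtain ⟨e0, he0⟩ : ∃ e0 : E2, e0 = B 0 := ⟨_, rfl⟩
  obtain ⟨e1, he1⟩ : ∃ e1 : E2, e1 = B 1 := ⟨_, rfl⟩
  have hM : ∀ i j, M i j = (A (B j)) i := by
    intro i j
    simp [M, LinearMap.toMatrix_apply, B]
  obtain ⟨a, ha⟩ : ∃ a, a = (A e0) 0 := ⟨_, rfl⟩
  obtain ⟨b, hb⟩ : ∃ b, b = (A e1) 0 := ⟨_, rfl⟩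
  obtain ⟨c, hc⟩ : ∃ c, c = (A e0) 1 := ⟨_, rfl⟩
  obtain ⟨d, hd⟩ : ∃ d, d = (A e1) 1 := ⟨_, rfl⟩
  have htrace : a + d = 0 := by
    have h1 := LinearMap.trace_eq_matrix_trace ℝ B A
    rw [htr, Matrix.trace_fin_two] at h1
    have h2 : LinearMap.toMatrix B B A 0 0 = a := by rw [ha, he0]; exact hM 0 0
    have h3 : LinearMap.toMatrix B B A 1 1 = d := by rw [hd, he1]; exact hM 1 1
    rw [h2, h3] at h1
    exact h1.symm
  have hdet : LinearMap.det A = a * d - b * c := by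
    have h1 := LinearMap.det_toMatrix B A
    rw [Matrix.det_fin_two] at h1
    have h2 : LinearMap.toMatrix B B A 0 0 = a := by rw [ha, he0]; exact hM 0 0
    have h3 : LinearMap.toMatrix B B A 1 1 = d := by rw [hd, he1]; exact hM 1 1
    have h4 : LinearMap.toMatrix B B A 0 1 = b := by rw [hb, he1]; exact hM 0 1
    have h5 : LinearMap.toMatrix B B A 1 0 = c := by rw [hc, he0]; exact hM 1 0
    rw [h2, h3, h4, h5] at h1
    exact h1.symm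
  have hexp : ∀ x : E2, x = x 0 • e0 + x 1 • e1 := by
    intro x
    apply vec2_ext
    · rw [he0, he1]; simp [B]
    · rw [he0, he1]; simp [B]
  have hAx : ∀ x : E2, A x = x 0 • A e0 + x 1 • A e1 := by
    intro x
    conv_lhs => rw [hexp x]
    simp only [map_add, map_smul]
  -- the angle
  let G : ℝ → ℝ := fun θ => a * Real.cos θ ^ 2 + (b + c) * (Real.sin θ * Real.cos θ) + d * Real.sin θ ^ 2
  have hGc : Continuous G := by fun_prop
  have hG0 : G 0 = a := by simp [G]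
  have hG1 : G (Real.pi / 2) = -a := by
    simp only [G, Real.sin_pi_div_two, Real.cos_pi_div_two]
    linarith
  obtain ⟨θ, -, hθ⟩ : ∃ θ ∈ uIcc (0 : ℝ) (Real.pi / 2), G θ = 0 := by
    have h := intermediate_value_uIcc (a := 0) (b := Real.pi / 2) (f := G) hGc.continuousOn
    have h0 : (0 : ℝ) ∈ uIcc (G 0) (G (Real.pi / 2)) := by
      rw [hG0, hG1, mem_uIcc]
      rcases le_total a 0 with h | h
      · exact Or.inl ⟨h, by linarith⟩
      · exact Or.inr ⟨by linarith, h⟩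
    exact h h0
  obtain ⟨C, hC⟩ : ∃ C, C = Real.cos θ := ⟨_, rfl⟩
  obtain ⟨S, hS⟩ : ∃ S, S = Real.sin θ := ⟨_, rfl⟩
  have hCS : C ^ 2 + S ^ 2 = 1 := by rw [hC, hS]; exact Real.cos_sq_add_sin_sq θ
  have hGθ : a * C ^ 2 + (b + c) * (S * C) + d * S ^ 2 = 0 := by rw [hC, hS]; exact hθ
  obtain ⟨f₁, hf₁⟩ : ∃ f₁ : E2, f₁ = !₂[C, S] := ⟨_, rfl⟩
  obtain ⟨f₂, hf₂⟩ : ∃ f₂ : E2, f₂ = !₂[-S, C] := ⟨_, rfl⟩
  have hf10 : f₁ 0 = C := by rw [hf₁]; rfl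
  have hf11 : f₁ 1 = S := by rw [hf₁]; rfl
  have hf20 : f₂ 0 = -S := by rw [hf₂]; rfl
  have hf21 : f₂ 1 = C := by rw [hf₂]; rfl
  have hnorm1 : ‖f₁‖ = 1 := by
    have h : ‖f₁‖ ^ 2 = 1 := by rw [norm_sq_E2, hf10, hf11]; exact hCS
    nlinarith [norm_nonneg f₁]
  have hnorm2 : ‖f₂‖ = 1 := by
    have h : ‖f₂‖ ^ 2 = 1 := by rw [norm_sq_E2, hf20, hf21]; linarith
    nlinarith [norm_nonneg f₂]
  have hinner : (inner ℝ f₁ f₂ : ℝ) = 0 := by
    rw [inner_E2, hf10, hf11, hf20, hf21]; ring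
  have hexp2 : ∀ x : E2, x = (inner ℝ x f₁ : ℝ) • f₁ + (inner ℝ x f₂ : ℝ) • f₂ := by
    intro x
    simp only [inner_E2, hf10, hf11, hf20, hf21]
    apply vec2_ext
    · simp only [PiLp.add_apply, PiLp.smul_apply, smul_eq_mul, hf10, hf20]
      linear_combination (-(x 0)) * hCS
    · simp only [PiLp.add_apply, PiLp.smul_apply, smul_eq_mul, hf11, hf21]
      linear_combination (-(x 1)) * hCS
  have hA10 : (A f₁) 0 = C * a + S * b := by
    rw [hAx f₁, hf10, hf11, ha, hb]; rfl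
  have hA11 : (A f₁) 1 = C * c + S * d := by
    rw [hAx f₁, hf10, hf11, hc, hd]; rfl
  have hA20 : (A f₂) 0 = -S * a + C * b := by
    rw [hAx f₂, hf20, hf21, ha, hb]; rfl
  have hA21 : (A f₂) 1 = -S * c + C * d := by
    rw [hAx f₂, hf20, hf21, hc, hd]; rfl
  have hi11 : (inner ℝ (A f₁) f₁ : ℝ) = 0 := by
    rw [inner_E2, hA10, hA11, hf10, hf11, ← hGθ]; ring
  have hi22 : (inner ℝ (A f₂) f₂ : ℝ) = 0 := by
    rw [inner_E2, hA20, hA21, hf20, hf21]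
    have hd' : d = -a := by linarith
    rw [hd'] at hGθ ⊢
    linear_combination hGθ * (-1) + 0
  refine ⟨f₁, f₂, inner ℝ (A f₂) f₁, inner ℝ (A f₁) f₂, hnorm1, hnorm2, hinner, hexp2, ?_, ?_, ?_⟩
  · conv_lhs => rw [hexp2 (A f₁), hi11, zero_smul, zero_add]
  · conv_lhs => rw [hexp2 (A f₂), hi22, zero_smul, add_zero]
  · rw [hdet]
    have hkey : (inner ℝ (A f₁) f₁ : ℝ) * inner ℝ (A f₂) f₂ - inner ℝ (A f₂) f₁ * inner ℝ (A f₁) f₂ =
        (a * d - b * c) * (C ^ 2 + S ^ 2) ^ 2 := by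
      simp only [inner_E2, hA10, hA11, hA20, hA21, hf10, hf11, hf20, hf21]
      ring
    rw [hi11, hCS] at hkey
    linarith

end

end Crest.Agent.Tetra
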