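import Crest.Agent.Lib.Tetra.Lat

/-!
# Counting lattice points near a compact set by the area of the tiles
-/

set_option autoImplicit false

namespace Crest.Agent.Tetra

open Set MeasureTheory Metric
open scoped ENNReal

noncomputable section

lemma vol_box (x₀ y₀ δ : ℝ) (hδ : 0 ≤ δ) :
    volume {y : E2 | x₀ ≤ y 0 ∧ y 0 < x₀ + δ ∧ y₀ ≤ y 1 ∧ y 1 < y₀ + δ} =
      ENNReal.ofReal (δ ^ 2) := by
  have hmp := EuclideanSpace.volume_preserving_symm_measurableEquiv_toLp (Fin 2)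
  have hset : {y : E2 | x₀ ≤ y 0 ∧ y 0 < x₀ + δ ∧ y₀ ≤ y 1 ∧ y 1 < y₀ + δ} =
      (MeasurableEquiv.toLp 2 (Fin 2 → ℝ)).symm ⁻¹'
        (pi univ fun i => Ico (![x₀, y₀] i) (![x₀ + δ, y₀ + δ] i)) := by
    ext y
    simp only [mem_setOf_eq, mem_preimage, mem_pi, mem_univ, forall_true_left, mem_Ico,
      Fin.forall_fin_two]
    simp only [Matrix.cons_val_zero, Matrix.cons_val_one, Matrix.head_cons]
    constructor
    · rintro ⟨h1, h2, h3, h4⟩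
      exact ⟨⟨h1, h2⟩, ⟨h3, h4⟩⟩
    · rintro ⟨⟨h1, h2⟩, ⟨h3, h4⟩⟩
      exact ⟨h1, h2, h3, h4⟩
  rw [hset, hmp.measure_preimage_equiv, Real.volume_pi_Ico, Fin.prod_univ_two]
  simp only [Matrix.cons_val_zero, Matrix.cons_val_one, Matrix.head_cons]
  rw [add_sub_cancel_left, add_sub_cancel_left, ← ENNReal.ofReal_mul hδ, sq]

/-- The tile around a lattice point of a rotated lattice. -/
def tile (p₀ f₁ f₂ : E2) (δ : ℝ) (z : ℤ × ℤ) : Set E2 :=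
  {x : E2 | δ * ((z.1 : ℝ) - 1 / 2) ≤ (inner ℝ (x - p₀) f₁ : ℝ) ∧
    (inner ℝ (x - p₀) f₁ : ℝ) < δ * ((z.1 : ℝ) - 1 / 2) + δ ∧
    δ * ((z.2 : ℝ) - 1 / 2) ≤ (inner ℝ (x - p₀) f₂ : ℝ) ∧
    (inner ℝ (x - p₀) f₂ : ℝ) < δ * ((z.2 : ℝ) - 1 / 2) + δ}

lemma measurableSet_tile (p₀ f₁ f₂ : E2) (δ : ℝ) (z : ℤ × ℤ) :
    MeasurableSet (tile p₀ f₁ f₂ δ z) := by
  have h1 : Continuous fun x : E2 => (inner ℝ (x - p₀) f₁ : ℝ) := by fun_prop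
  have h2 : Continuous fun x : E2 => (inner ℝ (x - p₀) f₂ : ℝ) := by fun_prop
  have : tile p₀ f₁ f₂ δ z = (fun x : E2 => (inner ℝ (x - p₀) f₁ : ℝ)) ⁻¹'
        Ico (δ * ((z.1 : ℝ) - 1 / 2)) (δ * ((z.1 : ℝ) - 1 / 2) + δ) ∩
      (fun x : E2 => (inner ℝ (x - p₀) f₂ : ℝ)) ⁻¹'
        Ico (δ * ((z.2 : ℝ) - 1 / 2)) (δ * ((z.2 : ℝ) - 1 / 2) + δ) := by
    ext x
    simp only [tile, mem_setOf_eq, mem_inter_iff, mem_preimage, mem_Ico]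
    tauto
  rw [this]
  exact (measurableSet_Ico.preimage h1.measurable).inter (measurableSet_Ico.preimage h2.measurable)

/-- The volume of a tile. -/
lemma vol_tile (p₀ f₁ f₂ : E2) (hf₁ : ‖f₁‖ = 1) (hf₂ : ‖f₂‖ = 1) (hf₁₂ : (inner ℝ f₁ f₂ : ℝ) = 0)
    (hexp : ∀ x : E2, x = (inner ℝ x f₁ : ℝ) • f₁ + (inner ℝ x f₂ : ℝ) • f₂)
    (δ : ℝ) (hδ : 0 ≤ δ) (z : ℤ × ℤ) :
    volume (tile p₀ f₁ f₂ δ z) = ENNReal.ofReal (δ ^ 2) := by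
  have hon : Orthonormal ℝ ![f₁, f₂] := by
    rw [orthonormal_iff_ite]
    intro i j
    fin_cases i <;> fin_cases j
    · simp [real_inner_self_eq_norm_sq, hf₁]
    · simpa using hf₁₂
    · simpa [real_inner_comm] using hf₁₂
    · simp [real_inner_self_eq_norm_sq, hf₂]
  have hsp : ⊤ ≤ Submodule.span ℝ (Set.range ![f₁, f₂]) := by
    intro x _
    rw [hexp x]
    apply Submodule.add_mem
    · apply Submodule.smul_mem
      exact Submodule.subset_span ⟨0, rfl⟩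
    · apply Submodule.smul_mem
      exact Submodule.subset_span ⟨1, rfl⟩
  let B : OrthonormalBasis (Fin 2) ℝ E2 := OrthonormalBasis.mk hon hsp
  have hB0 : B 0 = f₁ := by simp [B]
  have hB1 : B 1 = f₂ := by simp [B]
  have hmp : MeasurePreserving (fun x : E2 => B.repr (x - p₀)) volume volume :=
    B.measurePreserving_repr.comp (measurePreserving_sub_right volume p₀)
  have hset : tile p₀ f₁ f₂ δ z = (fun x : E2 => B.repr (x - p₀)) ⁻¹'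
      {y : E2 | δ * ((z.1 : ℝ) - 1 / 2) ≤ y 0 ∧ y 0 < δ * ((z.1 : ℝ) - 1 / 2) + δ ∧
        δ * ((z.2 : ℝ) - 1 / 2) ≤ y 1 ∧ y 1 < δ * ((z.2 : ℝ) - 1 / 2) + δ} := by
    ext x
    have h0 : (B.repr (x - p₀)) 0 = (inner ℝ (x - p₀) f₁ : ℝ) := by
      rw [OrthonormalBasis.repr_apply_apply, hB0, real_inner_comm]
    have h1 : (B.repr (x - p₀)) 1 = (inner ℝ (x - p₀) f₂ : ℝ) := by
      rw [OrthonormalBasis.repr_apply_apply, hB1, real_inner_comm]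
    simp only [tile, mem_setOf_eq, mem_preimage, h0, h1]
  have hm : MeasurableSet {y : E2 | δ * ((z.1 : ℝ) - 1 / 2) ≤ y 0 ∧ y 0 < δ * ((z.1 : ℝ) - 1 / 2) + δ ∧
        δ * ((z.2 : ℝ) - 1 / 2) ≤ y 1 ∧ y 1 < δ * ((z.2 : ℝ) - 1 / 2) + δ} := by
    have c0 : Continuous fun y : E2 => y 0 := by fun_prop
    have c1 : Continuous fun y : E2 => y 1 := by fun_prop
    apply MeasurableSet.inter (measurableSet_le measurable_const c0.measurable)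
    apply MeasurableSet.inter (measurableSet_lt c0.measurable measurable_const)
    apply MeasurableSet.inter (measurableSet_le measurable_const c1.measurable)
    exact measurableSet_lt c1.measurable measurable_const
  rw [hset, hmp.measure_preimage hm.nullMeasurableSet]
  exact vol_box _ _ _ hδ

lemma tile_disjoint (p₀ f₁ f₂ : E2) (δ : ℝ) (hδ : 0 < δ) (z z' : ℤ × ℤ) (hne : z ≠ z') :
    Disjoint (tile p₀ f₁ f₂ δ z) (tile p₀ f₁ f₂ δ z') := by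
  rw [Set.disjoint_left]
  rintro x ⟨h1, h2, h3, h4⟩ ⟨h1', h2', h3', h4'⟩
  apply hne
  have key : ∀ (a b : ℤ) (t : ℝ), δ * ((a : ℝ) - 1 / 2) ≤ t → t < δ * ((a : ℝ) - 1 / 2) + δ →
      δ * ((b : ℝ) - 1 / 2) ≤ t → t < δ * ((b : ℝ) - 1 / 2) + δ → a = b := by
    intro a b t ha ha' hb hb'
    have h5 : δ * ((a : ℝ) - 1 / 2) < δ * ((b : ℝ) - 1 / 2) + δ := lt_of_le_of_lt ha hb'
    have h6 : δ * ((b : ℝ) - 1 / 2) < δ * ((a : ℝ) - 1 / 2) + δ := lt_of_le_of_lt hb ha'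
    have h7 : (a : ℝ) < b + 1 := by
      by_contra hc
      push Not at hc
      nlinarith
    have h8 : (b : ℝ) < a + 1 := by
      by_contra hc
      push Not at hc
      nlinarith
    have h9 : a < b + 1 := by exact_mod_cast h7
    have h10 : b < a + 1 := by exact_mod_cast h8
    omega
  exact Prod.ext (key _ _ _ h1 h2 h1' h2') (key _ _ _ h3 h4 h3' h4')

/-- A lattice point. -/
def latPt (p₀ f₁ f₂ : E2) (δ : ℝ) (z : ℤ × ℤ) : E2 :=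
  p₀ + (δ * (z.1 : ℝ)) • f₁ + (δ * (z.2 : ℝ)) • f₂

lemma norm_comb (f₁ f₂ : E2) (hf₁ : ‖f₁‖ = 1) (hf₂ : ‖f₂‖ = 1) (hf₁₂ : (inner ℝ f₁ f₂ : ℝ) = 0)
    (x y : ℝ) : ‖x • f₁ + y • f₂‖ ^ 2 = x ^ 2 + y ^ 2 := by
  rw [@norm_add_sq_real, norm_smul, norm_smul, inner_smul_left, inner_smul_right, hf₁₂, hf₁, hf₂]
  simp [sq_abs]

lemma inner_latPt₁ (p₀ f₁ f₂ : E2) (hf₁ : ‖f₁‖ = 1) (hf₁₂ : (inner ℝ f₁ f₂ : ℝ) = 0) (δ : ℝ)
    (z : ℤ × ℤ) : (inner ℝ (latPt p₀ f₁ f₂ δ z - p₀) f₁ : ℝ) = δ * z.1 := by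
  have h : latPt p₀ f₁ f₂ δ z - p₀ = (δ * (z.1 : ℝ)) • f₁ + (δ * (z.2 : ℝ)) • f₂ := by
    simp only [latPt]; abel
  rw [h, inner_add_left, inner_smul_left, inner_smul_left, real_inner_self_eq_norm_sq, hf₁,
    real_inner_comm, hf₁₂]
  simp

lemma inner_latPt₂ (p₀ f₁ f₂ : E2) (hf₂ : ‖f₂‖ = 1) (hf₁₂ : (inner ℝ f₁ f₂ : ℝ) = 0) (δ : ℝ)
    (z : ℤ × ℤ) : (inner ℝ (latPt p₀ f₁ f₂ δ z - p₀) f₂ : ℝ) = δ * z.2 := by
  have h : latPt p₀ f₁ f₂ δ z - p₀ = (δ * (z.1 : ℝ)) • f₁ + (δ * (z.2 : ℝ)) • f₂ := by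
    simp only [latPt]; abel
  rw [h, inner_add_left, inner_smul_left, inner_smul_left, real_inner_self_eq_norm_sq, hf₂, hf₁₂]
  simp

/-- Every point of a tile is close to its centre. -/
lemma tile_near (p₀ f₁ f₂ : E2) (hf₁ : ‖f₁‖ = 1) (hf₂ : ‖f₂‖ = 1) (hf₁₂ : (inner ℝ f₁ f₂ : ℝ) = 0)
    (hexp : ∀ x : E2, x = (inner ℝ x f₁ : ℝ) • f₁ + (inner ℝ x f₂ : ℝ) • f₂)
    (δ : ℝ) (hδ : 0 < δ) (z : ℤ × ℤ) (x : E2) (hx : x ∈ tile p₀ f₁ f₂ δ z) :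
    ‖x - latPt p₀ f₁ f₂ δ z‖ ≤ δ := by
  obtain ⟨h1, h2, h3, h4⟩ := hx
  have e := hexp (x - latPt p₀ f₁ f₂ δ z)
  have e1 : (inner ℝ (x - latPt p₀ f₁ f₂ δ z) f₁ : ℝ) = inner ℝ (x - p₀) f₁ - δ * z.1 := by
    rw [← inner_latPt₁ p₀ f₁ f₂ hf₁ hf₁₂ δ z, ← inner_sub_left]
    congr 1
    abel
  have e2 : (inner ℝ (x - latPt p₀ f₁ f₂ δ z) f₂ : ℝ) = inner ℝ (x - p₀) f₂ - δ * z.2 := by
    rw [← inner_latPt₂ p₀ f₁ f₂ hf₂ hf₁₂ δ z, ← inner_sub_left]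
    congr 1
    abel
  have hsq := norm_comb f₁ f₂ hf₁ hf₂ hf₁₂ (inner ℝ (x - latPt p₀ f₁ f₂ δ z) f₁)
    (inner ℝ (x - latPt p₀ f₁ f₂ δ z) f₂)
  rw [← e, e1, e2] at hsq
  apply abs_le_of_sq_le_sq' _ hδ.le |>.2
  rw [hsq]
  have h5 : |(inner ℝ (x - p₀) f₁ : ℝ) - δ * z.1| ≤ δ / 2 := by
    rw [abs_le]; constructor <;> nlinarith
  have h6 : |(inner ℝ (x - p₀) f₂ : ℝ) - δ * z.2| ≤ δ / 2 := by
    rw [abs_le]; constructor <;> nlinarith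
  have h7 := sq_le_sq' (abs_le.mp h5).1 (abs_le.mp h5).2
  have h8 := sq_le_sq' (abs_le.mp h6).1 (abs_le.mp h6).2
  nlinarith

/-- The counting bound. -/
lemma count_tiles (K : Set E2) (hK : Bornology.IsBounded K) (p₀ f₁ f₂ : E2) (hf₁ : ‖f₁‖ = 1)
    (hf₂ : ‖f₂‖ = 1) (hf₁₂ : (inner ℝ f₁ f₂ : ℝ) = 0)
    (hexp : ∀ x : E2, x = (inner ℝ x f₁ : ℝ) • f₁ + (inner ℝ x f₂ : ℝ) • f₂)
    (δ R : ℝ) (hδ : 0 < δ) (I : Finset (ℤ × ℤ))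
    (hI : ∀ z ∈ I, ∃ p ∈ K, ‖p - latPt p₀ f₁ f₂ δ z‖ ≤ R * δ) :
    (I.card : ℝ) * δ ^ 2 ≤ (volume (cthickening ((R + 1) * δ) K)).toReal := by
  have hbd : Bornology.IsBounded (cthickening ((R + 1) * δ) K) := hK.cthickening
  have hfin : volume (cthickening ((R + 1) * δ) K) ≠ ∞ := hbd.measure_lt_top.ne
  have hsub : (⋃ z ∈ I, tile p₀ f₁ f₂ δ z) ⊆ cthickening ((R + 1) * δ) K := by
    intro x hx
    simp only [mem_iUnion] at hx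
    obtain ⟨z, hz, hxz⟩ := hx
    obtain ⟨p, hp, hpz⟩ := hI z hz
    have h1 := tile_near p₀ f₁ f₂ hf₁ hf₂ hf₁₂ hexp δ hδ z x hxz
    refine mem_cthickening_of_dist_le x p _ K hp ?_
    rw [dist_eq_norm]
    have h2 : x - p = (x - latPt p₀ f₁ f₂ δ z) - (p - latPt p₀ f₁ f₂ δ z) := by abel
    rw [h2]
    calc _ ≤ ‖x - latPt p₀ f₁ f₂ δ z‖ + ‖p - latPt p₀ f₁ f₂ δ z‖ := norm_sub_le _ _
      _ ≤ (R + 1) * δ := by nlinarith
  have hvol : volume (⋃ z ∈ I, tile p₀ f₁ f₂ δ z) = ∑ z ∈ I, ENNReal.ofReal (δ ^ 2) := by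
    rw [measure_biUnion_finset]
    · exact Finset.sum_congr rfl
        (fun z _ => vol_tile p₀ f₁ f₂ hf₁ hf₂ hf₁₂ hexp δ hδ.le z)
    · intro z _ z' _ hne
      exact tile_disjoint p₀ f₁ f₂ δ hδ z z' hne
    · intro z _
      exact measurableSet_tile p₀ f₁ f₂ δ z
  have hle := measure_mono (μ := volume) hsub
  rw [hvol] at hle
  have hle2 := ENNReal.toReal_mono hfin hle
  rw [Finset.sum_const, nsmul_eq_mul, ENNReal.toReal_mul, ENNReal.toReal_natCast,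
    ENNReal.toReal_ofReal (by positivity)] at hle2
  exact hle2

end

end Crest.Agent.Tetra
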