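import Crest.Agent.Lib.Tetra.Proj

/-!
# Finiteness of areas of planar sets; the minimal projection
-/

set_option autoImplicit false

namespace Crest.Agent.Tetra

open Set MeasureTheory Module

noncomputable section

lemma continuous_prj (v : E3) : Continuous (prj v) := by
  unfold prj; fun_prop

/-- Bounded sets in a plane have finite area. -/
lemma muHE_lt_top_of_perp (v : E3) (hv : ‖v‖ = 1) (S : Set E3) (hS : Bornology.IsBounded S)
    (hperp : ∀ x ∈ S, inner ℝ x v = (0 : ℝ)) : μHE[2] S < ⊤ := by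
  have hv0 : v ≠ 0 := by
    intro h; rw [h] at hv; simp at hv
  let W : Submodule ℝ E3 := (ℝ ∙ v)ᗮ
  haveI : Fact (finrank ℝ E3 = 2 + 1) := ⟨by simp⟩
  have hW : finrank ℝ W = 2 := Submodule.finrank_orthogonal_span_singleton hv0
  have hsub : S = (Subtype.val : W → E3) '' ((Subtype.val : W → E3) ⁻¹' S) := by
    ext x
    constructor
    · intro hx
      have hxW : x ∈ W := by
        rw [Submodule.mem_orthogonal_singleton_iff_inner_left]
        exact hperp x hx
      exact ⟨⟨x, hxW⟩, hx, rfl⟩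
    · rintro ⟨y, hy, rfl⟩
      exact hy
  rw [hsub, isometry_subtype_coe.euclideanHausdorffMeasure_image]
  have hbd : Bornology.IsBounded ((Subtype.val : W → E3) ⁻¹' S) := by
    obtain ⟨R, hR⟩ := hS.subset_closedBall 0
    refine (Metric.isBounded_closedBall (x := (0 : W)) (r := R)).subset ?_
    intro y hy
    have := hR hy
    simpa using this
  have h1 : (μHE[finrank ℝ W] : Measure W) = volume := InnerProductSpace.euclideanHausdorffMeasure_eq_volume
  rw [hW] at h1
  rw [h1]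
  exact hbd.measure_lt_top

lemma isCompact_stdK : IsCompact stdK := by
  have : ({!₂[1, 0, 0], !₂[-1, 0, 0], !₂[0, 1, Real.sqrt 2], !₂[0, -1, Real.sqrt 2]} : Set E3).Finite := by
    simp
  exact this.isCompact_convexHull ℝ

/-- Finite area of the projections. -/
lemma proj_lt_top (v : E3) (hv : ‖v‖ = 1) : μHE[2] (prj v '' stdK) < ⊤ := by
  apply muHE_lt_top_of_perp v hv
  · exact (isCompact_stdK.image (continuous_prj v)).isBounded
  · rintro x ⟨y, -, rfl⟩
    exact inner_prj v y hv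

lemma proj_toReal_ge (v : E3) (hv : ‖v‖ = 1) :
    Real.sqrt 2 ≤ (μHE[2] (prj v '' stdK)).toReal := by
  have h := proj_ge v hv
  have h2 := ENNReal.toReal_mono (proj_lt_top v hv).ne h
  rwa [ENNReal.toReal_ofReal sqrt2_pos.le] at h2

def e0 : E3 := !₂[1, 0, 0]

lemma norm_e0 : ‖e0‖ = 1 := by
  have h : ‖e0‖ ^ 2 = 1 := by
    rw [norm_sq_E3]; show (1 : ℝ) ^ 2 + 0 ^ 2 + 0 ^ 2 = 1; norm_num
  have h0 := norm_nonneg e0
  nlinarith

/-- The minimal projection is attained along `e₀`. -/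
theorem proj_e0 : μHE[2] (prj e0 '' stdK) = ENNReal.ofReal (Real.sqrt 2) := by
  apply le_antisymm _ (proj_ge e0 norm_e0)
  have hs2 := sqrt2_sq
  have hs0 := sqrt2_pos
  have hA : prj e0 vA = 0 := by
    apply vec3_ext <;> simp only [prj, inner_E3] <;>
      show _ - ((1 * 1 + 0 * 0 + 0 * 0 : ℝ)) * _ = _ <;> simp [vA, e0]
  have hB : prj e0 vB = 0 := by
    apply vec3_ext <;> simp only [prj, inner_E3] <;>
      show _ - (((-1) * 1 + 0 * 0 + 0 * 0 : ℝ)) * _ = _ <;> simp [vB, e0]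
  have hC : prj e0 vC = vC := by
    apply vec3_ext <;> simp only [prj, inner_E3] <;>
      show _ - ((0 * 1 + 1 * 0 + Real.sqrt 2 * 0 : ℝ)) * _ = _ <;> simp [vC, e0]
  have hD : prj e0 vD = vD := by
    apply vec3_ext <;> simp only [prj, inner_E3] <;>
      show _ - ((0 * 1 + (-1) * 0 + Real.sqrt 2 * 0 : ℝ)) * _ = _ <;> simp [vD, e0]
  have hsub : prj e0 '' stdK ⊆ convexHull ℝ {0, vC, vD} := by
    rw [stdK_eq]
    have := (prjL e0).image_convexHull stdS
    change prj e0 '' convexHull ℝ stdS = convexHull ℝ (prj e0 '' stdS) at this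
    rw [this]
    apply convexHull_mono
    rintro x ⟨y, (rfl | rfl | rfl | rfl), rfl⟩
    · rw [hA]; simp
    · rw [hB]; simp
    · rw [hC]; simp
    · rw [hD]; simp
  refine le_trans (measure_mono hsub) ?_
  rw [muHE_conv3, sub_zero, sub_zero]
  apply ENNReal.ofReal_le_ofReal
  have hgram : gram vC vD = Real.sqrt 8 := by
    rw [gram, norm_sq_E3, norm_sq_E3, inner_E3]
    congr 1
    show ((0 : ℝ) ^ 2 + 1 ^ 2 + Real.sqrt 2 ^ 2) * ((0 : ℝ) ^ 2 + (-1) ^ 2 + Real.sqrt 2 ^ 2) -
      (0 * 0 + 1 * (-1) + Real.sqrt 2 * Real.sqrt 2) ^ 2 = 8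
    have : Real.sqrt 2 * Real.sqrt 2 = 2 := by nlinarith
    rw [this, hs2]; norm_num
  rw [hgram]
  have h8 : Real.sqrt 8 = 2 * Real.sqrt 2 := by
    rw [show (8 : ℝ) = 2 ^ 2 * 2 by norm_num, Real.sqrt_mul (by norm_num),
      Real.sqrt_sq (by norm_num)]
  rw [h8]; linarith

/-- The relation between the normalised and the raw Hausdorff measure. -/
lemma muHE_toReal : ∃ C : ℝ, 0 < C ∧ ∀ S : Set E3,
    (μHE[2] S).toReal = C * (μH[(2 : ℝ)] S).toReal := by
  refine ⟨(Measure.addHaarScalarFactor (volume : Measure (EuclideanSpace ℝ (Fin 2)))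
    (μH[((2 : ℕ) : ℝ)]) : ℝ), ?_, ?_⟩
  · have := Measure.addHaarScalarFactor_volume_hausdorffMeasure_ne_zero 2
    exact lt_of_le_of_ne (NNReal.coe_nonneg _) (Ne.symm (by exact_mod_cast this))
  · intro S
    rw [Measure.euclideanHausdorffMeasure_def, Measure.smul_apply, ENNReal.smul_def,
      smul_eq_mul, ENNReal.toReal_mul]
    simp

end

end Crest.Agent.Tetra
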