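import Crest.Agent.Lib.Tetra.Cover
import Crest.Agent.Lib.Tetra.Proj2

/-!
# Refining triangles to parallelograms; relatively open enlargements
-/

set_option autoImplicit false

namespace Crest.Agent.Tetra

open Set MeasureTheory Finset

noncomputable section

lemma gram_smul (k l : ℝ) (a b : E3) : gram (k • a) (l • b) = |k * l| * gram a b := by
  have h1 : ‖k • a‖ ^ 2 * ‖l • b‖ ^ 2 - (inner ℝ (k • a) (l • b) : ℝ) ^ 2 =
      (k * l) ^ 2 * (‖a‖ ^ 2 * ‖b‖ ^ 2 - (inner ℝ a b : ℝ) ^ 2) := by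
    rw [norm_smul, norm_smul, inner_smul_left, inner_smul_right]
    simp only [Real.norm_eq_abs, mul_pow, sq_abs, conj_trivial]
    ring
  rw [gram, h1, Real.sqrt_mul (sq_nonneg _), Real.sqrt_sq_eq_abs, gram]

lemma gram_nonneg' (a b : E3) : 0 ≤ ‖a‖ ^ 2 * ‖b‖ ^ 2 - (inner ℝ a b : ℝ) ^ 2 := by
  have := abs_real_inner_le_norm a b
  have h2 : (inner ℝ a b : ℝ) ^ 2 ≤ (‖a‖ * ‖b‖) ^ 2 := by
    rw [← sq_abs]; exact pow_le_pow_left₀ (abs_nonneg _) this 2
  nlinarith

lemma gram_sq (a b : E3) : gram a b ^ 2 = ‖a‖ ^ 2 * ‖b‖ ^ 2 - (inner ℝ a b : ℝ) ^ 2 :=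
  Real.sq_sqrt (gram_nonneg' a b)

/-- One strip of the triangle. -/
def stripC (p a : E3) (N j : ℕ) : E3 := p + ((j : ℝ) / N) • a
def stripA (a : E3) (N : ℕ) : E3 := (1 / (N : ℝ)) • a
def stripB (b : E3) (N j : ℕ) : E3 := (1 - (j : ℝ) / N) • b

lemma tri_subset_para (p q r x : E3) (N : ℕ) (hN : 0 < N) (hx : x ∈ convexHull ℝ {p, q, r}) :
    ∃ j : Fin N, x ∈ para (stripC p (q - p) N j) (stripA (q - p) N) (stripB (r - p) N j) := by
  rw [mem_conv3] at hx
  obtain ⟨c₁, α, β, h1, h2, h3, h4, rfl⟩ := hx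
  have hNr : (0 : ℝ) < N := by exact_mod_cast hN
  have hα1 : α ≤ 1 := by linarith
  have hαβ : α + β ≤ 1 := by linarith
  -- the index
  obtain ⟨j, hjlt, hj1, hj2⟩ : ∃ j : ℕ, j < N ∧ (j : ℝ) / N ≤ α ∧ α ≤ ((j : ℝ) + 1) / N := by
    by_cases hα : α = 1
    · refine ⟨N - 1, by omega, ?_, ?_⟩
      · rw [hα, div_le_one hNr]
        have : ((N - 1 : ℕ) : ℝ) ≤ N := by exact_mod_cast Nat.sub_le _ _
        exact this
      · have : ((N - 1 : ℕ) : ℝ) + 1 = N := by
          have : N - 1 + 1 = N := by omega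
          exact_mod_cast this
        rw [hα, this, div_self hNr.ne']
    · have hαlt : α < 1 := lt_of_le_of_ne hα1 hα
      refine ⟨⌊α * N⌋₊, ?_, ?_, ?_⟩
      · have : α * N < N := by nlinarith
        exact (Nat.floor_lt (by positivity)).mpr this
      · rw [div_le_iff₀ hNr]
        exact Nat.floor_le (by positivity)
      · rw [le_div_iff₀ hNr]
        exact (Nat.lt_floor_add_one _).le
  refine ⟨⟨j, hjlt⟩, ?_⟩
  have hj1' : (j : ℝ) / N < 1 := by
    rw [div_lt_one hNr]; exact_mod_cast hjlt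
  have hden : 0 < 1 - (j : ℝ) / N := by linarith
  refine ⟨(α - (j : ℝ) / N) * N, ⟨?_, ?_⟩, β / (1 - (j : ℝ) / N), ⟨?_, ?_⟩, ?_⟩
  · have : 0 ≤ α - (j : ℝ) / N := by linarith
    positivity
  · have : (α - (j : ℝ) / N) * N ≤ (((j : ℝ) + 1) / N - (j : ℝ) / N) * N :=
      mul_le_mul_of_nonneg_right (by linarith) hNr.le
    have e : (((j : ℝ) + 1) / N - (j : ℝ) / N) * N = 1 := by field_simp; ring
    linarith
  · positivity
  · rw [div_le_one hden]; linarith
  · simp only [stripC, stripA, stripB, smul_smul]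
    have e1 : (α - (j : ℝ) / N) * N * (1 / (N : ℝ)) = α - (j : ℝ) / N := by field_simp
    have e2 : β / (1 - (j : ℝ) / N) * (1 - (j : ℝ) / N) = β := div_mul_cancel₀ _ hden.ne'
    rw [e1, e2]
    have : c₁ = 1 - α - β := by linarith
    subst this
    simp only [sub_smul, smul_sub, one_smul]
    abel

lemma sum_strips (a b : E3) (N : ℕ) (hN : 0 < N) :
    ∑ j : Fin N, gram (stripA a N) (stripB b N j) = gram a b * (1 + 1 / (N : ℝ)) / 2 := by
  have hNr : (0 : ℝ) < N := by exact_mod_cast hN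
  have h1 : ∀ j : Fin N, gram (stripA a N) (stripB b N j) =
      gram a b * ((1 / (N : ℝ)) * (1 - ((j : ℕ) : ℝ) / N)) := by
    intro j
    rw [stripA, stripB, gram_smul, mul_comm]
    congr 1
    have hj : ((j : ℕ) : ℝ) / N < 1 := by
      rw [div_lt_one hNr]; exact_mod_cast j.2
    rw [abs_of_nonneg]
    apply mul_nonneg (by positivity) (by linarith)
  simp_rw [h1]
  rw [← Finset.mul_sum, mul_div_assoc]
  congr 1
  rw [Fin.sum_univ_eq_sum_range (fun j : ℕ => (1 / (N : ℝ)) * (1 - (j : ℝ) / N)) N,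
    ← Finset.mul_sum, Finset.sum_sub_distrib]
  simp only [Finset.sum_const, card_range, nsmul_eq_mul, mul_one]
  rw [← Finset.sum_div]
  have hg : ∑ j ∈ range N, (j : ℝ) = (N : ℝ) * ((N : ℝ) - 1) / 2 := by
    have := Finset.sum_range_id_mul_two N
    have h2 : ((∑ j ∈ range N, j : ℕ) : ℝ) * 2 = (N : ℝ) * ((N - 1 : ℕ) : ℝ) := by
      exact_mod_cast this
    have h3 : ((N - 1 : ℕ) : ℝ) = (N : ℝ) - 1 := by
      rw [Nat.cast_sub hN]; simp
    rw [h3] at h2
    push_cast at h2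
    linarith
  rw [hg]
  field_simp
  ring

lemma inner_stripC (p a u : E3) (N j : ℕ) (hp : inner ℝ p u = (0 : ℝ)) (ha : inner ℝ a u = (0 : ℝ)) :
    inner ℝ (stripC p a N j) u = (0 : ℝ) := by
  rw [stripC, inner_add_left, inner_smul_left, hp, ha]; simp

lemma inner_stripA (a u : E3) (N : ℕ) (ha : inner ℝ a u = (0 : ℝ)) :
    inner ℝ (stripA a N) u = (0 : ℝ) := by
  rw [stripA, inner_smul_left, ha]; simp

lemma inner_stripB (b u : E3) (N j : ℕ) (hb : inner ℝ b u = (0 : ℝ)) :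
    inner ℝ (stripB b N j) u = (0 : ℝ) := by
  rw [stripB, inner_smul_left, hb]; simp

/-- The area of `μHE[2]` of parallelogram bases is the Gram area. -/
lemma para_subset_bdd (c a b : E3) : Bornology.IsBounded (para c a b) := by
  apply (Metric.isBounded_closedBall (x := (0 : E3)) (r := ‖c‖ + ‖a‖ + ‖b‖)).subset
  rintro x ⟨s, hs, t, ht, rfl⟩
  rw [mem_closedBall_zero_iff]
  have h1 : ‖s • a‖ ≤ ‖a‖ := by
    rw [norm_smul, Real.norm_eq_abs, abs_of_nonneg hs.1]
    have := norm_nonneg a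
    nlinarith [hs.2]
  have h2 : ‖t • b‖ ≤ ‖b‖ := by
    rw [norm_smul, Real.norm_eq_abs, abs_of_nonneg ht.1]
    have := norm_nonneg b
    nlinarith [ht.2]
  calc ‖c + s • a + t • b‖ ≤ ‖c + s • a‖ + ‖t • b‖ := norm_add_le _ _
    _ ≤ ‖c‖ + ‖s • a‖ + ‖t • b‖ := by gcongr; exact norm_add_le _ _
    _ ≤ _ := by gcongr

lemma cramer1 (P Q R A B G2 : ℝ) (hG : G2 = A * B - R ^ 2) (h : G2 ≠ 0) :
    ((P * B - Q * R) / G2) * A + ((Q * A - P * R) / G2) * R = P := by
  rw [div_mul_eq_mul_div, div_mul_eq_mul_div, ← add_div, div_eq_iff h, hG]; ring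

lemma cramer2 (P Q R A B G2 : ℝ) (hG : G2 = A * B - R ^ 2) (h : G2 ≠ 0) :
    ((P * B - Q * R) / G2) * R + ((Q * A - P * R) / G2) * B = Q := by
  rw [div_mul_eq_mul_div, div_mul_eq_mul_div, ← add_div, div_eq_iff h, hG]; ring

lemma cramer3 (s t R A B G2 : ℝ) (hG : G2 = A * B - R ^ 2) (h : G2 ≠ 0) :
    ((s * A + t * R) * B - (s * R + t * B) * R) / G2 = s := by
  rw [div_eq_iff h, hG]; ring

lemma cramer4 (s t R A B G2 : ℝ) (hG : G2 = A * B - R ^ 2) (h : G2 ≠ 0) :
    ((s * R + t * B) * A - (s * A + t * R) * R) / G2 = t := by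
  rw [div_eq_iff h, hG]; ring

/-- Cramer: a vector orthogonal to `u` lies in the span of `a, b`. -/
lemma span_of_perp (u a b y : E3) (hu : ‖u‖ = 1) (ha : inner ℝ a u = (0 : ℝ))
    (hb : inner ℝ b u = (0 : ℝ)) (hg : 0 < gram a b) (hy : inner ℝ y u = (0 : ℝ)) :
    y = ((inner ℝ y a * ‖b‖ ^ 2 - inner ℝ y b * inner ℝ a b) / gram a b ^ 2) • a +
        ((inner ℝ y b * ‖a‖ ^ 2 - inner ℝ y a * inner ℝ a b) / gram a b ^ 2) • b := by
  obtain ⟨G, hG⟩ : ∃ G, G = gram a b := ⟨_, rfl⟩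
  have hG2 : G ^ 2 = ‖a‖ ^ 2 * ‖b‖ ^ 2 - (inner ℝ a b : ℝ) ^ 2 := by rw [hG, gram_sq]
  have hGpos : 0 < G ^ 2 := by rw [hG]; positivity
  rw [← hG]
  set α := (inner ℝ y a * ‖b‖ ^ 2 - inner ℝ y b * inner ℝ a b) / G ^ 2 with hα
  set β := (inner ℝ y b * ‖a‖ ^ 2 - inner ℝ y a * inner ℝ a b) / G ^ 2 with hβ
  set z := y - (α • a + β • b) with hz
  have hza : (inner ℝ z a : ℝ) = 0 := by
    rw [hz, inner_sub_left, inner_add_left, inner_smul_left, inner_smul_left,
      real_inner_self_eq_norm_sq, real_inner_comm a b]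
    simp only [conj_trivial, hα, hβ]
    rw [cramer1 _ _ _ _ _ _ hG2 hGpos.ne']; ring
  have hzb : (inner ℝ z b : ℝ) = 0 := by
    rw [hz, inner_sub_left, inner_add_left, inner_smul_left, inner_smul_left,
      real_inner_self_eq_norm_sq]
    simp only [conj_trivial, hα, hβ]
    rw [cramer2 _ _ _ _ _ _ hG2 hGpos.ne']; ring
  have hzu : (inner ℝ z u : ℝ) = 0 := by
    rw [hz, inner_sub_left, inner_add_left, inner_smul_left, inner_smul_left, ha, hb, hy]; simp
  -- the determinant does not vanish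
  have hd : det3 u a b ≠ 0 := by
    have h1 : prj u a = a := by rw [prj, ha]; simp
    have h2 : prj u b = b := by rw [prj, hb]; simp
    have h3 := gram_prj u a b hu
    rw [h1, h2] at h3
    intro h0
    rw [h0, abs_zero] at h3
    rw [h3] at hg
    exact lt_irrefl _ hg
  -- hence `z = 0`
  have hz0 : z = 0 := by
    rw [inner_E3] at hza hzb hzu
    apply vec3_ext
    · have : z 0 * det3 u a b = 0 := by
        simp only [det3]
        linear_combination (b 1 * u 2 - b 2 * u 1) * hza +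
          (u 1 * a 2 - u 2 * a 1) * hzb + (a 1 * b 2 - a 2 * b 1) * hzu
      simpa [hd] using this
    · have : z 1 * det3 u a b = 0 := by
        simp only [det3]
        linear_combination (b 2 * u 0 - b 0 * u 2) * hza +
          (u 2 * a 0 - u 0 * a 2) * hzb + (a 2 * b 0 - a 0 * b 2) * hzu
      simpa [hd] using this
    · have : z 2 * det3 u a b = 0 := by
        simp only [det3]
        linear_combination (b 0 * u 1 - b 1 * u 0) * hza +
          (u 0 * a 1 - u 1 * a 0) * hzb + (a 0 * b 1 - a 1 * b 0) * hzu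
      simpa [hd] using this
  have := sub_eq_zero.mp (hz ▸ hz0)
  exact this

/-- The relatively open enlargement of a parallelogram. -/
theorem open_para (u c a b : E3) (hu : ‖u‖ = 1) (hc : inner ℝ c u = (0 : ℝ))
    (ha : inner ℝ a u = (0 : ℝ)) (hb : inner ℝ b u = (0 : ℝ)) (hg : 0 < gram a b) (η : ℝ) (hη : 0 < η) :
    ∃ B : Set E3, Bornology.IsBounded B ∧
      (∃ O : Set E3, IsOpen O ∧ B = O ∩ {x | inner ℝ x u = (0 : ℝ)}) ∧
      para c a b ⊆ B ∧ (μHE[2] B).toReal ≤ (1 + 2 * η) ^ 2 * gram a b := by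
  obtain ⟨G, hG⟩ : ∃ G, G = gram a b := ⟨_, rfl⟩
  have hG2 : G ^ 2 = ‖a‖ ^ 2 * ‖b‖ ^ 2 - (inner ℝ a b : ℝ) ^ 2 := by rw [hG, gram_sq]
  have hGpos : 0 < G ^ 2 := by rw [hG]; positivity
  let α : E3 → ℝ := fun x =>
    ((inner ℝ (x - c) a : ℝ) * ‖b‖ ^ 2 - inner ℝ (x - c) b * inner ℝ a b) / G ^ 2
  let β : E3 → ℝ := fun x =>
    ((inner ℝ (x - c) b : ℝ) * ‖a‖ ^ 2 - inner ℝ (x - c) a * inner ℝ a b) / G ^ 2
  have hαc : Continuous α := by fun_prop
  have hβc : Continuous β := by fun_prop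
  let O : Set E3 := {x | -η < α x ∧ α x < 1 + η ∧ -η < β x ∧ β x < 1 + η}
  have hO : IsOpen O := by
    refine (isOpen_lt continuous_const hαc).inter ((isOpen_lt hαc continuous_const).inter
      ((isOpen_lt continuous_const hβc).inter (isOpen_lt hβc continuous_const)))
  let B : Set E3 := O ∩ {x | inner ℝ x u = (0 : ℝ)}
  -- `B` sits in a slightly larger parallelogram
  let c' : E3 := c - η • a - η • b
  let a' : E3 := (1 + 2 * η) • a
  let b' : E3 := (1 + 2 * η) • b
  have hBsub : B ⊆ para c' a' b' := by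
    rintro x ⟨⟨h1, h2, h3, h4⟩, hx⟩
    have hxu : (inner ℝ (x - c) u : ℝ) = 0 := by
      rw [inner_sub_left, hx, hc]; simp
    have hspan := span_of_perp u a b (x - c) hu ha hb hg hxu
    rw [← hG] at hspan
    have hpos : 0 < 1 + 2 * η := by linarith
    refine ⟨(α x + η) / (1 + 2 * η), ⟨by apply div_nonneg <;> linarith, ?_⟩,
      (β x + η) / (1 + 2 * η), ⟨by apply div_nonneg <;> linarith, ?_⟩, ?_⟩
    · rw [div_le_one hpos]; linarith
    · rw [div_le_one hpos]; linarith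
    · simp only [c', a', b', smul_smul]
      rw [div_mul_cancel₀ _ hpos.ne', div_mul_cancel₀ _ hpos.ne', add_smul, add_smul]
      have e : x = c + (x - c) := by abel
      conv_lhs => rw [e, hspan]
      simp only [α, β]
      abel
  refine ⟨B, (para_subset_bdd c' a' b').subset hBsub, ⟨O, hO, rfl⟩, ?_, ?_⟩
  · rintro x ⟨s, hs, t, ht, rfl⟩
    have e : c + s • a + t • b - c = s • a + t • b := by abel
    have hinner1 : (inner ℝ (c + s • a + t • b - c) a : ℝ) = s * ‖a‖ ^ 2 + t * inner ℝ a b := by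
      rw [e, inner_add_left, inner_smul_left, inner_smul_left, real_inner_self_eq_norm_sq,
        real_inner_comm a b]
      simp
    have hinner2 : (inner ℝ (c + s • a + t • b - c) b : ℝ) = s * inner ℝ a b + t * ‖b‖ ^ 2 := by
      rw [e, inner_add_left, inner_smul_left, inner_smul_left, real_inner_self_eq_norm_sq]
      simp
    have hαs : α (c + s • a + t • b) = s := by
      simp only [α]
      rw [hinner1, hinner2]
      exact cramer3 _ _ _ _ _ _ hG2 hGpos.ne'
    have hβt : β (c + s • a + t • b) = t := by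
      simp only [β]
      rw [hinner1, hinner2]
      exact cramer4 _ _ _ _ _ _ hG2 hGpos.ne'
    refine ⟨⟨?_, ?_, ?_, ?_⟩, ?_⟩
    · rw [hαs]; linarith [hs.1]
    · rw [hαs]; linarith [hs.2]
    · rw [hβt]; linarith [ht.1]
    · rw [hβt]; linarith [ht.2]
    · show (inner ℝ (c + s • a + t • b) u : ℝ) = 0
      rw [inner_add_left, inner_add_left, inner_smul_left, inner_smul_left, hc, ha, hb]; simp
  · have h1 : μHE[2] B ≤ ENNReal.ofReal (gram a' b') := by
      rw [← muHE_para c' a' b']; exact measure_mono hBsub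
    have h2 : gram a' b' = (1 + 2 * η) ^ 2 * gram a b := by
      simp only [a', b']
      rw [gram_smul, abs_of_nonneg (by positivity)]; ring
    rw [h2] at h1
    have h3 := ENNReal.toReal_mono ENNReal.ofReal_ne_top h1
    rwa [ENNReal.toReal_ofReal (by have := gram_nonneg a b; positivity)] at h3

end

end Crest.Agent.Tetra
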