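import Crest.Agent.Lib.Tetra.Family

/-!
# Areas of the orthogonal projections of the regular tetrahedron
-/

set_option autoImplicit false

namespace Crest.Agent.Tetra

open Set MeasureTheory Module

noncomputable section

/-- The projection as a linear map. -/
def prjL (v : E3) : E3 →ₗ[ℝ] E3 where
  toFun := prj v
  map_add' x y := by simp only [prj, inner_add_left, add_smul]; abel
  map_smul' r x := by
    simp only [prj, inner_smul_left, RingHom.id_apply, conj_trivial, smul_sub, smul_smul]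

lemma prjL_apply (v x : E3) : prjL v x = prj v x := rfl

lemma det3_self (u a : E3) : det3 u a a = 0 := by simp only [det3]; ring

lemma det3_left_self (u b : E3) : det3 u u b = 0 := by simp only [det3]; ring

lemma det3_right_self (u a : E3) : det3 u a u = 0 := by simp only [det3]; ring

lemma det3_add_right (u a x y : E3) : det3 u a (x + y) = det3 u a x + det3 u a y := by
  simp only [det3, PiLp.add_apply]; ring

lemma det3_smul_right (u a x : E3) (k : ℝ) : det3 u a (k • x) = k * det3 u a x := by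
  simp only [det3, PiLp.smul_apply, smul_eq_mul]; ring

lemma det3_prj (v a b : E3) : det3 v (prj v a) (prj v b) = det3 v a b := by
  simp only [det3, prj, PiLp.sub_apply, PiLp.smul_apply, smul_eq_mul]; ring

/-- Image of a triangle on vertices in `S` lies in the projected hull. -/
lemma conv3_subset_image (v : E3) (S : Set E3) (A B C : E3) (hA : A ∈ S) (hB : B ∈ S) (hC : C ∈ S) :
    convexHull ℝ {prj v A, prj v B, prj v C} ⊆ prj v '' convexHull ℝ S := by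
  apply convexHull_min
  · rintro x (rfl | rfl | rfl)
    · exact ⟨A, subset_convexHull ℝ S hA, rfl⟩
    · exact ⟨B, subset_convexHull ℝ S hB, rfl⟩
    · exact ⟨C, subset_convexHull ℝ S hC, rfl⟩
  · exact (convex_convexHull ℝ S).linear_image (prjL v)

lemma area_tri_prj (v : E3) (hv : ‖v‖ = 1) (A B C : E3) :
    μHE[2] (convexHull ℝ {prj v A, prj v B, prj v C}) =
      ENNReal.ofReal (|det3 v (B - A) (C - A)| / 2) := by
  rw [muHE_conv3, prj_sub, prj_sub, gram_prj v _ _ hv]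

/-- one triangle bound -/
lemma one_tri (v : E3) (hv : ‖v‖ = 1) (S : Set E3) (A B C : E3) (hA : A ∈ S) (hB : B ∈ S)
    (hC : C ∈ S) :
    ENNReal.ofReal (|det3 v (B - A) (C - A)| / 2) ≤ μHE[2] (prj v '' convexHull ℝ S) := by
  rw [← area_tri_prj v hv]
  exact measure_mono (conv3_subset_image v S A B C hA hB hC)

lemma isClosed_conv3 (p q r : E3) : IsClosed (convexHull ℝ ({p, q, r} : Set E3)) := by
  have : ({p, q, r} : Set E3).Finite := by simp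
  exact (this.isCompact_convexHull (𝕜 := ℝ)).isClosed

/-- two triangles on opposite sides of a line -/
lemma two_tri (v : E3) (hv : ‖v‖ = 1) (S : Set E3) (P₁ P₂ P₃ P₄ : E3) (h₁ : P₁ ∈ S) (h₂ : P₂ ∈ S)
    (h₃ : P₃ ∈ S) (h₄ : P₄ ∈ S)
    (hopp : det3 v (P₄ - P₃) (P₁ - P₃) * det3 v (P₄ - P₃) (P₂ - P₃) ≤ 0) :
    ENNReal.ofReal ((|det3 v (P₄ - P₃) (P₁ - P₃)| + |det3 v (P₄ - P₃) (P₂ - P₃)|) / 2) ≤
      μHE[2] (prj v '' convexHull ℝ S) := by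
  set a := det3 v (P₄ - P₃) (P₁ - P₃) with ha
  set b := det3 v (P₄ - P₃) (P₂ - P₃) with hb
  by_cases ha0 : a = 0
  · have := one_tri v hv S P₃ P₄ P₂ h₃ h₄ h₂
    rw [← hb] at this
    rw [ha0]; simpa using this
  by_cases hb0 : b = 0
  · have := one_tri v hv S P₃ P₄ P₁ h₃ h₄ h₁
    rw [← ha] at this
    rw [hb0]; simpa using this
  -- strictly opposite
  set X₁ := prj v P₁
  set X₂ := prj v P₂
  set X₃ := prj v P₃
  set X₄ := prj v P₄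
  set T₁ : Set E3 := convexHull ℝ {X₃, X₄, X₁} with hT₁
  set T₂ : Set E3 := convexHull ℝ {X₃, X₄, X₂} with hT₂
  have hsub : T₁ ∪ T₂ ⊆ prj v '' convexHull ℝ S :=
    union_subset (conv3_subset_image v S P₃ P₄ P₁ h₃ h₄ h₁) (conv3_subset_image v S P₃ P₄ P₂ h₃ h₄ h₂)
  have hμ₁ : μHE[2] T₁ = ENNReal.ofReal (|a| / 2) := area_tri_prj v hv P₃ P₄ P₁
  have hμ₂ : μHE[2] T₂ = ENNReal.ofReal (|b| / 2) := area_tri_prj v hv P₃ P₄ P₂
  -- the height function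
  let hh : E3 → ℝ := fun x => det3 v (X₄ - X₃) (x - X₃)
  have hh₁ : hh X₁ = a := by
    simp only [hh, X₁, X₃, X₄, prj_sub]; rw [det3_prj]
  have hh₂ : hh X₂ = b := by
    simp only [hh, X₂, X₃, X₄, prj_sub]; rw [det3_prj]
  have hmem : ∀ Y x : E3, x ∈ convexHull ℝ {X₃, X₄, Y} →
      ∃ β γ : ℝ, 0 ≤ γ ∧ x = X₃ + (β • (X₄ - X₃) + γ • (Y - X₃)) ∧ hh x = γ * hh Y := by
    intro Y x hx
    rw [mem_conv3] at hx
    obtain ⟨α, β, γ, h1, h2, h3, h4, rfl⟩ := hx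
    have e : α • X₃ + β • X₄ + γ • Y = X₃ + (β • (X₄ - X₃) + γ • (Y - X₃)) := by
      have : α = 1 - β - γ := by linarith
      subst this
      simp only [sub_smul, one_smul, smul_sub]
      abel
    refine ⟨β, γ, h3, e, ?_⟩
    simp only [hh]
    rw [e, add_sub_cancel_left, det3_add_right, det3_smul_right, det3_smul_right, det3_self]
    ring
  -- the intersection is null
  have hnull : μHE[2] (T₁ ∩ T₂) = 0 := by
    have hsubline : T₁ ∩ T₂ ⊆ (fun x => X₃ + x) '' {y | ∃ t : ℝ, y = t • (X₄ - X₃)} := by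
      rintro x ⟨hx1, hx2⟩
      obtain ⟨β, γ, hγ, hxe, hhx⟩ := hmem X₁ x hx1
      obtain ⟨β', γ', hγ', hxe', hhx'⟩ := hmem X₂ x hx2
      rw [hh₁] at hhx
      rw [hh₂] at hhx'
      -- one of the two coefficients vanishes
      have hab : a * b < 0 := lt_of_le_of_ne hopp (mul_ne_zero ha0 hb0)
      have hγ0 : γ = 0 ∨ γ' = 0 := by
        by_contra hcon
        push Not at hcon
        have hγpos : 0 < γ := lt_of_le_of_ne hγ (Ne.symm hcon.1)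
        have hγ'pos : 0 < γ' := lt_of_le_of_ne hγ' (Ne.symm hcon.2)
        have h1 : γ * a = γ' * b := by rw [← hhx, hhx']
        have h2 : 0 ≤ (γ * a) * (γ' * b) := by rw [h1]; exact mul_self_nonneg _
        have h3 : (γ * a) * (γ' * b) = (γ * γ') * (a * b) := by ring
        rw [h3] at h2
        have h4 : 0 < γ * γ' := mul_pos hγpos hγ'pos
        nlinarith
      rcases hγ0 with h0 | h0
      · refine ⟨β • (X₄ - X₃), ⟨β, rfl⟩, ?_⟩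
        rw [hxe, h0]; simp
      · refine ⟨β' • (X₄ - X₃), ⟨β', rfl⟩, ?_⟩
        rw [hxe', h0]; simp
    refine measure_mono_null hsubline ?_
    rw [muHE_add_image]
    apply muHE_line (X₄ - X₃)
    rintro y ⟨t, rfl⟩
    exact ⟨t, rfl⟩
  have hmeas : MeasurableSet T₂ := (isClosed_conv3 _ _ _).measurableSet
  have hadd := measure_union_add_inter (μ := μHE[2]) T₁ hmeas
  rw [hnull, add_zero, hμ₁, hμ₂] at hadd
  refine le_trans ?_ (measure_mono hsub)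
  rw [hadd, ← ENNReal.ofReal_add (by positivity) (by positivity)]
  apply ENNReal.ofReal_le_ofReal
  linarith

section vertices

def vA : E3 := !₂[1, 0, 0]
def vB : E3 := !₂[-1, 0, 0]
def vC : E3 := !₂[0, 1, Real.sqrt 2]
def vD : E3 := !₂[0, -1, Real.sqrt 2]

def stdS : Set E3 := {vA, vB, vC, vD}

lemma stdK_eq : stdK = convexHull ℝ stdS := rfl

lemma vA_mem : vA ∈ stdS := by simp [stdS]
lemma vB_mem : vB ∈ stdS := by simp [stdS]
lemma vC_mem : vC ∈ stdS := by simp [stdS]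
lemma vD_mem : vD ∈ stdS := by simp [stdS]

/-- evaluate `det3` on explicit coordinates -/
lemma det3_eval (v : E3) (a0 a1 a2 b0 b1 b2 : ℝ) (a b : E3) (ha0 : a 0 = a0) (ha1 : a 1 = a1)
    (ha2 : a 2 = a2) (hb0 : b 0 = b0) (hb1 : b 1 = b1) (hb2 : b 2 = b2) :
    det3 v a b = v 0 * (a1 * b2 - a2 * b1) + v 1 * (a2 * b0 - a0 * b2) + v 2 * (a0 * b1 - a1 * b0) := by
  simp only [det3, ha0, ha1, ha2, hb0, hb1, hb2]

lemma d_ACD (v : E3) : det3 v (vC - vA) (vD - vA) = 2 * (Real.sqrt 2 * v 0) + 2 * v 2 := by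
  show v 0 * (((1:ℝ) - (0:ℝ)) * (Real.sqrt 2 - (0:ℝ)) - (Real.sqrt 2 - (0:ℝ)) * ((-1:ℝ) - (0:ℝ))) + v 1 * ((Real.sqrt 2 - (0:ℝ)) * ((0:ℝ) - (1:ℝ)) - ((0:ℝ) - (1:ℝ)) * (Real.sqrt 2 - (0:ℝ))) + v 2 * (((0:ℝ) - (1:ℝ)) * ((-1:ℝ) - (0:ℝ)) - ((1:ℝ) - (0:ℝ)) * ((0:ℝ) - (1:ℝ))) = _
  ring

lemma d_BCD (v : E3) : det3 v (vC - vB) (vD - vB) = 2 * (Real.sqrt 2 * v 0) - 2 * v 2 := by
  show v 0 * (((1:ℝ) - (0:ℝ)) * (Real.sqrt 2 - (0:ℝ)) - (Real.sqrt 2 - (0:ℝ)) * ((-1:ℝ) - (0:ℝ))) + v 1 * ((Real.sqrt 2 - (0:ℝ)) * ((0:ℝ) - (-1:ℝ)) - ((0:ℝ) - (-1:ℝ)) * (Real.sqrt 2 - (0:ℝ))) + v 2 * (((0:ℝ) - (-1:ℝ)) * ((-1:ℝ) - (0:ℝ)) - ((1:ℝ) - (0:ℝ)) * ((0:ℝ) - (-1:ℝ))) = _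
  ring

lemma d_ABC (v : E3) : det3 v (vB - vA) (vC - vA) = 2 * (Real.sqrt 2 * v 1) - 2 * v 2 := by
  show v 0 * (((0:ℝ) - (0:ℝ)) * (Real.sqrt 2 - (0:ℝ)) - ((0:ℝ) - (0:ℝ)) * ((1:ℝ) - (0:ℝ))) + v 1 * (((0:ℝ) - (0:ℝ)) * ((0:ℝ) - (1:ℝ)) - ((-1:ℝ) - (1:ℝ)) * (Real.sqrt 2 - (0:ℝ))) + v 2 * (((-1:ℝ) - (1:ℝ)) * ((1:ℝ) - (0:ℝ)) - ((0:ℝ) - (0:ℝ)) * ((0:ℝ) - (1:ℝ))) = _
  ring

lemma d_ABD (v : E3) : det3 v (vB - vA) (vD - vA) = 2 * (Real.sqrt 2 * v 1) + 2 * v 2 := by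
  show v 0 * (((0:ℝ) - (0:ℝ)) * (Real.sqrt 2 - (0:ℝ)) - ((0:ℝ) - (0:ℝ)) * ((-1:ℝ) - (0:ℝ))) + v 1 * (((0:ℝ) - (0:ℝ)) * ((0:ℝ) - (1:ℝ)) - ((-1:ℝ) - (1:ℝ)) * (Real.sqrt 2 - (0:ℝ))) + v 2 * (((-1:ℝ) - (1:ℝ)) * ((-1:ℝ) - (0:ℝ)) - ((0:ℝ) - (0:ℝ)) * ((0:ℝ) - (1:ℝ))) = _
  ring

lemma d_CDA (v : E3) : det3 v (vD - vC) (vA - vC) = 2 * (Real.sqrt 2 * v 0) + 2 * v 2 := by
  show v 0 * (((-1:ℝ) - (1:ℝ)) * ((0:ℝ) - Real.sqrt 2) - (Real.sqrt 2 - Real.sqrt 2) * ((0:ℝ) - (1:ℝ))) + v 1 * ((Real.sqrt 2 - Real.sqrt 2) * ((1:ℝ) - (0:ℝ)) - ((0:ℝ) - (0:ℝ)) * ((0:ℝ) - Real.sqrt 2)) + v 2 * (((0:ℝ) - (0:ℝ)) * ((0:ℝ) - (1:ℝ)) - ((-1:ℝ) - (1:ℝ)) * ((1:ℝ) - (0:ℝ))) = _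
  ring

lemma d_CDB (v : E3) : det3 v (vD - vC) (vB - vC) = 2 * (Real.sqrt 2 * v 0) - 2 * v 2 := by
  show v 0 * (((-1:ℝ) - (1:ℝ)) * ((0:ℝ) - Real.sqrt 2) - (Real.sqrt 2 - Real.sqrt 2) * ((0:ℝ) - (1:ℝ))) + v 1 * ((Real.sqrt 2 - Real.sqrt 2) * ((-1:ℝ) - (0:ℝ)) - ((0:ℝ) - (0:ℝ)) * ((0:ℝ) - Real.sqrt 2)) + v 2 * (((0:ℝ) - (0:ℝ)) * ((0:ℝ) - (1:ℝ)) - ((-1:ℝ) - (1:ℝ)) * ((-1:ℝ) - (0:ℝ))) = _
  ring

lemma d_ACB (v : E3) : det3 v (vC - vA) (vB - vA) = -(2 * (Real.sqrt 2 * v 1) - 2 * v 2) := by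
  show v 0 * (((1:ℝ) - (0:ℝ)) * ((0:ℝ) - (0:ℝ)) - (Real.sqrt 2 - (0:ℝ)) * ((0:ℝ) - (0:ℝ))) + v 1 * ((Real.sqrt 2 - (0:ℝ)) * ((-1:ℝ) - (1:ℝ)) - ((0:ℝ) - (1:ℝ)) * ((0:ℝ) - (0:ℝ))) + v 2 * (((0:ℝ) - (1:ℝ)) * ((0:ℝ) - (0:ℝ)) - ((1:ℝ) - (0:ℝ)) * ((-1:ℝ) - (1:ℝ))) = _
  ring

lemma d_ADB (v : E3) : det3 v (vD - vA) (vB - vA) = -(2 * (Real.sqrt 2 * v 1) + 2 * v 2) := by
  show v 0 * (((-1:ℝ) - (0:ℝ)) * ((0:ℝ) - (0:ℝ)) - (Real.sqrt 2 - (0:ℝ)) * ((0:ℝ) - (0:ℝ))) + v 1 * ((Real.sqrt 2 - (0:ℝ)) * ((-1:ℝ) - (1:ℝ)) - ((0:ℝ) - (1:ℝ)) * ((0:ℝ) - (0:ℝ))) + v 2 * (((0:ℝ) - (1:ℝ)) * ((0:ℝ) - (0:ℝ)) - ((-1:ℝ) - (0:ℝ)) * ((-1:ℝ) - (1:ℝ))) = _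
  ring

lemma d_ADC (v : E3) : det3 v (vD - vA) (vC - vA) = -(2 * (Real.sqrt 2 * v 0) + 2 * v 2) := by
  show v 0 * (((-1:ℝ) - (0:ℝ)) * (Real.sqrt 2 - (0:ℝ)) - (Real.sqrt 2 - (0:ℝ)) * ((1:ℝ) - (0:ℝ))) + v 1 * ((Real.sqrt 2 - (0:ℝ)) * ((0:ℝ) - (1:ℝ)) - ((0:ℝ) - (1:ℝ)) * (Real.sqrt 2 - (0:ℝ))) + v 2 * (((0:ℝ) - (1:ℝ)) * ((1:ℝ) - (0:ℝ)) - ((-1:ℝ) - (0:ℝ)) * ((0:ℝ) - (1:ℝ))) = _
  ring

lemma d_BCA (v : E3) : det3 v (vC - vB) (vA - vB) = 2 * (Real.sqrt 2 * v 1) - 2 * v 2 := by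
  show v 0 * (((1:ℝ) - (0:ℝ)) * ((0:ℝ) - (0:ℝ)) - (Real.sqrt 2 - (0:ℝ)) * ((0:ℝ) - (0:ℝ))) + v 1 * ((Real.sqrt 2 - (0:ℝ)) * ((1:ℝ) - (-1:ℝ)) - ((0:ℝ) - (-1:ℝ)) * ((0:ℝ) - (0:ℝ))) + v 2 * (((0:ℝ) - (-1:ℝ)) * ((0:ℝ) - (0:ℝ)) - ((1:ℝ) - (0:ℝ)) * ((1:ℝ) - (-1:ℝ))) = _
  ring

lemma d_BDA (v : E3) : det3 v (vD - vB) (vA - vB) = 2 * (Real.sqrt 2 * v 1) + 2 * v 2 := by
  show v 0 * (((-1:ℝ) - (0:ℝ)) * ((0:ℝ) - (0:ℝ)) - (Real.sqrt 2 - (0:ℝ)) * ((0:ℝ) - (0:ℝ))) + v 1 * ((Real.sqrt 2 - (0:ℝ)) * ((1:ℝ) - (-1:ℝ)) - ((0:ℝ) - (-1:ℝ)) * ((0:ℝ) - (0:ℝ))) + v 2 * (((0:ℝ) - (-1:ℝ)) * ((0:ℝ) - (0:ℝ)) - ((-1:ℝ) - (0:ℝ)) * ((1:ℝ) - (-1:ℝ))) = _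
  ring

lemma d_BDC (v : E3) : det3 v (vD - vB) (vC - vB) = -(2 * (Real.sqrt 2 * v 0)) + 2 * v 2 := by
  show v 0 * (((-1:ℝ) - (0:ℝ)) * (Real.sqrt 2 - (0:ℝ)) - (Real.sqrt 2 - (0:ℝ)) * ((1:ℝ) - (0:ℝ))) + v 1 * ((Real.sqrt 2 - (0:ℝ)) * ((0:ℝ) - (-1:ℝ)) - ((0:ℝ) - (-1:ℝ)) * (Real.sqrt 2 - (0:ℝ))) + v 2 * (((0:ℝ) - (-1:ℝ)) * ((1:ℝ) - (0:ℝ)) - ((-1:ℝ) - (0:ℝ)) * ((0:ℝ) - (-1:ℝ))) = _
  ring

lemma le_of_sq_le' (s p : ℝ) (hp : 0 ≤ p) (h : s ^ 2 ≤ p ^ 2) : s ≤ p := by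
  by_contra hc
  push Not at hc
  nlinarith

lemma abs_sum_ge (p q : ℝ) : 2 * |q| ≤ |p + q| + |p - q| := by
  cases abs_cases (p + q) <;> cases abs_cases (p - q) <;> cases abs_cases q <;> linarith

lemma abs_mul_eq_of_nonneg (x c : ℝ) (h : 0 ≤ x * c) : |x| * |c| = x * c := by
  rw [← abs_mul, abs_of_nonneg h]

lemma abs_mul_eq_of_nonpos (x c : ℝ) (h : x * c ≤ 0) : |x| * |c| = -(x * c) := by
  rw [← abs_mul, abs_of_nonpos h]

set_option maxHeartbeats 4000000 in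
/-- The lower bound for the projection of the standard tetrahedron. -/
theorem proj_ge (v : E3) (hv : ‖v‖ = 1) :
    ENNReal.ofReal (Real.sqrt 2) ≤ μHE[2] (prj v '' stdK) := by
  have hv2 : v 0 ^ 2 + v 1 ^ 2 + v 2 ^ 2 = 1 := by rw [← norm_sq_E3, hv]; norm_num
  have hs2 := sqrt2_sq
  have hs0 := sqrt2_pos
  obtain ⟨s, hs⟩ : ∃ s, s = Real.sqrt 2 := ⟨_, rfl⟩
  obtain ⟨x, hx⟩ : ∃ x, x = Real.sqrt 2 * v 0 := ⟨_, rfl⟩
  obtain ⟨y, hy⟩ : ∃ y, y = Real.sqrt 2 * v 1 := ⟨_, rfl⟩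
  obtain ⟨c, hc⟩ : ∃ c, c = v 2 := ⟨_, rfl⟩
  have hrel : x ^ 2 + y ^ 2 + 2 * c ^ 2 = 2 := by
    rw [hx, hy, hc, mul_pow, mul_pow, hs2]
    linarith
  rw [← hs] at hs2 hs0 ⊢
  rw [stdK_eq]
  have hxa := abs_nonneg x
  have hya := abs_nonneg y
  have hca := abs_nonneg c
  have hxsq : |x| ^ 2 = x ^ 2 := sq_abs x
  have hysq : |y| ^ 2 = y ^ 2 := sq_abs y
  have hcsq : |c| ^ 2 = c ^ 2 := sq_abs c
  rcases le_total |x| |c| with h1 | h1 <;> rcases le_total |y| |c| with h2 | h2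
  · -- case A : split along `CD`
    have hopp : det3 v (vD - vC) (vA - vC) * det3 v (vD - vC) (vB - vC) ≤ 0 := by
      rw [d_CDA, d_CDB, ← hx, ← hc]
      have : x ^ 2 ≤ c ^ 2 := by
        rw [← hxsq, ← hcsq]; exact pow_le_pow_left₀ hxa h1 2
      nlinarith
    have h3 := two_tri v hv stdS vA vB vC vD vA_mem vB_mem vC_mem vD_mem hopp
    refine le_trans (ENNReal.ofReal_le_ofReal ?_) h3
    rw [d_CDA, d_CDB, ← hx, ← hc]
    have e1 : 2 * x + 2 * c = 2 * (x + c) := by ring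
    have e2 : 2 * x - 2 * c = 2 * (x - c) := by ring
    rw [e1, e2, abs_mul, abs_mul, abs_two]
    have h4 := abs_sum_ge x c
    have h5 : s ≤ 2 * |c| := by
      apply le_of_sq_le' s _ (by positivity)
      have h6 : x ^ 2 ≤ c ^ 2 := by rw [← hxsq, ← hcsq]; exact pow_le_pow_left₀ hxa h1 2
      have h7 : y ^ 2 ≤ c ^ 2 := by rw [← hysq, ← hcsq]; exact pow_le_pow_left₀ hya h2 2
      rw [mul_pow, hcsq, hs2]
      nlinarith
    linarith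
  · -- case D : one triangle
    have hmain : s ^ 2 ≤ x ^ 2 + y ^ 2 + 2 * c ^ 2 := by rw [hs2, hrel]
    have h6 : x ^ 2 ≤ c ^ 2 := by rw [← hxsq, ← hcsq]; exact pow_le_pow_left₀ hxa h1 2
    have h7 : |c| * |c| ≤ |y| * |c| := mul_le_mul_of_nonneg_right h2 hca
    have h8 : |x| * |x| ≤ |c| * |c| := mul_le_mul h1 h1 hxa hca
    have hcc : |c| * |c| = c ^ 2 := by rw [← hcsq]; ring
    by_cases hsign : 0 ≤ y * c
    · have h3 := one_tri v hv stdS vA vB vD vA_mem vB_mem vD_mem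
      refine le_trans (ENNReal.ofReal_le_ofReal ?_) h3
      rw [d_ABD, ← hy, ← hc]
      have e1 : 2 * y + 2 * c = 2 * (y + c) := by ring
      rw [e1, abs_mul, abs_two]
      have h9 : s ≤ |y + c| := by
        apply le_of_sq_le' s _ (abs_nonneg _)
        rw [sq_abs]
        have := abs_mul_eq_of_nonneg y c hsign
        nlinarith
      linarith
    · push Not at hsign
      have h3 := one_tri v hv stdS vA vB vC vA_mem vB_mem vC_mem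
      refine le_trans (ENNReal.ofReal_le_ofReal ?_) h3
      rw [d_ABC, ← hy, ← hc]
      have e1 : 2 * y - 2 * c = 2 * (y - c) := by ring
      rw [e1, abs_mul, abs_two]
      have h9 : s ≤ |y - c| := by
        apply le_of_sq_le' s _ (abs_nonneg _)
        rw [sq_abs]
        have := abs_mul_eq_of_nonpos y c hsign.le
        nlinarith
      linarith
  · -- case C : one triangle
    have h6 : y ^ 2 ≤ c ^ 2 := by rw [← hysq, ← hcsq]; exact pow_le_pow_left₀ hya h2 2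
    have h7 : |c| * |c| ≤ |x| * |c| := mul_le_mul_of_nonneg_right h1 hca
    have hcc : |c| * |c| = c ^ 2 := by rw [← hcsq]; ring
    by_cases hsign : 0 ≤ x * c
    · have h3 := one_tri v hv stdS vA vC vD vA_mem vC_mem vD_mem
      refine le_trans (ENNReal.ofReal_le_ofReal ?_) h3
      rw [d_ACD, ← hx, ← hc]
      have e1 : 2 * x + 2 * c = 2 * (x + c) := by ring
      rw [e1, abs_mul, abs_two]
      have h9 : s ≤ |x + c| := by
        apply le_of_sq_le' s _ (abs_nonneg _)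
        rw [sq_abs]
        have := abs_mul_eq_of_nonneg x c hsign
        nlinarith
      linarith
    · push Not at hsign
      have h3 := one_tri v hv stdS vB vC vD vB_mem vC_mem vD_mem
      refine le_trans (ENNReal.ofReal_le_ofReal ?_) h3
      rw [d_BCD, ← hx, ← hc]
      have e1 : 2 * x - 2 * c = 2 * (x - c) := by ring
      rw [e1, abs_mul, abs_two]
      have h9 : s ≤ |x - c| := by
        apply le_of_sq_le' s _ (abs_nonneg _)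
        rw [sq_abs]
        have := abs_mul_eq_of_nonpos x c hsign.le
        nlinarith
      linarith
  · -- case B : two triangles along a diagonal
    have hsum : s ≤ |x| + |y| := by
      apply le_of_sq_le' s _ (by positivity)
      have h5 : |c| * |c| ≤ |x| * |y| := mul_le_mul h1 h2 hca hxa
      have hcc : |c| * |c| = c ^ 2 := by rw [← hcsq]; ring
      rw [add_sq, hxsq, hysq, hs2]
      nlinarith
    have hc1 := abs_le.mp (le_refl |c|)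
    rcases le_total 0 x with hx0 | hx0 <;> rcases le_total 0 y with hy0 | hy0
    · -- `x ≥ 0`, `y ≥ 0` : split along `AC`
      rw [abs_of_nonneg hx0] at h1 hsum
      rw [abs_of_nonneg hy0] at h2 hsum
      have hc2 := abs_le.mp h1
      have hc3 := abs_le.mp h2
      have hc4 := le_abs_self c
      have hc5 := neg_abs_le c
      have hopp : det3 v (vC - vA) (vB - vA) * det3 v (vC - vA) (vD - vA) ≤ 0 := by
        rw [d_ACB, d_ACD, ← hx, ← hy, ← hc]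
        have h8 : 0 ≤ 2 * y - 2 * c := by linarith
        have h9 : 0 ≤ 2 * x + 2 * c := by linarith
        nlinarith [mul_nonneg h8 h9]
      have h3 := two_tri v hv stdS vB vD vA vC vB_mem vD_mem vA_mem vC_mem hopp
      refine le_trans (ENNReal.ofReal_le_ofReal ?_) h3
      rw [d_ACB, d_ACD, ← hx, ← hy, ← hc, abs_neg, abs_of_nonneg (by linarith),
        abs_of_nonneg (by linarith)]
      linarith
    · -- `x ≥ 0`, `y ≤ 0` : split along `AD`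
      rw [abs_of_nonneg hx0] at h1 hsum
      rw [abs_of_nonpos hy0] at h2 hsum
      have hc4 := le_abs_self c
      have hc5 := neg_abs_le c
      have hopp : det3 v (vD - vA) (vB - vA) * det3 v (vD - vA) (vC - vA) ≤ 0 := by
        rw [d_ADB, d_ADC, ← hx, ← hy, ← hc]
        have h8 : 0 ≤ -(2 * y + 2 * c) := by linarith
        have h9 : 0 ≤ 2 * x + 2 * c := by linarith
        nlinarith [mul_nonneg h8 h9]
      have h3 := two_tri v hv stdS vB vC vA vD vB_mem vC_mem vA_mem vD_mem hopp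
      refine le_trans (ENNReal.ofReal_le_ofReal ?_) h3
      rw [d_ADB, d_ADC, ← hx, ← hy, ← hc, abs_of_nonneg (by linarith),
        abs_of_nonpos (by linarith)]
      linarith
    · -- `x ≤ 0`, `y ≥ 0` : split along `BC`
      rw [abs_of_nonpos hx0] at h1 hsum
      rw [abs_of_nonneg hy0] at h2 hsum
      have hc4 := le_abs_self c
      have hc5 := neg_abs_le c
      have hopp : det3 v (vC - vB) (vA - vB) * det3 v (vC - vB) (vD - vB) ≤ 0 := by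
        have e : vD - vB = vD - vB := rfl
        rw [d_BCA, d_BCD, ← hx, ← hy, ← hc]
        have h8 : 0 ≤ 2 * y - 2 * c := by linarith
        have h9 : 0 ≤ -(2 * x - 2 * c) := by linarith
        nlinarith [mul_nonneg h8 h9]
      have h3 := two_tri v hv stdS vA vD vB vC vA_mem vD_mem vB_mem vC_mem hopp
      refine le_trans (ENNReal.ofReal_le_ofReal ?_) h3
      rw [d_BCA, d_BCD, ← hx, ← hy, ← hc, abs_of_nonneg (by linarith),
        abs_of_nonpos (by linarith)]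
      linarith
    · -- `x ≤ 0`, `y ≤ 0` : split along `BD`
      rw [abs_of_nonpos hx0] at h1 hsum
      rw [abs_of_nonpos hy0] at h2 hsum
      have hc4 := le_abs_self c
      have hc5 := neg_abs_le c
      have hopp : det3 v (vD - vB) (vA - vB) * det3 v (vD - vB) (vC - vB) ≤ 0 := by
        rw [d_BDA, d_BDC, ← hx, ← hy, ← hc]
        have h8 : 0 ≤ -(2 * y + 2 * c) := by linarith
        have h9 : 0 ≤ -(2 * x) + 2 * c := by linarith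
        nlinarith [mul_nonneg h8 h9]
      have h3 := two_tri v hv stdS vA vC vB vD vA_mem vC_mem vB_mem vD_mem hopp
      refine le_trans (ENNReal.ofReal_le_ofReal ?_) h3
      rw [d_BDA, d_BDC, ← hx, ← hy, ← hc, abs_of_nonpos (by linarith),
        abs_of_nonneg (by linarith)]
      linarith

end vertices

end

end Crest.Agent.Tetra
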