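import Crest.Agent.Lib.Tetra.Para

/-!
# Radial sweeps: local estimates
-/

set_option autoImplicit false

namespace Crest.Agent.Tetra

open Set MeasureTheory Finset Module

noncomputable section

lemma gram_pos_of_indep (a b : E3) (hab : LinearIndependent ℝ ![a, b]) : 0 < gram a b := by
  have h0 : a ≠ 0 := by
    have := hab.ne_zero 0
    simpa using this
  by_contra hcon
  have hg : gram a b = 0 := le_antisymm (not_lt.mp hcon) (gram_nonneg a b)
  have hsq : ‖a‖ ^ 2 * ‖b‖ ^ 2 - (inner ℝ a b : ℝ) ^ 2 = 0 := by rw [← gram_sq, hg]; norm_num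
  -- the combination vanishes
  have hz : (-(inner ℝ a b : ℝ)) • a + (‖a‖ ^ 2) • b = 0 := by
    rw [← norm_eq_zero, ← sq_eq_zero_iff, @norm_add_sq_real, norm_smul, norm_smul, inner_smul_left,
      inner_smul_right]
    simp only [Real.norm_eq_abs, mul_pow, sq_abs, conj_trivial]
    have e : (-(inner ℝ a b : ℝ)) ^ 2 * ‖a‖ ^ 2 + 2 * (-(inner ℝ a b : ℝ) * (‖a‖ ^ 2 * inner ℝ a b)) +
        (‖a‖ ^ 2) ^ 2 * ‖b‖ ^ 2 = ‖a‖ ^ 2 * (‖a‖ ^ 2 * ‖b‖ ^ 2 - (inner ℝ a b : ℝ) ^ 2) := by ring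
    rw [e, hsq, mul_zero]
  have := (LinearIndependent.pair_iff.mp hab) _ _ hz
  have h1 : ‖a‖ ^ 2 = 0 := this.2
  rw [sq_eq_zero_iff, norm_eq_zero] at h1
  exact h0 h1

/-- Three points with positive Gram area are affinely independent. -/
lemma affineIndep_of_gram_pos (p q r : E3) (h : 0 < gram (q - p) (r - p)) :
    AffineIndependent ℝ ![p, q, r] := by
  rw [affineIndependent_iff_not_collinear_set]
  intro hcol
  rw [collinear_iff_of_mem (p₀ := p) (by simp)] at hcol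
  obtain ⟨v, hv⟩ := hcol
  obtain ⟨k, hk⟩ := hv q (by simp)
  obtain ⟨l, hl⟩ := hv r (by simp)
  have e1 : q - p = k • v := by rw [hk]; simp
  have e2 : r - p = l • v := by rw [hl]; simp
  rw [e1, e2, gram_smul] at h
  have hvv : gram v v = 0 := by
    rw [gram, real_inner_self_eq_norm_sq]
    have : ‖v‖ ^ 2 * ‖v‖ ^ 2 - (‖v‖ ^ 2) ^ 2 = 0 := by ring
    rw [this, Real.sqrt_zero]
  rw [hvv, mul_zero] at h
  exact lt_irrefl _ h

/-- The dual vectors. -/
def dualA (a b : E3) : E3 := (1 / gram a b ^ 2) • ((‖b‖ ^ 2) • a - (inner ℝ a b : ℝ) • b)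
def dualB (a b : E3) : E3 := (1 / gram a b ^ 2) • ((‖a‖ ^ 2) • b - (inner ℝ a b : ℝ) • a)

lemma inner_dual (a b y : E3) :
    (inner ℝ y (dualA a b) : ℝ) = (inner ℝ y a * ‖b‖ ^ 2 - inner ℝ y b * inner ℝ a b) / gram a b ^ 2 ∧
    (inner ℝ y (dualB a b) : ℝ) = (inner ℝ y b * ‖a‖ ^ 2 - inner ℝ y a * inner ℝ a b) / gram a b ^ 2 := by
  constructor
  · rw [dualA, inner_smul_right, inner_sub_right, inner_smul_right, inner_smul_right]
    field_simp
  · rw [dualB, inner_smul_right, inner_sub_right, inner_smul_right, inner_smul_right]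
    field_simp

lemma dual_values (a b : E3) (hg : 0 < gram a b) :
    (inner ℝ a (dualA a b) : ℝ) = 1 ∧ (inner ℝ b (dualA a b) : ℝ) = 0 ∧
    (inner ℝ a (dualB a b) : ℝ) = 0 ∧ (inner ℝ b (dualB a b) : ℝ) = 1 := by
  have hG2 := gram_sq a b
  have hG : 0 < gram a b ^ 2 := by positivity
  have hba : (inner ℝ b a : ℝ) = inner ℝ a b := real_inner_comm _ _
  refine ⟨?_, ?_, ?_, ?_⟩
  · rw [(inner_dual a b a).1, real_inner_self_eq_norm_sq, div_eq_iff hG.ne', hG2]; ring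
  · rw [(inner_dual a b b).1, real_inner_self_eq_norm_sq, hba]
    rw [div_eq_iff hG.ne']; ring
  · rw [(inner_dual a b a).2, real_inner_self_eq_norm_sq]
    rw [div_eq_iff hG.ne']; ring
  · rw [(inner_dual a b b).2, real_inner_self_eq_norm_sq, hba, div_eq_iff hG.ne', hG2]; ring

lemma span_dual (u a b y : E3) (hu : ‖u‖ = 1) (ha : inner ℝ a u = (0 : ℝ))
    (hb : inner ℝ b u = (0 : ℝ)) (hg : 0 < gram a b) (hy : inner ℝ y u = (0 : ℝ)) :
    y = (inner ℝ y (dualA a b) : ℝ) • a + (inner ℝ y (dualB a b) : ℝ) • b := by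
  rw [(inner_dual a b y).1, (inner_dual a b y).2]
  exact span_of_perp u a b y hu ha hb hg hy

/-- The decomposition of the increments of `w`. -/
lemma w_diff (e a b : E3) (he : ‖e‖ = 1) (ha : inner ℝ a e = (0 : ℝ)) (hb : inner ℝ b e = (0 : ℝ))
    (hG : 0 < gram a b) (α β : ℝ) (w : ℝ → E3) (hw : ∀ t ∈ Icc α β, inner ℝ (w t) e = (0 : ℝ))
    (lam : ℝ → ℝ) (Lam : ℝ) (hLam : ∀ t ∈ Icc α β, |lam t| ≤ Lam)
    (hw' : ∀ t ∈ Icc α β, HasDerivWithinAt w (lam t • (a + t • b)) (Icc α β) t)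
    (c τ : ℝ) (hc : c ∈ Icc α β) (hτ : τ ∈ Icc α β) :
    ∃ Λ Γ : ℝ, |Λ| ≤ Lam * |τ - c| ∧ |Γ| ≤ Lam * |τ - c| ^ 2 ∧
      w τ - w c = Λ • (a + c • b) + Γ • b := by
  obtain ⟨d1, d2, d3, d4⟩ := dual_values a b hG
  have hsub : uIcc c τ ⊆ Icc α β := uIcc_subset_Icc hc hτ
  have hLam0 : 0 ≤ Lam := le_trans (abs_nonneg _) (hLam c hc)
  let A : ℝ → ℝ := fun t => inner ℝ (w t) (dualA a b)
  let B : ℝ → ℝ := fun t => inner ℝ (w t) (dualB a b)
  have hA' : ∀ t ∈ uIcc c τ, HasDerivWithinAt A (lam t) (uIcc c τ) t := by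
    intro t ht
    have h1 := (hw' t (hsub ht)).mono hsub
    have h2 := h1.inner ℝ (hasDerivWithinAt_const t (uIcc c τ) (dualA a b))
    have e : (inner ℝ (w t) (0 : E3) : ℝ) + inner ℝ (lam t • (a + t • b)) (dualA a b) = lam t := by
      rw [inner_zero_right, zero_add, inner_smul_left, inner_add_left, inner_smul_left, d1, d2]
      simp
    rw [e] at h2
    exact h2
  have hB' : ∀ t ∈ uIcc c τ, HasDerivWithinAt B (lam t * t) (uIcc c τ) t := by
    intro t ht
    have h1 := (hw' t (hsub ht)).mono hsub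
    have h2 := h1.inner ℝ (hasDerivWithinAt_const t (uIcc c τ) (dualB a b))
    have e : (inner ℝ (w t) (0 : E3) : ℝ) + inner ℝ (lam t • (a + t • b)) (dualB a b) = lam t * t := by
      rw [inner_zero_right, zero_add, inner_smul_left, inner_add_left, inner_smul_left, d3, d4]
      simp
    rw [e] at h2
    exact h2
  let Ψ : ℝ → ℝ := fun t => B t - c * A t
  have hΨ' : ∀ t ∈ uIcc c τ, HasDerivWithinAt Ψ (lam t * (t - c)) (uIcc c τ) t := by
    intro t ht
    have h1 := (hB' t ht).sub ((hA' t ht).const_mul c)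
    have e : lam t * t - c * lam t = lam t * (t - c) := by ring
    rw [e] at h1
    exact h1
  have hconv : Convex ℝ (uIcc c τ) := convex_uIcc c τ
  have hcm : c ∈ uIcc c τ := left_mem_uIcc
  have hτm : τ ∈ uIcc c τ := right_mem_uIcc
  have hbdA : ∀ t ∈ uIcc c τ, ‖lam t‖ ≤ Lam := fun t ht => hLam t (hsub ht)
  have hbdΨ : ∀ t ∈ uIcc c τ, ‖lam t * (t - c)‖ ≤ Lam * |τ - c| := by
    intro t ht
    rw [norm_mul]
    apply mul_le_mul (hLam t (hsub ht)) _ (norm_nonneg _) hLam0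
    rw [Real.norm_eq_abs]
    rcases Set.mem_uIcc.mp ht with h | h
    · rw [abs_of_nonneg (by linarith [h.1]), abs_of_nonneg (by linarith [h.1, h.2])]; linarith [h.2]
    · rw [abs_of_nonpos (by linarith [h.2]), abs_of_nonpos (by linarith [h.1, h.2])]; linarith [h.1]
  have hA := hconv.norm_image_sub_le_of_norm_hasDerivWithin_le hA' hbdA hcm hτm
  have hΨ := hconv.norm_image_sub_le_of_norm_hasDerivWithin_le hΨ' hbdΨ hcm hτm
  simp only [Real.norm_eq_abs] at hA hΨ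
  refine ⟨A τ - A c, Ψ τ - Ψ c, hA, ?_, ?_⟩
  · calc |Ψ τ - Ψ c| ≤ Lam * |τ - c| * |τ - c| := hΨ
      _ = Lam * |τ - c| ^ 2 := by ring
  · have hwc := hw c hc
    have hwτ := hw τ hτ
    have h1 := span_dual e a b (w τ) he ha hb hG hwτ
    have h2 := span_dual e a b (w c) he ha hb hG hwc
    have e1 : w τ - w c = (A τ - A c) • a + (B τ - B c) • b := by
      conv_lhs => rw [h1, h2]
      simp only [A, B, sub_smul]
      abel
    rw [e1]
    simp only [Ψ]
    module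

/-- `det3` of a vector in the plane of `a, b` against `a, b`. -/
lemma det3_plane (e a b y : E3) (he : ‖e‖ = 1) (ha : inner ℝ a e = (0 : ℝ))
    (hb : inner ℝ b e = (0 : ℝ)) (hG : 0 < gram a b) (hy : inner ℝ y e = (0 : ℝ)) :
    det3 y a b = 0 := by
  rw [span_dual e a b y he ha hb hG hy]
  simp only [det3, PiLp.add_apply, PiLp.smul_apply, smul_eq_mul]
  ring

lemma det3_add_left (x y a b : E3) : det3 (x + y) a b = det3 x a b + det3 y a b := by
  simp only [det3, PiLp.add_apply]; ring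

lemma abs_det3_e (e a b : E3) (he : ‖e‖ = 1) (ha : inner ℝ a e = (0 : ℝ))
    (hb : inner ℝ b e = (0 : ℝ)) : |det3 e a b| = gram a b := by
  have h1 : prj e a = a := by rw [prj, ha]; simp
  have h2 : prj e b = b := by rw [prj, hb]; simp
  have h3 := gram_prj e a b he
  rw [h1, h2] at h3
  exact h3.symm

/-- norm of the axis -/
lemma norm_axis (e x : E3) (he : ‖e‖ = 1) (hx : inner ℝ x e = (0 : ℝ)) :
    ‖e + x‖ = Real.sqrt (1 + ‖x‖ ^ 2) := by
  rw [← Real.sqrt_sq (norm_nonneg (e + x)), @norm_add_sq_real, he, real_inner_comm, hx]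
  congr 1
  ring

lemma axis_ne (e x : E3) (he : ‖e‖ = 1) (hx : inner ℝ x e = (0 : ℝ)) : e + x ≠ 0 := by
  rw [← norm_pos_iff, norm_axis e x he hx]
  exact Real.sqrt_pos.mpr (by positivity)

/-- The orthogonal projection along `d`. -/
lemma prj_unitOf (d y : E3) (hd : d ≠ 0) :
    y - (inner ℝ y d / ‖d‖ ^ 2) • d = prj (unitOf d) y := by
  have hn : 0 < ‖d‖ := norm_pos_iff.mpr hd
  rw [prj, unitOf, inner_smul_right, smul_smul]
  congr 2
  simp only [inv_eq_one_div]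
  field_simp

lemma inner_axis_of_unit (d x : E3) (hd : d ≠ 0) (h : inner ℝ x (unitOf d) = (0 : ℝ)) :
    inner ℝ x d = (0 : ℝ) := by
  have hn : 0 < ‖d‖ := norm_pos_iff.mpr hd
  rw [unitOf, inner_smul_right] at h
  have : (‖d‖)⁻¹ ≠ 0 := by positivity
  exact (mul_eq_zero.mp h).resolve_left this

/-- The cylinder with non-normalised axis. -/
lemma cyl_axis (d P Q R x : E3) (hd : d ≠ 0) (b : E3) (hb : b ∈ convexHull ℝ {P, Q, R}) (τ : ℝ)
    (hx : x = b + τ • d) :
    ∃ y ∈ convexHull ℝ {prj (unitOf d) P, prj (unitOf d) Q, prj (unitOf d) R}, ∃ σ : ℝ,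
      x = y + σ • d := by
  obtain ⟨y, hy, t, ht⟩ := cyl_subset d P Q R x hd b hb τ hx
  refine ⟨y, hy, t * ‖d‖⁻¹, ?_⟩
  rw [ht, unitOf, smul_smul]

/-- Projecting a point of the cylinder lands in the base. -/
lemma prj_cyl (d P Q R x : E3) (hd : d ≠ 0) (b : E3) (hb : b ∈ convexHull ℝ {P, Q, R}) (τ : ℝ)
    (hx : x = b + τ • d) :
    prj (unitOf d) x ∈ convexHull ℝ {prj (unitOf d) P, prj (unitOf d) Q, prj (unitOf d) R} := by
  rw [mem_conv3] at hb ⊢
  obtain ⟨α, β, γ, h1, h2, h3, h4, rfl⟩ := hb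
  refine ⟨α, β, γ, h1, h2, h3, h4, ?_⟩
  have hn : 0 < ‖d‖ := norm_pos_iff.mpr hd
  have hu := norm_unitOf d hd
  have hdu : d = ‖d‖ • unitOf d := by
    rw [unitOf, smul_smul]; field_simp; simp
  rw [hx]
  set u := unitOf d
  have e0 : prj u (τ • d) = 0 := by
    rw [hdu, smul_smul, prj, inner_smul_left, real_inner_self_eq_norm_sq, hu]
    simp
  have eadd : ∀ x y : E3, prj u (x + y) = prj u x + prj u y := by
    intro x y; simp only [prj, inner_add_left, add_smul]; abel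
  have esmul : ∀ (k : ℝ) (x : E3), prj u (k • x) = k • prj u x := by
    intro k x; simp only [prj, inner_smul_left, conj_trivial, smul_sub, smul_smul]
  rw [eadd, e0, add_zero, eadd, eadd, esmul, esmul, esmul]

end

end Crest.Agent.Tetra
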