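import Crest.Agent.Lib.Tetra.Rad

/-!
# Radial sweeps: one cell
-/

set_option autoImplicit false

namespace Crest.Agent.Tetra

open Set MeasureTheory Finset Module

noncomputable section

/-- the vertices of the cell triangle -/
def cP (p₀ a b : E3) (c ζ : ℝ) : E3 := p₀ - ζ • (a + c • b)
def cQ (p₀ a b : E3) (c t₀ t₁ θ ζ H : ℝ) : E3 :=
  p₀ + (H - ζ) • (a + c • b) - ((c - t₀ + θ * (t₁ - t₀)) * H) • b
def cS (p₀ a b : E3) (c t₀ t₁ θ ζ H : ℝ) : E3 :=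
  p₀ + (H - ζ) • (a + c • b) + ((t₁ - c + θ * (t₁ - t₀)) * H) • b

/-- Real-variable part of the covering of one cell. -/
lemma cell_real (ρ s Λ Γ τ c t₀ t₁ θ K ζ H Rb : ℝ) (hθ : 0 < θ) (hK : 0 ≤ K)
    (ht₀ : t₀ ≤ c) (ht₁ : c ≤ t₁) (hτ₀ : t₀ ≤ τ) (hτ₁ : τ ≤ t₁) (hρ0 : 0 ≤ ρ) (hρ : ρ ≤ Rb)
    (hΛ : |s * Λ| ≤ K * (t₁ - t₀)) (hΓ : |s * Γ| ≤ K * (t₁ - t₀) ^ 2)
    (hζ : ζ = K * (t₁ - t₀) * (1 + 1 / θ)) (hH : H = Rb + 2 * ζ) :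
    0 ≤ ρ + s * Λ + ζ ∧ ρ + s * Λ + ζ ≤ H ∧
    ρ * (τ - c) + s * Γ ≤ (t₁ - c + θ * (t₁ - t₀)) * (ρ + s * Λ + ζ) ∧
    -(ρ * (τ - c) + s * Γ) ≤ (c - t₀ + θ * (t₁ - t₀)) * (ρ + s * Λ + ζ) := by
  have hΔ : 0 ≤ t₁ - t₀ := by linarith
  have hKΔ : 0 ≤ K * (t₁ - t₀) := by positivity
  have hΛ' := abs_le.mp hΛ
  have hΓ' := abs_le.mp hΓ
  have hdiff : ζ - K * (t₁ - t₀) = K * (t₁ - t₀) / θ := by
    rw [hζ]; field_simp; ring
  have hdiff0 : 0 ≤ ζ - K * (t₁ - t₀) := by rw [hdiff]; positivity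
  have hbase : ρ + (ζ - K * (t₁ - t₀)) ≤ ρ + s * Λ + ζ := by linarith [hΛ'.1]
  have hbase0 : 0 ≤ ρ + (ζ - K * (t₁ - t₀)) := by linarith
  have hmain : θ * (t₁ - t₀) * (ζ - K * (t₁ - t₀)) = K * (t₁ - t₀) ^ 2 := by
    rw [hdiff]; field_simp
  refine ⟨by linarith, ?_, ?_, ?_⟩
  · rw [hH]; linarith [hΛ'.2]
  · have h1 : (t₁ - c + θ * (t₁ - t₀)) * (ρ + (ζ - K * (t₁ - t₀))) ≤
        (t₁ - c + θ * (t₁ - t₀)) * (ρ + s * Λ + ζ) :=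
      mul_le_mul_of_nonneg_left hbase (by have := mul_nonneg hθ.le hΔ; linarith)
    have h2 : ρ * (τ - c) ≤ ρ * (t₁ - c) := mul_le_mul_of_nonneg_left (by linarith) hρ0
    have h3 : 0 ≤ (t₁ - c) * (ζ - K * (t₁ - t₀)) := mul_nonneg (by linarith) hdiff0
    have h4 : 0 ≤ θ * (t₁ - t₀) * ρ := by positivity
    have e : (t₁ - c + θ * (t₁ - t₀)) * (ρ + (ζ - K * (t₁ - t₀))) =
        ρ * (t₁ - c) + (t₁ - c) * (ζ - K * (t₁ - t₀)) + θ * (t₁ - t₀) * ρ +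
          θ * (t₁ - t₀) * (ζ - K * (t₁ - t₀)) := by ring
    rw [e, hmain] at h1
    linarith [hΓ'.2]
  · have h1 : (c - t₀ + θ * (t₁ - t₀)) * (ρ + (ζ - K * (t₁ - t₀))) ≤
        (c - t₀ + θ * (t₁ - t₀)) * (ρ + s * Λ + ζ) :=
      mul_le_mul_of_nonneg_left hbase (by have := mul_nonneg hθ.le hΔ; linarith)
    have h2 : ρ * (c - τ) ≤ ρ * (c - t₀) := mul_le_mul_of_nonneg_left (by linarith) hρ0
    have h3 : 0 ≤ (c - t₀) * (ζ - K * (t₁ - t₀)) := mul_nonneg (by linarith) hdiff0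
    have h4 : 0 ≤ θ * (t₁ - t₀) * ρ := by positivity
    have e : (c - t₀ + θ * (t₁ - t₀)) * (ρ + (ζ - K * (t₁ - t₀))) =
        ρ * (c - t₀) + (c - t₀) * (ζ - K * (t₁ - t₀)) + θ * (t₁ - t₀) * ρ +
          θ * (t₁ - t₀) * (ζ - K * (t₁ - t₀)) := by ring
    rw [e, hmain] at h1
    linarith [hΓ'.1]

/-- Barycentric coordinates in the cell triangle. -/
lemma cell_mem_tri (p₀ a b : E3) (c t₀ t₁ θ ζ H X Y : ℝ) (hθ : 0 < θ) (ht₀ : t₀ ≤ c) (ht₁ : c ≤ t₁)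
    (hΔ : t₀ < t₁) (hHpos : 0 < H) (h1 : 0 ≤ X + ζ) (h2 : X + ζ ≤ H)
    (h3 : Y ≤ (t₁ - c + θ * (t₁ - t₀)) * (X + ζ)) (h4 : -Y ≤ (c - t₀ + θ * (t₁ - t₀)) * (X + ζ)) :
    p₀ + X • (a + c • b) + Y • b ∈
      convexHull ℝ {cP p₀ a b c ζ, cQ p₀ a b c t₀ t₁ θ ζ H, cS p₀ a b c t₀ t₁ θ ζ H} := by
  rw [mem_conv3]
  obtain ⟨W₁, hW₁⟩ : ∃ W₁, W₁ = c - t₀ + θ * (t₁ - t₀) := ⟨_, rfl⟩
  obtain ⟨W₂, hW₂⟩ : ∃ W₂, W₂ = t₁ - c + θ * (t₁ - t₀) := ⟨_, rfl⟩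
  rw [← hW₂] at h3
  rw [← hW₁] at h4
  have hΔ0 : 0 < t₁ - t₀ := by linarith
  have hW : 0 < W₁ + W₂ := by
    rw [hW₁, hW₂]
    have : 0 < θ * (t₁ - t₀) := by positivity
    linarith
  obtain ⟨u, hu⟩ : ∃ u, u = (X + ζ) / H := ⟨_, rfl⟩
  have hu0 : 0 ≤ u := by rw [hu]; positivity
  have hu1 : u ≤ 1 := by rw [hu, div_le_one hHpos]; exact h2
  have huH : u * H = X + ζ := by rw [hu]; field_simp
  refine ⟨1 - u, (u * W₂ - Y / H) / (W₁ + W₂), (Y / H + u * W₁) / (W₁ + W₂), by linarith, ?_, ?_, ?_, ?_⟩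
  · apply div_nonneg _ hW.le
    rw [sub_nonneg, div_le_iff₀ hHpos]
    calc Y ≤ W₂ * (X + ζ) := h3
      _ = u * W₂ * H := by rw [← huH]; ring
  · apply div_nonneg _ hW.le
    have : -(Y / H) ≤ u * W₁ := by
      rw [← neg_div, div_le_iff₀ hHpos]
      calc -Y ≤ W₁ * (X + ζ) := h4
        _ = u * W₁ * H := by rw [← huH]; ring
    linarith
  · field_simp
    ring
  · simp only [cP, cQ, cS, ← hW₁, ← hW₂]
    obtain ⟨l₁, hl₁⟩ : ∃ l, l = (u * W₂ - Y / H) / (W₁ + W₂) := ⟨_, rfl⟩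
    obtain ⟨l₂, hl₂⟩ : ∃ l, l = (Y / H + u * W₁) / (W₁ + W₂) := ⟨_, rfl⟩
    rw [← hl₁, ← hl₂]
    have hsum : l₁ + l₂ = u := by
      rw [hl₁, hl₂]; field_simp; ring
    have hb : H * (-(l₁ * W₁) + l₂ * W₂) = Y := by
      rw [hl₁, hl₂]; field_simp; ring
    have hf : -((1 - u) * ζ) + (l₁ + l₂) * (H - ζ) = X := by
      rw [hsum]
      have : u * (H - ζ) = u * H - u * ζ := by ring
      rw [this, huH]; ring
    have hs : (1 - u) + l₁ + l₂ = 1 := by linarith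
    calc (1 - u) • (p₀ - ζ • (a + c • b)) + l₁ • (p₀ + (H - ζ) • (a + c • b) - (W₁ * H) • b) +
          l₂ • (p₀ + (H - ζ) • (a + c • b) + (W₂ * H) • b)
        = ((1 - u) + l₁ + l₂) • p₀ + (-((1 - u) * ζ) + (l₁ + l₂) * (H - ζ)) • (a + c • b) +
            (H * (-(l₁ * W₁) + l₂ * W₂)) • b := by module
      _ = p₀ + X • (a + c • b) + Y • b := by rw [hs, hf, hb, one_smul]

/-- The point of the sweep over one cell, up to the axis of the cell. -/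
lemma cell_cover (e a b p₀ : E3) (he : ‖e‖ = 1) (ha : inner ℝ a e = (0 : ℝ)) (hb : inner ℝ b e = (0 : ℝ))
    (hG : 0 < gram a b) (α β : ℝ) (w : ℝ → E3) (hw : ∀ t ∈ Icc α β, inner ℝ (w t) e = (0 : ℝ))
    (lam : ℝ → ℝ) (Lam : ℝ) (hLam : ∀ t ∈ Icc α β, |lam t| ≤ Lam)
    (hw' : ∀ t ∈ Icc α β, HasDerivWithinAt w (lam t • (a + t • b)) (Icc α β) t)
    (L : ℝ) (hL : 0 ≤ L) (c t₀ t₁ θ ζ H Rb τ ρ s : ℝ) (hθ : 0 < θ) (ht₀α : α ≤ t₀) (ht₁β : t₁ ≤ β)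
    (ht₀ : t₀ ≤ c) (ht₁ : c ≤ t₁) (hΔ : t₀ < t₁) (hτ₀ : t₀ ≤ τ) (hτ₁ : τ ≤ t₁) (hρ0 : 0 ≤ ρ)
    (hρ : ρ ≤ Rb) (hRb : 0 < Rb) (hs : |s| ≤ L)
    (hζ : ζ = (L * Lam) * (t₁ - t₀) * (1 + 1 / θ)) (hH : H = Rb + 2 * ζ) :
    ∃ y ∈ convexHull ℝ {cP p₀ a b c ζ, cQ p₀ a b c t₀ t₁ θ ζ H, cS p₀ a b c t₀ t₁ θ ζ H},
      p₀ + ρ • (a + τ • b) + s • (e + w τ) = y + s • (e + w c) := by
  have hcm : c ∈ Icc α β := ⟨by linarith, by linarith⟩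
  have hτm : τ ∈ Icc α β := ⟨by linarith, by linarith⟩
  have hLam0 : 0 ≤ Lam := le_trans (abs_nonneg _) (hLam c hcm)
  obtain ⟨Λ, Γ, hΛ, hΓ, hdiff⟩ := w_diff e a b he ha hb hG α β w hw lam Lam hLam hw' c τ hcm hτm
  have hτc : |τ - c| ≤ t₁ - t₀ := by
    rw [abs_le]; constructor <;> linarith
  have hK : 0 ≤ L * Lam := by positivity
  have hsΛ : |s * Λ| ≤ (L * Lam) * (t₁ - t₀) := by
    rw [abs_mul]
    calc |s| * |Λ| ≤ L * (Lam * |τ - c|) := mul_le_mul hs hΛ (abs_nonneg _) hL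
      _ ≤ L * (Lam * (t₁ - t₀)) := by gcongr
      _ = _ := by ring
  have hsΓ : |s * Γ| ≤ (L * Lam) * (t₁ - t₀) ^ 2 := by
    rw [abs_mul]
    calc |s| * |Γ| ≤ L * (Lam * |τ - c| ^ 2) := mul_le_mul hs hΓ (abs_nonneg _) hL
      _ ≤ L * (Lam * (t₁ - t₀) ^ 2) := by gcongr
      _ = _ := by ring
  obtain ⟨h1, h2, h3, h4⟩ := cell_real ρ s Λ Γ τ c t₀ t₁ θ (L * Lam) ζ H Rb hθ hK ht₀ ht₁ hτ₀ hτ₁ hρ0 hρ
    hsΛ hsΓ hζ hH
  have hζ0 : 0 ≤ ζ := by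
    rw [hζ]
    have : 0 ≤ t₁ - t₀ := by linarith
    positivity
  have hHpos : 0 < H := by rw [hH]; linarith
  refine ⟨_, cell_mem_tri p₀ a b c t₀ t₁ θ ζ H (ρ + s * Λ) (ρ * (τ - c) + s * Γ) hθ ht₀ ht₁ hΔ hHpos
    h1 h2 h3 h4, ?_⟩
  have e1 : w τ = w c + (Λ • (a + c • b) + Γ • b) := by rw [← hdiff]; abel
  rw [e1]
  module

lemma det3_lin (d f b : E3) (x₁ y₁ x₂ y₂ : ℝ) :
    det3 d (x₁ • f + y₁ • b) (x₂ • f + y₂ • b) = (x₁ * y₂ - x₂ * y₁) * det3 d f b := by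
  simp only [det3, PiLp.add_apply, PiLp.smul_apply, smul_eq_mul]; ring

lemma det3_shear (d a b : E3) (c : ℝ) : det3 d (a + c • b) b = det3 d a b := by
  simp only [det3, PiLp.add_apply, PiLp.smul_apply, smul_eq_mul]; ring

/-- `|det(d, a, b)| = gram a b` for the axis `d = e + x`. -/
lemma abs_det3_axis (e a b x : E3) (he : ‖e‖ = 1) (ha : inner ℝ a e = (0 : ℝ))
    (hb : inner ℝ b e = (0 : ℝ)) (hG : 0 < gram a b) (hx : inner ℝ x e = (0 : ℝ)) :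
    |det3 (e + x) a b| = gram a b := by
  rw [det3_add_left, det3_plane e a b x he ha hb hG hx, add_zero, abs_det3_e e a b he ha hb]

/-- The area of the cell triangle. -/
lemma cell_area (e a b p₀ x : E3) (he : ‖e‖ = 1) (ha : inner ℝ a e = (0 : ℝ))
    (hb : inner ℝ b e = (0 : ℝ)) (hG : 0 < gram a b) (hx : inner ℝ x e = (0 : ℝ))
    (c t₀ t₁ θ ζ H : ℝ) (hθ : 0 < θ) (ht₀ : t₀ ≤ c) (ht₁ : c ≤ t₁) (hΔ : t₀ < t₁) (hH : 0 < H) :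
    (μHE[2] (convexHull ℝ {prj (unitOf (e + x)) (cP p₀ a b c ζ),
        prj (unitOf (e + x)) (cQ p₀ a b c t₀ t₁ θ ζ H),
        prj (unitOf (e + x)) (cS p₀ a b c t₀ t₁ θ ζ H)})).toReal =
      gram a b * ((1 + 2 * θ) * H ^ 2 / (2 * Real.sqrt (1 + ‖x‖ ^ 2))) * (t₁ - t₀) := by
  rw [area_proj_tri _ _ _ _ (axis_ne e x he hx), norm_axis e x he hx]
  have e1 : cQ p₀ a b c t₀ t₁ θ ζ H - cP p₀ a b c ζ =
      H • (a + c • b) + (-((c - t₀ + θ * (t₁ - t₀)) * H)) • b := by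
    simp only [cQ, cP]; module
  have e2 : cS p₀ a b c t₀ t₁ θ ζ H - cP p₀ a b c ζ =
      H • (a + c • b) + ((t₁ - c + θ * (t₁ - t₀)) * H) • b := by
    simp only [cS, cP]; module
  rw [e1, e2, det3_lin, det3_shear, abs_mul, abs_det3_axis e a b x he ha hb hG hx]
  have hpos : H * ((t₁ - c + θ * (t₁ - t₀)) * H) - H * (-((c - t₀ + θ * (t₁ - t₀)) * H)) =
      (1 + 2 * θ) * H ^ 2 * (t₁ - t₀) := by ring
  rw [hpos, abs_of_nonneg (by have : 0 ≤ t₁ - t₀ := by linarith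
                              positivity)]
  ring

/-- Nondegeneracy of the cell triangle. -/
lemma cell_affine (e a b p₀ x : E3) (he : ‖e‖ = 1) (ha : inner ℝ a e = (0 : ℝ))
    (hb : inner ℝ b e = (0 : ℝ)) (hG : 0 < gram a b) (hx : inner ℝ x e = (0 : ℝ))
    (c t₀ t₁ θ ζ H : ℝ) (hθ : 0 < θ) (ht₀ : t₀ ≤ c) (ht₁ : c ≤ t₁) (hΔ : t₀ < t₁) (hH : 0 < H) :
    AffineIndependent ℝ ![prj (unitOf (e + x)) (cP p₀ a b c ζ),
        prj (unitOf (e + x)) (cQ p₀ a b c t₀ t₁ θ ζ H),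
        prj (unitOf (e + x)) (cS p₀ a b c t₀ t₁ θ ζ H)] := by
  apply affineIndep_of_gram_pos
  have h := cell_area e a b p₀ x he ha hb hG hx c t₀ t₁ θ ζ H hθ ht₀ ht₁ hΔ hH
  rw [muHE_conv3_toReal] at h
  have hsq : 0 < Real.sqrt (1 + ‖x‖ ^ 2) := Real.sqrt_pos.mpr (by positivity)
  have hd : 0 < t₁ - t₀ := by linarith
  have : 0 < gram a b * ((1 + 2 * θ) * H ^ 2 / (2 * Real.sqrt (1 + ‖x‖ ^ 2))) * (t₁ - t₀) := by
    positivity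
  rw [← h] at this
  linarith

/-- The lower triangle in a cell. -/
lemma low_tri_subset (e a b p₀ d : E3) (L : ℝ) (hL : 0 ≤ L) (w : ℝ → E3) (R : ℝ → ℝ) (t₀ t₁ Rl : ℝ)
    (hΔ : t₀ < t₁) (hRl0 : 0 ≤ Rl) (hRl : ∀ τ ∈ Icc t₀ t₁, Rl ≤ R τ) :
    convexHull ℝ {prj (unitOf d) p₀, prj (unitOf d) (p₀ + Rl • (a + t₀ • b)),
        prj (unitOf d) (p₀ + Rl • (a + t₁ • b))} ⊆
      prj (unitOf d) '' {x : E3 | ∃ τ ∈ Icc t₀ t₁, ∃ ρ ∈ Icc 0 (R τ), ∃ s : ℝ, |s| ≤ L ∧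
        x = p₀ + ρ • (a + τ • b) + s • (e + w τ)} := by
  intro y hy
  rw [mem_conv3] at hy
  obtain ⟨l₀, l₁, l₂, h0, h1, h2, hsum, rfl⟩ := hy
  set u := unitOf d
  have eadd : ∀ x y : E3, prj u (x + y) = prj u x + prj u y := by
    intro x y; simp only [prj, inner_add_left, add_smul]; abel
  have esmul : ∀ (k : ℝ) (x : E3), prj u (k • x) = k • prj u x := by
    intro k x; simp only [prj, inner_smul_left, conj_trivial, smul_sub, smul_smul]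
  by_cases hl : l₁ + l₂ = 0
  · have hl1 : l₁ = 0 := by linarith
    have hl2 : l₂ = 0 := by linarith
    have hl0 : l₀ = 1 := by linarith
    refine ⟨p₀, ⟨t₀, ⟨le_rfl, hΔ.le⟩, 0, ⟨le_rfl, le_trans hRl0 (hRl t₀ ⟨le_rfl, hΔ.le⟩)⟩, 0, ?_, ?_⟩, ?_⟩
    · simpa using hL
    · simp
    · rw [hl1, hl2, hl0]; simp
  · have hlpos : 0 < l₁ + l₂ := lt_of_le_of_ne (by positivity) (Ne.symm hl)
    set τ := (l₁ * t₀ + l₂ * t₁) / (l₁ + l₂) with hτ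
    have hτ0 : t₀ ≤ τ := by
      rw [hτ, le_div_iff₀ hlpos]; nlinarith
    have hτ1 : τ ≤ t₁ := by
      rw [hτ, div_le_iff₀ hlpos]; nlinarith
    have hτm : τ ∈ Icc t₀ t₁ := ⟨hτ0, hτ1⟩
    have hl12 : l₁ + l₂ ≤ 1 := by linarith
    have hρ : (l₁ + l₂) * Rl ≤ R τ := by
      have := hRl τ hτm
      nlinarith
    refine ⟨p₀ + ((l₁ + l₂) * Rl) • (a + τ • b) + (0 : ℝ) • (e + w τ),
      ⟨τ, hτm, (l₁ + l₂) * Rl, ⟨by positivity, hρ⟩, 0, by simpa using hL, rfl⟩, ?_⟩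
    have e1 : p₀ + ((l₁ + l₂) * Rl) • (a + τ • b) + (0 : ℝ) • (e + w τ) =
        l₀ • p₀ + l₁ • (p₀ + Rl • (a + t₀ • b)) + l₂ • (p₀ + Rl • (a + t₁ • b)) := by
      have hτe : (l₁ + l₂) * τ = l₁ * t₀ + l₂ * t₁ := by rw [hτ]; field_simp
      have h0' : l₀ = 1 - l₁ - l₂ := by linarith
      rw [h0']
      have e2 : ((l₁ + l₂) * Rl) • (a + τ • b) = (l₁ * Rl + l₂ * Rl) • a + (Rl * (l₁ * t₀ + l₂ * t₁)) • b := by
        rw [← hτe]; module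
      rw [e2]
      module
    rw [e1, eadd, eadd, esmul, esmul, esmul]

/-- The area of the lower triangle. -/
lemma low_tri_area (e a b p₀ x : E3) (he : ‖e‖ = 1) (ha : inner ℝ a e = (0 : ℝ))
    (hb : inner ℝ b e = (0 : ℝ)) (hG : 0 < gram a b) (hx : inner ℝ x e = (0 : ℝ)) (t₀ t₁ Rl : ℝ)
    (hΔ : t₀ < t₁) :
    (μHE[2] (convexHull ℝ {prj (unitOf (e + x)) p₀, prj (unitOf (e + x)) (p₀ + Rl • (a + t₀ • b)),
        prj (unitOf (e + x)) (p₀ + Rl • (a + t₁ • b))})).toReal =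
      gram a b * (Rl ^ 2 / (2 * Real.sqrt (1 + ‖x‖ ^ 2))) * (t₁ - t₀) := by
  rw [area_proj_tri _ _ _ _ (axis_ne e x he hx), norm_axis e x he hx]
  have e1 : p₀ + Rl • (a + t₀ • b) - p₀ = Rl • a + (Rl * t₀) • b := by module
  have e2 : p₀ + Rl • (a + t₁ • b) - p₀ = Rl • a + (Rl * t₁) • b := by module
  rw [e1, e2, det3_lin, abs_mul, abs_det3_axis e a b x he ha hb hG hx]
  have : Rl * (Rl * t₁) - Rl * (Rl * t₀) = Rl ^ 2 * (t₁ - t₀) := by ring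
  rw [this, abs_of_nonneg (by have : 0 ≤ t₁ - t₀ := by linarith
                              positivity)]
  ring

/-- telescoping along a partition -/
lemma fin_telescope (N : ℕ) (v : Fin (N + 1) → ℝ) :
    ∑ i : Fin N, (v i.succ - v i.castSucc) = v (Fin.last N) - v 0 := by
  induction N with
  | zero => simp
  | succ N ih =>
    rw [Fin.sum_univ_castSucc]
    have := ih (fun i => v i.castSucc)
    simp only [Fin.succ_castSucc] at this ⊢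
    rw [this]
    simp only [Fin.castSucc_zero, Fin.succ_last]
    ring

/-- a point of the interval lies in a cell -/
lemma exists_cell (N : ℕ) (t : Fin (N + 1) → ℝ) (ht : StrictMono t) (α β : ℝ) (h0 : t 0 = α)
    (h1 : t (Fin.last N) = β) (hαβ : α < β) (τ : ℝ) (hτ : τ ∈ Icc α β) :
    ∃ i : Fin N, t i.castSucc ≤ τ ∧ τ ≤ t i.succ := by
  classical
  have hN : 0 < N := by
    rcases Nat.eq_zero_or_pos N with rfl | h
    · exfalso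
      have : (Fin.last 0 : Fin 1) = 0 := rfl
      rw [this, h0] at h1
      linarith
    · exact h
  have hex : ∃ j : ℕ, ∃ h : j < N + 1, τ ≤ t ⟨j, h⟩ := ⟨N, by omega, by
    have : (⟨N, by omega⟩ : Fin (N + 1)) = Fin.last N := rfl
    rw [this, h1]; exact hτ.2⟩
  let j := Nat.find hex
  obtain ⟨hj, hjτ⟩ := Nat.find_spec hex
  have hmin : ∀ k (hk : k < N + 1), k < j → t ⟨k, hk⟩ < τ := by
    intro k hk hkj
    have := Nat.find_min hex hkj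
    push Not at this
    exact this hk
  rcases Nat.eq_zero_or_pos j with hj0 | hjpos
  · have hi : (0 : ℕ) < N := hN
    refine ⟨⟨0, hi⟩, ?_, ?_⟩
    · have : (⟨0, hi⟩ : Fin N).castSucc = 0 := rfl
      rw [this, h0]; exact hτ.1
    · have hle : t ⟨j, hj⟩ ≤ t (⟨0, hi⟩ : Fin N).succ := by
        apply ht.monotone
        simp only [Fin.le_def, Fin.val_succ]
        omega
      linarith
  · have hi : j - 1 < N := by omega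
    refine ⟨⟨j - 1, hi⟩, ?_, ?_⟩
    · have := hmin (j - 1) (by omega) (by omega)
      have e : (⟨j - 1, hi⟩ : Fin N).castSucc = ⟨j - 1, by omega⟩ := rfl
      rw [e]; exact this.le
    · have e : (⟨j - 1, hi⟩ : Fin N).succ = ⟨j, hj⟩ := by
        apply Fin.ext
        simp only [Fin.val_succ]
        omega
      rw [e]; exact hjτ

end

end Crest.Agent.Tetra
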