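import Crest.Agent.Lib.Tetra.Simil

/-!
# Parallelogram covers of the standard and of general regular tetrahedra
-/

set_option autoImplicit false

namespace Crest.Agent.Tetra

open Set MeasureTheory Finset Module

noncomputable section

/-- Parallelogram cover of the standard tetrahedron, `N` strips per triangle. -/
theorem para_cover_aux (N : ℕ) (hN : 0 < N) (ε : ℝ) (hε : 0 < ε) (hε1 : ε ≤ 1 / 2000) :
    ∃ (k : ℕ) (u c a b : Fin k → E3),
    (∀ i, ‖u i‖ = 1) ∧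
    (∀ i, inner ℝ (c i) (u i) = (0 : ℝ) ∧ inner ℝ (a i) (u i) = (0 : ℝ) ∧
      inner ℝ (b i) (u i) = (0 : ℝ)) ∧
    (∀ i, 0 < gram (a i) (b i)) ∧
    (stdK ⊆ ⋃ i, {x : E3 | ∃ y ∈ para (c i) (a i) (b i), ∃ τ : ℝ, x = y + τ • u i}) ∧
    ∑ i, gram (a i) (b i) ≤ Real.sqrt 2 * ((1 / 2 - 13 / 6000 * ε ^ 2) * (1 + 1 / (N : ℝ))) := by
  obtain ⟨m, hm⟩ : ∃ m, m = 2 * ⌈(2 : ℝ) / ε ^ 2⌉₊ := ⟨_, rfl⟩
  obtain ⟨u, p, q, r, h1, h2, h3, h4, h5⟩ : ∃ u p q r : Fin m → E3,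
      (∀ i, ‖u i‖ = 1) ∧
      (∀ i, inner ℝ (p i) (u i) = (0 : ℝ) ∧ inner ℝ (q i) (u i) = (0 : ℝ) ∧
        inner ℝ (r i) (u i) = (0 : ℝ)) ∧
      stdK ⊆ ⋃ i, {x : E3 | ∃ b ∈ convexHull ℝ {p i, q i, r i}, ∃ t : ℝ, x = b + t • u i} ∧
      ∑ i, (μHE[2] (convexHull ℝ {p i, q i, r i})).toReal =
        Real.sqrt 2 * (1 / 2 - 13 / 6000 * ε ^ 2) ∧
      (∀ i, 0 < (μHE[2] (convexHull ℝ {p i, q i, r i})).toReal) := by
    subst hm; exact cover_family ε hε hε1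
  have hNr : (0 : ℝ) < N := by exact_mod_cast hN
  let e := finProdFinEquiv (m := m) (n := N)
  refine ⟨m * N, fun x => u (e.symm x).1,
    fun x => stripC (p (e.symm x).1) (q (e.symm x).1 - p (e.symm x).1) N (e.symm x).2,
    fun x => stripA (q (e.symm x).1 - p (e.symm x).1) N,
    fun x => stripB (r (e.symm x).1 - p (e.symm x).1) N (e.symm x).2,
    fun x => h1 _, ?_, ?_, ?_, ?_⟩
  · intro x
    have hu := h2 (e.symm x).1
    have hqp : inner ℝ (q (e.symm x).1 - p (e.symm x).1) (u (e.symm x).1) = (0 : ℝ) := by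
      rw [inner_sub_left, hu.1, hu.2.1]; simp
    have hrp : inner ℝ (r (e.symm x).1 - p (e.symm x).1) (u (e.symm x).1) = (0 : ℝ) := by
      rw [inner_sub_left, hu.1, hu.2.2]; simp
    exact ⟨inner_stripC _ _ _ _ _ hu.1 hqp, inner_stripA _ _ _ hqp, inner_stripB _ _ _ _ hrp⟩
  · intro x
    have hpos := h5 (e.symm x).1
    rw [muHE_conv3_toReal] at hpos
    have hj : (((e.symm x).2 : ℕ) : ℝ) / N < 1 := by
      rw [div_lt_one hNr]; exact_mod_cast (e.symm x).2.2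
    simp only [stripA, stripB]
    rw [gram_smul, abs_of_pos]
    · have : 0 < gram (q (e.symm x).1 - p (e.symm x).1) (r (e.symm x).1 - p (e.symm x).1) := by
        linarith
      apply mul_pos _ this
      apply mul_pos (by positivity) (by linarith)
    · apply mul_pos (by positivity) (by linarith)
  · intro z hz
    have h6 := h3 hz
    rw [mem_iUnion] at h6 ⊢
    obtain ⟨i, b', hb', τ, hτ⟩ := h6
    obtain ⟨j, hj⟩ := tri_subset_para (p i) (q i) (r i) b' N hN hb'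
    refine ⟨e (i, j), ?_⟩
    simp only [Equiv.symm_apply_apply]
    exact ⟨b', hj, τ, hτ⟩
  · have hsum : ∑ x, gram (stripA (q (e.symm x).1 - p (e.symm x).1) N)
        (stripB (r (e.symm x).1 - p (e.symm x).1) N (e.symm x).2) =
        ∑ y : Fin m × Fin N, gram (stripA (q y.1 - p y.1) N) (stripB (r y.1 - p y.1) N y.2) :=
      e.symm.sum_comp (fun y : Fin m × Fin N =>
        gram (stripA (q y.1 - p y.1) N) (stripB (r y.1 - p y.1) N y.2))
    simp only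
    rw [hsum, Fintype.sum_prod_type]
    have h7 : ∀ i : Fin m, ∑ j : Fin N, gram (stripA (q i - p i) N) (stripB (r i - p i) N j) =
        (μHE[2] (convexHull ℝ {p i, q i, r i})).toReal * (1 + 1 / (N : ℝ)) := by
      intro i
      rw [sum_strips _ _ N hN, muHE_conv3_toReal]
      ring
    simp_rw [h7]
    rw [← Finset.sum_mul, h4]
    apply le_of_eq
    ring

/-- Parallelogram cover of the standard tetrahedron. -/
theorem para_cover_std : ∃ (k : ℕ) (u c a b : Fin k → E3) (T : ℝ), T < 1 / 2 ∧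
    (∀ i, ‖u i‖ = 1) ∧
    (∀ i, inner ℝ (c i) (u i) = (0 : ℝ) ∧ inner ℝ (a i) (u i) = (0 : ℝ) ∧
      inner ℝ (b i) (u i) = (0 : ℝ)) ∧
    (∀ i, 0 < gram (a i) (b i)) ∧
    (stdK ⊆ ⋃ i, {x : E3 | ∃ y ∈ para (c i) (a i) (b i), ∃ τ : ℝ, x = y + τ • u i}) ∧
    ∑ i, gram (a i) (b i) ≤ Real.sqrt 2 * T := by
  obtain ⟨k, u, c, a, b, h1, h2, h3, h4, h5⟩ :=
    para_cover_aux 10000000000 (by norm_num) (1 / 2000) (by norm_num) le_rfl
  refine ⟨k, u, c, a, b, _, ?_, h1, h2, h3, h4, h5⟩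
  norm_num

lemma gram_map (O : E3 ≃ₗᵢ[ℝ] E3) (a b : E3) : gram (O a) (O b) = gram a b := by
  simp only [gram, O.norm_map, O.inner_map_map]

/-- Parallelogram covers of general regular tetrahedra. -/
theorem para_cover_reg (w : Fin 4 → E3) (ℓ : ℝ) (hℓ : 0 < ℓ)
    (hw : ∀ i j, i ≠ j → dist (w i) (w j) = ℓ) :
    ∃ (k : ℕ) (u c a b : Fin k → E3) (T : ℝ), T < 1 / 2 ∧ 0 ≤ T ∧
    (∀ i, ‖u i‖ = 1) ∧
    (∀ i, inner ℝ (c i) (u i) = (0 : ℝ) ∧ inner ℝ (a i) (u i) = (0 : ℝ) ∧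
      inner ℝ (b i) (u i) = (0 : ℝ)) ∧
    (∀ i, 0 < gram (a i) (b i)) ∧
    (convexHull ℝ (range w) ⊆ ⋃ i, {x : E3 | ∃ y ∈ para (c i) (a i) (b i), ∃ τ : ℝ, x = y + τ • u i}) ∧
    ∑ i, gram (a i) (b i) ≤ (ℓ / 2) ^ 2 * Real.sqrt 2 * T ∧
    (∀ v : E3, ‖v‖ = 1 → (ℓ / 2) ^ 2 * Real.sqrt 2 ≤
      (μHE[2] (prj v '' convexHull ℝ (range w))).toReal) := by
  obtain ⟨O, o, hO⟩ := exists_similarity w ℓ hℓ hw
  obtain ⟨k, u, c, a, b, T, hT, h1, h2, h3, h4, h5⟩ := para_cover_std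
  set lam := ℓ / 2 with hlam
  have hlam0 : 0 < lam := by positivity
  have hs := sqrt2_pos
  have hT0 : 0 ≤ T := by
    have h6 : 0 ≤ ∑ i, gram (a i) (b i) := Finset.sum_nonneg (fun i _ => gram_nonneg _ _)
    have h7 : 0 ≤ Real.sqrt 2 * T := le_trans h6 h5
    exact nonneg_of_mul_nonneg_right h7 hs
  refine ⟨k, fun i => O (u i), fun i => prj (O (u i)) o + lam • O (c i), fun i => lam • O (a i),
    fun i => lam • O (b i), T, hT, hT0, ?_, ?_, ?_, ?_, ?_, ?_⟩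
  · intro i; simp only [O.norm_map, h1]
  · intro i
    have hun : ‖O (u i)‖ = 1 := by rw [O.norm_map, h1]
    obtain ⟨h21, h22, h23⟩ := h2 i
    refine ⟨?_, ?_, ?_⟩
    · rw [inner_add_left, inner_prj _ _ hun, inner_smul_left, O.inner_map_map, h21]; simp
    · rw [inner_smul_left, O.inner_map_map, h22]; simp
    · rw [inner_smul_left, O.inner_map_map, h23]; simp
  · intro i
    simp only
    rw [gram_smul, gram_map]
    have := h3 i
    have h2' : 0 < |lam * lam| := by positivity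
    positivity
  · rw [hO]
    rintro x ⟨z, hz, rfl⟩
    have h6 := h4 hz
    rw [mem_iUnion] at h6 ⊢
    obtain ⟨i, y, ⟨s, hs', t, ht, rfl⟩, τ, rfl⟩ := h6
    refine ⟨i, _, ⟨s, hs', t, ht, rfl⟩, (inner ℝ o (O (u i)) : ℝ) + lam * τ, ?_⟩
    simp only [prj, map_add, map_smul, smul_add, add_smul, smul_smul]
    have e1 : s * lam = lam * s := mul_comm _ _
    have e2 : t * lam = lam * t := mul_comm _ _
    rw [e1, e2]
    abel
  · simp only
    have : ∀ i, gram (lam • O (a i)) (lam • O (b i)) = lam ^ 2 * gram (a i) (b i) := by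
      intro i
      rw [gram_smul, gram_map, abs_of_pos (by positivity)]; ring
    simp_rw [this]
    rw [← Finset.mul_sum]
    have h7 := mul_le_mul_of_nonneg_left h5 (by positivity : 0 ≤ lam ^ 2)
    linarith
  · intro v hv
    rw [hO]
    exact proj_simil O o lam hlam0 v hv

end

end Crest.Agent.Tetra
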