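import Crest.Agent.Lib.Tetra.Area

/-!
# Triangles and parallelograms in `ℝ³`
-/

set_option autoImplicit false

namespace Crest.Agent.Tetra

open MeasureTheory Measure Set
open scoped ENNReal NNReal

lemma inner_E3 (a b : E3) : (inner ℝ a b : ℝ) = a 0 * b 0 + a 1 * b 1 + a 2 * b 2 := by
  simp [PiLp.inner_apply, Fin.sum_univ_three]
  ring

lemma norm_sq_E3 (a : E3) : ‖a‖ ^ 2 = a 0 ^ 2 + a 1 ^ 2 + a 2 ^ 2 := by
  rw [EuclideanSpace.real_norm_sq_eq]; simp [Fin.sum_univ_three]

lemma inner_E2 (a b : E2) : (inner ℝ a b : ℝ) = a 0 * b 0 + a 1 * b 1 := by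
  simp [PiLp.inner_apply, Fin.sum_univ_two]
  ring

/-- the standard triangle -/
def stdTri : Set E2 := {x | 0 ≤ x 0 ∧ 0 ≤ x 1 ∧ x 0 + x 1 ≤ 1}

/-- the unit square -/
def unitSq : Set E2 := {x | x 0 ∈ Icc (0 : ℝ) 1 ∧ x 1 ∈ Icc (0 : ℝ) 1}

/-- The coordinate map `ℝ × ℝ → E2` is measure preserving. -/
lemma mp_pairE2 : MeasurePreserving (fun x : ℝ × ℝ => (!₂[x.1, x.2] : E2)) volume volume := by
  have h1 := (PiLp.volume_preserving_toLp (Fin 2))
  have h2 := (MeasureTheory.volume_preserving_finTwoArrow ℝ).symm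
  have hS : (fun x : ℝ × ℝ => (!₂[x.1, x.2] : E2)) =
      (WithLp.toLp 2) ∘ ((MeasurableEquiv.finTwoArrow (α := ℝ)).symm) := by
    funext x
    ext i
    fin_cases i <;> simp [MeasurableEquiv.finTwoArrow]
  rw [hS]
  exact h1.comp h2

lemma continuous_coord2 (i : Fin 2) : Continuous (fun x : E2 => x i) := by fun_prop

lemma measurableSet_stdTri : MeasurableSet stdTri := by
  have : IsClosed stdTri := by
    have h0 := continuous_coord2 0
    have h1 := continuous_coord2 1
    exact (isClosed_le continuous_const h0).inter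
      ((isClosed_le continuous_const h1).inter (isClosed_le (h0.add h1) continuous_const))
  exact this.measurableSet

lemma measurableSet_unitSq : MeasurableSet unitSq := by
  have : IsClosed unitSq := by
    have h0 := continuous_coord2 0
    have h1 := continuous_coord2 1
    exact (isClosed_Icc.preimage h0).inter (isClosed_Icc.preimage h1)
  exact this.measurableSet

lemma volume_unitSq : volume unitSq = 1 := by
  rw [← mp_pairE2.measure_preimage measurableSet_unitSq.nullMeasurableSet]
  have : (fun x : ℝ × ℝ => (!₂[x.1, x.2] : E2)) ⁻¹' unitSq = Icc (0 : ℝ) 1 ×ˢ Icc (0 : ℝ) 1 := by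
    ext x
    constructor
    · intro h
      exact Set.mk_mem_prod (by simpa using h.1) (by simpa using h.2)
    · rintro ⟨h1, h2⟩
      exact ⟨by simpa using h1, by simpa using h2⟩
  rw [this, Measure.volume_eq_prod, Measure.prod_prod]
  simp

lemma volume_stdTri : volume stdTri = ENNReal.ofReal (1 / 2) := by
  rw [← mp_pairE2.measure_preimage measurableSet_stdTri.nullMeasurableSet]
  have hmeas : MeasurableSet ((fun x : ℝ × ℝ => (!₂[x.1, x.2] : E2)) ⁻¹' stdTri) :=
    mp_pairE2.measurable measurableSet_stdTri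
  rw [Measure.volume_eq_prod, Measure.prod_apply hmeas]
  have hsec : ∀ x : ℝ, volume (Prod.mk x ⁻¹' ((fun x : ℝ × ℝ => (!₂[x.1, x.2] : E2)) ⁻¹' stdTri)) =
      (Icc (0 : ℝ) 1).indicator (fun x => ENNReal.ofReal (1 - x)) x := by
    intro x
    by_cases hx : x ∈ Icc (0 : ℝ) 1
    · rw [indicator_of_mem hx]
      have : Prod.mk x ⁻¹' ((fun x : ℝ × ℝ => (!₂[x.1, x.2] : E2)) ⁻¹' stdTri) = Icc 0 (1 - x) := by
        ext y
        simp only [stdTri, mem_preimage, mem_Icc, Set.mem_ofPred_eq]
        simp only [Matrix.cons_val_zero, Matrix.cons_val_one, Matrix.cons_val_fin_one]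
        have := hx.1
        constructor
        · rintro ⟨h1, h2, h3⟩
          exact ⟨h2, by linarith⟩
        · rintro ⟨h1, h2⟩
          exact ⟨this, h1, by linarith⟩
      rw [this, Real.volume_Icc]; simp
    · rw [indicator_of_notMem hx]
      have : Prod.mk x ⁻¹' ((fun x : ℝ × ℝ => (!₂[x.1, x.2] : E2)) ⁻¹' stdTri) = ∅ := by
        ext y
        simp only [stdTri, mem_preimage, Set.mem_ofPred_eq, mem_empty_iff_false, iff_false]
        simp only [Matrix.cons_val_zero, Matrix.cons_val_one, Matrix.cons_val_fin_one]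
        rintro ⟨h1, h2, h3⟩
        exact hx ⟨h1, by linarith⟩
      rw [this]; simp
  simp_rw [hsec]
  rw [lintegral_indicator measurableSet_Icc]
  rw [← ofReal_integral_eq_lintegral_ofReal]
  · congr 1
    rw [integral_Icc_eq_integral_Ioc, ← intervalIntegral.integral_of_le (by norm_num)]
    rw [intervalIntegral.integral_sub (f := fun _ => (1 : ℝ)) (g := fun x => x)
      (continuous_const.intervalIntegrable _ _) (continuous_id.intervalIntegrable _ _)]
    simp
    norm_num
  · exact (continuous_const.sub continuous_id).integrableOn_Icc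
  · filter_upwards [ae_restrict_mem measurableSet_Icc] with x hx
    simp only [Pi.zero_apply]
    linarith [hx.2]

/-- translation invariance -/
lemma muHE_add_image (p : E3) (S : Set E3) : μHE[2] ((fun x => p + x) '' S) = μHE[2] S :=
  (IsometryEquiv.addLeft p).isometry.euclideanHausdorffMeasure_image S

/-- Membership in the convex hull of three points. -/
lemma mem_conv3 (p q r x : E3) : x ∈ convexHull ℝ {p, q, r} ↔
    ∃ a b c : ℝ, 0 ≤ a ∧ 0 ≤ b ∧ 0 ≤ c ∧ a + b + c = 1 ∧ a • p + b • q + c • r = x := by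
  constructor
  · intro hx
    have hconv : Convex ℝ {x : E3 | ∃ a b c : ℝ, 0 ≤ a ∧ 0 ≤ b ∧ 0 ≤ c ∧ a + b + c = 1 ∧
        a • p + b • q + c • r = x} := by
      rintro x ⟨a, b, c, ha, hb, hc, h1, rfl⟩ y ⟨a', b', c', ha', hb', hc', h1', rfl⟩ s t hs ht hst
      refine ⟨s * a + t * a', s * b + t * b', s * c + t * c', by positivity, by positivity,
        by positivity, ?_, ?_⟩
      · calc s * a + t * a' + (s * b + t * b') + (s * c + t * c')
            = s * (a + b + c) + t * (a' + b' + c') := by ring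
          _ = 1 := by rw [h1, h1', mul_one, mul_one, hst]
      · simp only [smul_add, add_smul, smul_smul]; abel
    have hsub : ({p, q, r} : Set E3) ⊆ {x : E3 | ∃ a b c : ℝ, 0 ≤ a ∧ 0 ≤ b ∧ 0 ≤ c ∧ a + b + c = 1 ∧
        a • p + b • q + c • r = x} := by
      rintro y (rfl | rfl | rfl)
      · exact ⟨1, 0, 0, by norm_num, by norm_num, by norm_num, by norm_num, by simp⟩
      · exact ⟨0, 1, 0, by norm_num, by norm_num, by norm_num, by norm_num, by simp⟩
      · exact ⟨0, 0, 1, by norm_num, by norm_num, by norm_num, by norm_num, by simp⟩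
    exact convexHull_min hsub hconv hx
  · rintro ⟨a, b, c, ha, hb, hc, h1, rfl⟩
    have hp : p ∈ convexHull ℝ ({p, q, r} : Set E3) := subset_convexHull ℝ _ (by simp)
    have hq : q ∈ convexHull ℝ ({p, q, r} : Set E3) := subset_convexHull ℝ _ (by simp)
    have hr : r ∈ convexHull ℝ ({p, q, r} : Set E3) := subset_convexHull ℝ _ (by simp)
    have hc' := convex_convexHull ℝ ({p, q, r} : Set E3)
    by_cases hab : a + b = 0
    · have ha0 : a = 0 := by linarith
      have hb0 : b = 0 := by linarith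
      have hc1 : c = 1 := by linarith
      subst ha0 hb0 hc1
      simpa using hr
    · have hpos : 0 < a + b := lt_of_le_of_ne (by positivity) (Ne.symm hab)
      have h2 : (a / (a + b)) • p + (b / (a + b)) • q ∈ convexHull ℝ ({p, q, r} : Set E3) :=
        hc' hp hq (by positivity) (by positivity) (by field_simp)
      have h3 := hc' h2 hr (le_of_lt hpos) hc (by linarith)
      have e : (a + b) • ((a / (a + b)) • p + (b / (a + b)) • q) + c • r = a • p + b • q + c • r := by
        rw [smul_add, smul_smul, smul_smul]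
        have e1 : (a + b) * (a / (a + b)) = a := by field_simp
        have e2 : (a + b) * (b / (a + b)) = b := by field_simp
        rw [e1, e2]
      rwa [e] at h3

/-- The triangle as an image of the standard triangle. -/
lemma conv3_eq_image (p q r : E3) :
    convexHull ℝ {p, q, r} = (fun x => p + x) '' (lin2 (q - p) (r - p) '' stdTri) := by
  ext x
  rw [mem_conv3]
  constructor
  · rintro ⟨a, b, c, ha, hb, hc, h1, rfl⟩
    refine ⟨lin2 (q - p) (r - p) !₂[b, c], ⟨!₂[b, c], ?_, rfl⟩, ?_⟩
    · simp only [stdTri, Set.mem_ofPred_eq]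
      simp only [Matrix.cons_val_zero, Matrix.cons_val_one, Matrix.cons_val_fin_one]
      exact ⟨hb, hc, by linarith⟩
    · simp only [lin2_apply, smul_sub]
      simp only [Matrix.cons_val_zero, Matrix.cons_val_one, Matrix.cons_val_fin_one]
      have : a = 1 - b - c := by linarith
      subst this
      simp only [sub_smul, one_smul, smul_sub]
      abel
  · rintro ⟨y, ⟨z, hz, rfl⟩, rfl⟩
    refine ⟨1 - z 0 - z 1, z 0, z 1, by linarith [hz.2.2], hz.1, hz.2.1, by ring, ?_⟩
    simp only [lin2_apply, smul_sub, sub_smul, one_smul]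
    abel

/-- Area of a triangle in `ℝ³`. -/
theorem muHE_conv3 (p q r : E3) :
    μHE[2] (convexHull ℝ {p, q, r}) = ENNReal.ofReal (gram (q - p) (r - p) / 2) := by
  rw [conv3_eq_image, muHE_add_image, muHE_lin2_image, volume_stdTri, ← ENNReal.ofReal_mul]
  · congr 1; ring
  · exact Real.sqrt_nonneg _

lemma muHE_conv3_toReal (p q r : E3) :
    (μHE[2] (convexHull ℝ {p, q, r})).toReal = gram (q - p) (r - p) / 2 := by
  rw [muHE_conv3, ENNReal.toReal_ofReal]
  exact div_nonneg (Real.sqrt_nonneg _) (by norm_num)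

/-- The parallelogram `c + [0,1] a + [0,1] b`. -/
def para (c a b : E3) : Set E3 :=
  {x | ∃ s ∈ Icc (0 : ℝ) 1, ∃ t ∈ Icc (0 : ℝ) 1, x = c + s • a + t • b}

lemma para_eq_image (c a b : E3) : para c a b = (fun x => c + x) '' (lin2 a b '' unitSq) := by
  ext x
  constructor
  · rintro ⟨s, hs, t, ht, rfl⟩
    refine ⟨lin2 a b !₂[s, t], ⟨!₂[s, t], ?_, rfl⟩, ?_⟩
    · simp only [unitSq, Set.mem_ofPred_eq]
      simp only [Matrix.cons_val_zero, Matrix.cons_val_one, Matrix.cons_val_fin_one]
      exact ⟨hs, ht⟩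
    · simp only [lin2_apply]
      simp only [Matrix.cons_val_zero, Matrix.cons_val_one, Matrix.cons_val_fin_one]
      abel
  · rintro ⟨y, ⟨z, hz, rfl⟩, rfl⟩
    refine ⟨z 0, hz.1, z 1, hz.2, ?_⟩
    simp only [lin2_apply]
    abel

/-- Area of a parallelogram in `ℝ³`. -/
theorem muHE_para (c a b : E3) : μHE[2] (para c a b) = ENNReal.ofReal (gram a b) := by
  rw [para_eq_image, muHE_add_image, muHE_lin2_image, volume_unitSq, mul_one]

lemma gram_nonneg (a b : E3) : 0 ≤ gram a b := Real.sqrt_nonneg _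

lemma muHE_para_toReal (c a b : E3) : (μHE[2] (para c a b)).toReal = gram a b := by
  rw [muHE_para, ENNReal.toReal_ofReal (gram_nonneg _ _)]

/-- The determinant of three vectors of `ℝ³`. -/
noncomputable def det3 (u a b : E3) : ℝ :=
  u 0 * (a 1 * b 2 - a 2 * b 1) + u 1 * (a 2 * b 0 - a 0 * b 2) + u 2 * (a 0 * b 1 - a 1 * b 0)

/-- orthogonal projection along a unit vector -/
noncomputable def prj (u x : E3) : E3 := x - (inner ℝ x u : ℝ) • u

lemma prj_sub (u x y : E3) : prj u x - prj u y = prj u (x - y) := by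
  simp only [prj, inner_sub_left, sub_smul]; abel

lemma inner_prj (u x : E3) (hu : ‖u‖ = 1) : (inner ℝ (prj u x) u : ℝ) = 0 := by
  rw [prj, inner_sub_left, inner_smul_left, real_inner_self_eq_norm_sq, hu]; simp

lemma gram_prj (u a b : E3) (hu : ‖u‖ = 1) : gram (prj u a) (prj u b) = |det3 u a b| := by
  have hu' : u 0 ^ 2 + u 1 ^ 2 + u 2 ^ 2 = 1 := by rw [← norm_sq_E3, hu]; norm_num
  have h1 : ∀ x : E3, ‖prj u x‖ ^ 2 = ‖x‖ ^ 2 - (inner ℝ x u : ℝ) ^ 2 := by
    intro x
    rw [prj, @norm_sub_sq_real, norm_smul, hu, inner_smul_right, real_inner_comm]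
    simp only [Real.norm_eq_abs, mul_one, mul_pow, sq_abs]
    ring
  have h2 : (inner ℝ (prj u a) (prj u b) : ℝ) = inner ℝ a b - inner ℝ a u * inner ℝ b u := by
    simp only [prj, inner_sub_left, inner_sub_right, inner_smul_left, inner_smul_right]
    have e : (inner ℝ u b : ℝ) = inner ℝ b u := real_inner_comm _ _
    rw [real_inner_self_eq_norm_sq, hu, e]
    simp only [conj_trivial]
    ring
  rw [gram, ← Real.sqrt_sq_eq_abs, h1, h1, h2]
  congr 1
  simp only [norm_sq_E3, inner_E3, det3]
  generalize u 0 = u0 at *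
  generalize u 1 = u1 at *
  generalize u 2 = u2 at *
  generalize a 0 = a0 at *
  generalize a 1 = a1 at *
  generalize a 2 = a2 at *
  generalize b 0 = b0 at *
  generalize b 1 = b1 at *
  generalize b 2 = b2 at *
  linear_combination (-((a0 ^ 2 + a1 ^ 2 + a2 ^ 2) * (b0 ^ 2 + b1 ^ 2 + b2 ^ 2) -
    (a0 * b0 + a1 * b1 + a2 * b2) ^ 2)) * hu'

/-- Cylinder data from a direction `d` and a planar triangle `P Q R`. -/
structure CylData where
  d : E3
  P : E3
  Q : E3
  R : E3

/-- normalised direction -/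
noncomputable def unitOf (d : E3) : E3 := (‖d‖⁻¹) • d

lemma norm_unitOf (d : E3) (hd : d ≠ 0) : ‖unitOf d‖ = 1 := by
  have : 0 < ‖d‖ := norm_pos_iff.mpr hd
  rw [unitOf, norm_smul, norm_inv, norm_norm]; field_simp

lemma det3_smul_left (k : ℝ) (u a b : E3) : det3 (k • u) a b = k * det3 u a b := by
  simp only [det3, PiLp.smul_apply, smul_eq_mul]; ring

/-- The cylinder over `conv {P,Q,R}` with direction `d` sits in the cylinder over the projected
triangle with the unit direction. -/
lemma cyl_subset (d P Q R x : E3) (hd : d ≠ 0) (b : E3) (hb : b ∈ convexHull ℝ {P, Q, R}) (τ : ℝ)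
    (hx : x = b + τ • d) :
    ∃ b' ∈ convexHull ℝ {prj (unitOf d) P, prj (unitOf d) Q, prj (unitOf d) R}, ∃ t : ℝ,
      x = b' + t • unitOf d := by
  set u := unitOf d with hu_def
  have hnd : 0 < ‖d‖ := norm_pos_iff.mpr hd
  have hdu : d = ‖d‖ • u := by
    rw [hu_def, unitOf, smul_smul]; field_simp; simp
  rw [mem_conv3] at hb
  obtain ⟨α, β, γ, h1, h2, h3, h4, rfl⟩ := hb
  refine ⟨prj u (α • P + β • Q + γ • R), ?_, (inner ℝ (α • P + β • Q + γ • R) u : ℝ) + τ * ‖d‖, ?_⟩
  · rw [mem_conv3]
    refine ⟨α, β, γ, h1, h2, h3, h4, ?_⟩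
    simp only [prj, inner_add_left, inner_smul_left, smul_sub, smul_smul, add_smul]
    simp only [conj_trivial]
    abel
  · rw [hx, add_smul]
    conv_lhs => rw [hdu, smul_smul]
    simp only [prj]
    abel

/-- Area of the projected triangle. -/
lemma area_proj_tri (d P Q R : E3) (hd : d ≠ 0) :
    (μHE[2] (convexHull ℝ {prj (unitOf d) P, prj (unitOf d) Q, prj (unitOf d) R})).toReal =
      |det3 d (Q - P) (R - P)| / (2 * ‖d‖) := by
  have hnd : 0 < ‖d‖ := norm_pos_iff.mpr hd
  rw [muHE_conv3_toReal, prj_sub, prj_sub, gram_prj _ _ _ (norm_unitOf d hd), unitOf,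
    det3_smul_left, abs_mul, abs_of_pos (inv_pos.mpr hnd)]
  field_simp

end Crest.Agent.Tetra
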