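import Crest.Agent.Lib.Tetra.Para

/-!
# Every regular tetrahedron is similar to the standard one
-/

set_option autoImplicit false

namespace Crest.Agent.Tetra

open Set MeasureTheory Finset Module
open scoped Pointwise

noncomputable section

def c1 (x : E3) : ℝ := -(x 0 + x 2 / Real.sqrt 2) / 2
def c2 (x : E3) : ℝ := (x 2 / Real.sqrt 2 + x 1) / 2
def c3 (x : E3) : ℝ := (x 2 / Real.sqrt 2 - x 1) / 2

/-- the linear map from the coordinate functionals -/
def simL (b₁ b₂ b₃ : E3) : E3 →ₗ[ℝ] E3 where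
  toFun x := c1 x • b₁ + c2 x • b₂ + c3 x • b₃
  map_add' x y := by
    have e1 : c1 (x + y) = c1 x + c1 y := by simp only [c1, PiLp.add_apply]; ring
    have e2 : c2 (x + y) = c2 x + c2 y := by simp only [c2, PiLp.add_apply]; ring
    have e3 : c3 (x + y) = c3 x + c3 y := by simp only [c3, PiLp.add_apply]; ring
    rw [e1, e2, e3, add_smul, add_smul, add_smul]; abel
  map_smul' r x := by
    have e1 : c1 (r • x) = r * c1 x := by simp only [c1, PiLp.smul_apply, smul_eq_mul]; ring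
    have e2 : c2 (r • x) = r * c2 x := by simp only [c2, PiLp.smul_apply, smul_eq_mul]; ring
    have e3 : c3 (r • x) = r * c3 x := by simp only [c3, PiLp.smul_apply, smul_eq_mul]; ring
    simp only [RingHom.id_apply, e1, e2, e3, smul_add, smul_smul]

lemma simL_apply (b₁ b₂ b₃ x : E3) : simL b₁ b₂ b₃ x = c1 x • b₁ + c2 x • b₂ + c3 x • b₃ := rfl

lemma simL_norm (b₁ b₂ b₃ : E3) (h11 : ‖b₁‖ ^ 2 = 4) (h22 : ‖b₂‖ ^ 2 = 4) (h33 : ‖b₃‖ ^ 2 = 4)
    (h12 : inner ℝ b₁ b₂ = (2 : ℝ)) (h13 : inner ℝ b₁ b₃ = (2 : ℝ)) (h23 : inner ℝ b₂ b₃ = (2 : ℝ))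
    (x : E3) : ‖simL b₁ b₂ b₃ x‖ = ‖x‖ := by
  have hs := sqrt2_pos
  have hs2 := sqrt2_sq
  have h : ‖simL b₁ b₂ b₃ x‖ ^ 2 = ‖x‖ ^ 2 := by
    rw [simL_apply, ← real_inner_self_eq_norm_sq]
    simp only [inner_add_left, inner_add_right, inner_smul_left, inner_smul_right,
      real_inner_self_eq_norm_sq, conj_trivial, h11, h22, h33, h12, h13, h23,
      real_inner_comm b₁ b₂, real_inner_comm b₁ b₃, real_inner_comm b₂ b₃]
    rw [norm_sq_E3]
    obtain ⟨t, ht⟩ : ∃ t, t = x 2 / Real.sqrt 2 := ⟨_, rfl⟩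
    have hx2 : x 2 = Real.sqrt 2 * t := by rw [ht]; field_simp
    simp only [c1, c2, c3, ← ht]
    rw [hx2, mul_pow, hs2]
    ring
  exact (sq_eq_sq₀ (norm_nonneg _) (norm_nonneg _)).mp h

/-- the similarity -/
theorem exists_similarity (w : Fin 4 → E3) (ℓ : ℝ) (hℓ : 0 < ℓ)
    (hw : ∀ i j, i ≠ j → dist (w i) (w j) = ℓ) :
    ∃ (O : E3 ≃ₗᵢ[ℝ] E3) (o : E3),
      convexHull ℝ (range w) = (fun x => o + (ℓ / 2) • O x) '' stdK := by
  have hℓ2 : ℓ / 2 ≠ 0 := by positivity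
  let b : Fin 4 → E3 := fun j => (2 / ℓ) • (w j - w 0)
  have hnorm : ∀ i j, i ≠ j → ‖(2 / ℓ) • (w i - w j)‖ ^ 2 = 4 := by
    intro i j hij
    rw [norm_smul, ← dist_eq_norm, hw i j hij, Real.norm_eq_abs, abs_of_pos (by positivity)]
    field_simp
    norm_num
  have hb : ∀ j, j ≠ 0 → ‖b j‖ ^ 2 = 4 := fun j hj => hnorm j 0 hj
  have hinner : ∀ i j, i ≠ 0 → j ≠ 0 → i ≠ j → inner ℝ (b i) (b j) = (2 : ℝ) := by
    intro i j hi hj hij
    have h1 : b i - b j = (2 / ℓ) • (w i - w j) := by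
      simp only [b, ← smul_sub]; congr 1; abel
    have h2 : ‖b i - b j‖ ^ 2 = 4 := by rw [h1]; exact hnorm i j hij
    rw [@norm_sub_sq_real, hb i hi, hb j hj] at h2
    linarith
  let L : E3 →ₗ[ℝ] E3 := simL (b 1) (b 2) (b 3)
  have hLnorm : ∀ x, ‖L x‖ = ‖x‖ := simL_norm _ _ _ (hb 1 (by decide)) (hb 2 (by decide))
    (hb 3 (by decide)) (hinner 1 2 (by decide) (by decide) (by decide))
    (hinner 1 3 (by decide) (by decide) (by decide)) (hinner 2 3 (by decide) (by decide) (by decide))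
  let Li : E3 →ₗᵢ[ℝ] E3 := ⟨L, hLnorm⟩
  let O : E3 ≃ₗᵢ[ℝ] E3 := Li.toLinearIsometryEquiv rfl
  have hO : ∀ x, O x = L x := fun x => rfl
  have hs := sqrt2_pos
  have hLB : L (vB - vA) = b 1 := by
    show c1 (vB - vA) • b 1 + c2 (vB - vA) • b 2 + c3 (vB - vA) • b 3 = b 1
    have e1 : c1 (vB - vA) = 1 := by
      show -(((-1 : ℝ) - 1) + (0 - 0) / Real.sqrt 2) / 2 = 1
      norm_num
    have e2 : c2 (vB - vA) = 0 := by
      show ((0 - 0) / Real.sqrt 2 + ((0 : ℝ) - 0)) / 2 = 0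
      norm_num
    have e3 : c3 (vB - vA) = 0 := by
      show ((0 - 0) / Real.sqrt 2 - ((0 : ℝ) - 0)) / 2 = 0
      norm_num
    rw [e1, e2, e3]; simp
  have hLC : L (vC - vA) = b 2 := by
    show c1 (vC - vA) • b 1 + c2 (vC - vA) • b 2 + c3 (vC - vA) • b 3 = b 2
    have e1 : c1 (vC - vA) = 0 := by
      show -(((0 : ℝ) - 1) + (Real.sqrt 2 - 0) / Real.sqrt 2) / 2 = 0
      rw [sub_zero, div_self hs.ne']; norm_num
    have e2 : c2 (vC - vA) = 1 := by
      show ((Real.sqrt 2 - 0) / Real.sqrt 2 + ((1 : ℝ) - 0)) / 2 = 1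
      rw [sub_zero, div_self hs.ne']; norm_num
    have e3 : c3 (vC - vA) = 0 := by
      show ((Real.sqrt 2 - 0) / Real.sqrt 2 - ((1 : ℝ) - 0)) / 2 = 0
      rw [sub_zero, div_self hs.ne']; norm_num
    rw [e1, e2, e3]; simp
  have hLD : L (vD - vA) = b 3 := by
    show c1 (vD - vA) • b 1 + c2 (vD - vA) • b 2 + c3 (vD - vA) • b 3 = b 3
    have e1 : c1 (vD - vA) = 0 := by
      show -(((0 : ℝ) - 1) + (Real.sqrt 2 - 0) / Real.sqrt 2) / 2 = 0
      rw [sub_zero, div_self hs.ne']; norm_num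
    have e2 : c2 (vD - vA) = 0 := by
      show ((Real.sqrt 2 - 0) / Real.sqrt 2 + ((-1 : ℝ) - 0)) / 2 = 0
      rw [sub_zero, div_self hs.ne']; norm_num
    have e3 : c3 (vD - vA) = 1 := by
      show ((Real.sqrt 2 - 0) / Real.sqrt 2 - ((-1 : ℝ) - 0)) / 2 = 1
      rw [sub_zero, div_self hs.ne']; norm_num
    rw [e1, e2, e3]; simp
  set o : E3 := w 0 - (ℓ / 2) • L vA with ho
  have hΦ : ∀ X : E3, o + (ℓ / 2) • L X = w 0 + (ℓ / 2) • L (X - vA) := by
    intro X
    rw [map_sub, smul_sub, ho]; abel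
  have hsc : ∀ j, w 0 + (ℓ / 2) • b j = w j := by
    intro j
    simp only [b, smul_smul]
    have : ℓ / 2 * (2 / ℓ) = 1 := by field_simp
    rw [this, one_smul]; abel
  have hA : o + (ℓ / 2) • L vA = w 0 := by rw [ho]; abel
  have hB : o + (ℓ / 2) • L vB = w 1 := by rw [hΦ, hLB, hsc]
  have hC : o + (ℓ / 2) • L vC = w 2 := by rw [hΦ, hLC, hsc]
  have hD : o + (ℓ / 2) • L vD = w 3 := by rw [hΦ, hLD, hsc]
  refine ⟨O, o, ?_⟩
  -- the affine map
  let F : E3 →ᵃ[ℝ] E3 := ((ℓ / 2) • L).toAffineMap + AffineMap.const ℝ E3 o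
  have hF : ∀ x, F x = o + (ℓ / 2) • L x := by
    intro x
    simp only [F, AffineMap.coe_add, Pi.add_apply, AffineMap.const_apply]
    rw [add_comm]
    rfl
  have himg : (fun x => o + (ℓ / 2) • O x) '' stdK = F '' stdK := by
    apply Set.image_congr
    intro x _
    rw [hF, hO]
  rw [himg, stdK_eq, F.image_convexHull]
  congr 1
  ext x
  constructor
  · rintro ⟨j, rfl⟩
    fin_cases j
    · exact ⟨vA, vA_mem, by rw [hF]; exact hA⟩
    · exact ⟨vB, vB_mem, by rw [hF]; exact hB⟩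
    · exact ⟨vC, vC_mem, by rw [hF]; exact hC⟩
    · exact ⟨vD, vD_mem, by rw [hF]; exact hD⟩
  · rintro ⟨y, (rfl | rfl | rfl | rfl), rfl⟩
    · exact ⟨0, by rw [hF]; exact hA.symm⟩
    · exact ⟨1, by rw [hF]; exact hB.symm⟩
    · exact ⟨2, by rw [hF]; exact hC.symm⟩
    · exact ⟨3, by rw [hF]; exact hD.symm⟩

/-- Measure of the projection of a similar copy. -/
lemma muHE_simil (O : E3 ≃ₗᵢ[ℝ] E3) (o : E3) (lam : ℝ) (hlam : 0 < lam) (A : Set E3) :
    μHE[2] ((fun x => o + lam • O x) '' A) = ENNReal.ofReal (lam ^ 2) * μHE[2] A := by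
  have h1 : (fun x => o + lam • O x) '' A = (fun x => o + x) '' (lam • (O '' A)) := by
    rw [← Set.image_smul, image_image, image_image]
  rw [h1, muHE_add_image, Measure.euclideanHausdorffMeasure_smul₀ 2 hlam.ne',
    O.isometry.euclideanHausdorffMeasure_image]
  rw [ENNReal.smul_def, smul_eq_mul]
  congr 1
  rw [← ENNReal.ofReal_coe_nnreal]
  congr 1
  simp [abs_of_pos hlam]

/-- The projected area of a similar copy. -/
lemma proj_simil (O : E3 ≃ₗᵢ[ℝ] E3) (o : E3) (lam : ℝ) (hlam : 0 < lam) (v : E3) (hv : ‖v‖ = 1) :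
    lam ^ 2 * Real.sqrt 2 ≤
      (μHE[2] (prj v '' ((fun x => o + lam • O x) '' stdK))).toReal := by
  set v' := O.symm v with hv'
  have hv'n : ‖v'‖ = 1 := by rw [hv', O.symm.norm_map, hv]
  have hOv' : O v' = v := by rw [hv']; simp
  have hinner : ∀ z : E3, (inner ℝ (O z) v : ℝ) = inner ℝ z v' := by
    intro z
    rw [← hOv']; exact O.inner_map_map z v'
  have hset : prj v '' ((fun x => o + lam • O x) '' stdK) =
      (fun y => prj v o + lam • O y) '' (prj v' '' stdK) := by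
    rw [image_image, image_image]
    apply Set.image_congr
    intro z _
    simp only [prj]
    rw [map_sub, map_smul, hOv', inner_add_left, inner_smul_left, hinner, add_smul, smul_sub,
      smul_smul]
    simp only [conj_trivial]
    abel
  rw [hset, muHE_simil _ _ _ hlam, ENNReal.toReal_mul, ENNReal.toReal_ofReal (by positivity)]
  exact mul_le_mul_of_nonneg_left (proj_toReal_ge v' hv'n) (by positivity)

/-- finite area of the projection of a similar copy -/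
lemma proj_simil_lt_top (O : E3 ≃ₗᵢ[ℝ] E3) (o : E3) (lam : ℝ) (hlam : 0 < lam) (v : E3) (hv : ‖v‖ = 1) :
    μHE[2] (prj v '' ((fun x => o + lam • O x) '' stdK)) < ⊤ := by
  apply muHE_lt_top_of_perp v hv
  · apply IsCompact.isBounded
    apply (isCompact_stdK.image _).image (continuous_prj v)
    fun_prop
  · rintro x ⟨y, -, rfl⟩
    exact inner_prj v y hv

end

end Crest.Agent.Tetra
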