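import Crest.Agent.Lib.Tetra.LatVol

/-!
# Covers of ruled sets by sheared square cylinders
-/

set_option autoImplicit false

namespace Crest.Agent.Tetra

open Set MeasureTheory Metric
open scoped ENNReal Topology

noncomputable section

/-- The weight of a velocity. -/
def jac (h : ℝ) (g : E2) : ℝ := 1 / Real.sqrt (1 + g 0 ^ 2 + h ^ 2 * g 1 ^ 2)

lemma jac_sqrt_pos (h : ℝ) (g : E2) : 0 < Real.sqrt (1 + g 0 ^ 2 + h ^ 2 * g 1 ^ 2) :=
  Real.sqrt_pos.mpr (by positivity)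

lemma jac_pos (h : ℝ) (g : E2) : 0 < jac h g := by
  have := jac_sqrt_pos h g
  rw [jac]; positivity

lemma jac_le_one (h : ℝ) (g : E2) : jac h g ≤ 1 := by
  rw [jac, div_le_one (jac_sqrt_pos h g), Real.one_le_sqrt]
  nlinarith [sq_nonneg (g 0), mul_nonneg (sq_nonneg h) (sq_nonneg (g 1))]

/-- A cover of `E` by finitely many sheared square cylinders of total cost at most `C`. -/
def SqCov (E : Set (ℝ × E2)) (h C : ℝ) : Prop :=
  ∃ (k : ℕ) (c a b g : Fin k → E2),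
    (∀ i, a i ≠ 0 ∧ ‖b i‖ = ‖a i‖ ∧ (inner ℝ (a i) (b i) : ℝ) = 0) ∧
    E ⊆ ⋃ i, {z : ℝ × E2 | ∃ x ∈ Icc (0 : ℝ) 1, ∃ y ∈ Icc (0 : ℝ) 1,
      z.2 = c i + x • a i + y • b i + z.1 • g i} ∧
    ∑ i, ‖a i‖ ^ 2 / Real.sqrt (1 + (g i 0) ^ 2 + h ^ 2 * (g i 1) ^ 2) ≤ C

lemma SqCov.of_fintype {ι : Type*} [Fintype ι] (E : Set (ℝ × E2)) (h C : ℝ) (c a b g : ι → E2)
    (h1 : ∀ i, a i ≠ 0 ∧ ‖b i‖ = ‖a i‖ ∧ (inner ℝ (a i) (b i) : ℝ) = 0)
    (h2 : E ⊆ ⋃ i, {z : ℝ × E2 | ∃ x ∈ Icc (0 : ℝ) 1, ∃ y ∈ Icc (0 : ℝ) 1,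
      z.2 = c i + x • a i + y • b i + z.1 • g i})
    (h3 : ∑ i, ‖a i‖ ^ 2 / Real.sqrt (1 + (g i 0) ^ 2 + h ^ 2 * (g i 1) ^ 2) ≤ C) :
    SqCov E h C := by
  let e := Fintype.equivFin ι
  refine ⟨Fintype.card ι, c ∘ e.symm, a ∘ e.symm, b ∘ e.symm, g ∘ e.symm, ?_, ?_, ?_⟩
  · exact fun i => h1 _
  · intro z hz
    obtain ⟨i, hi⟩ := mem_iUnion.mp (h2 hz)
    refine mem_iUnion.mpr ⟨e i, ?_⟩
    simpa using hi
  · rw [← Equiv.sum_comp e]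
    simpa using h3

lemma SqCov.iUnion {N : ℕ} (E : Fin N → Set (ℝ × E2)) (h : ℝ) (C : Fin N → ℝ)
    (hE : ∀ j, SqCov (E j) h (C j)) : SqCov (⋃ j, E j) h (∑ j, C j) := by
  choose k c a b g h1 h2 h3 using hE
  apply SqCov.of_fintype (ι := Σ j, Fin (k j)) _ h _ (fun i => c i.1 i.2) (fun i => a i.1 i.2)
    (fun i => b i.1 i.2) (fun i => g i.1 i.2)
  · exact fun i => h1 i.1 i.2
  · intro z hz
    obtain ⟨j, hj⟩ := mem_iUnion.mp hz
    obtain ⟨i, hi⟩ := mem_iUnion.mp (h2 j hj)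
    exact mem_iUnion.mpr ⟨⟨j, i⟩, hi⟩
  · rw [Fintype.sum_sigma]
    exact Finset.sum_le_sum (fun j _ => h3 j)

lemma SqCov.mono {E E' : Set (ℝ × E2)} {h C C' : ℝ} (H : SqCov E h C) (hE : E' ⊆ E) (hC : C ≤ C') :
    SqCov E' h C' := by
  obtain ⟨k, c, a, b, g, h1, h2, h3⟩ := H
  exact ⟨k, c, a, b, g, h1, hE.trans h2, h3.trans hC⟩

set_option maxHeartbeats 1000000 in
/-- The cover of the part of a ruled set over a small piece. -/
theorem sq_cell_cover (V : E2 → E2) (A : E2 →L[ℝ] E2) (p₀ f₁ f₂ : E2) (C₁₂ C₂₁ : ℝ)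
    (hf₁ : ‖f₁‖ = 1) (hf₂ : ‖f₂‖ = 1) (hf₁₂ : (inner ℝ f₁ f₂ : ℝ) = 0)
    (hexp : ∀ x : E2, x = (inner ℝ x f₁ : ℝ) • f₁ + (inner ℝ x f₂ : ℝ) • f₂)
    (hA₁ : A f₁ = C₂₁ • f₂) (hA₂ : A f₂ = C₁₂ • f₁)
    (hC0 : 0 ≤ C₁₂ * C₂₁) (L h : ℝ) (hL : 0 < L) (hCL : L ^ 2 * (C₁₂ * C₂₁) < 1)
    (R : ℝ) (hR : R = (1 + L * (|C₁₂| + |C₂₁|)) / (1 - L ^ 2 * (C₁₂ * C₂₁)))
    (η ω ρ Φ : ℝ) (hη : 0 < η) (hω : 0 ≤ ω) (hωR : L * ω * R ≤ η / 2) (hρ : 0 < ρ) (hΦ0 : 0 ≤ Φ)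
    (hdiff : ∀ x ∈ closedBall p₀ (2 * ρ), HasFDerivAt V (fderiv ℝ V x) x)
    (hclose : ∀ x ∈ closedBall p₀ (2 * ρ), ‖fderiv ℝ V x - A‖ ≤ ω)
    (hΦ : ∀ x ∈ closedBall p₀ (2 * ρ), jac h (V x) ≤ Φ)
    (K : Set E2) (hK : IsCompact K) (hKsub : K ⊆ closedBall p₀ ρ) (ε' : ℝ) (hε' : 0 < ε') :
    SqCov {z : ℝ × E2 | ∃ p ∈ K, |z.1| ≤ L ∧ z.2 = p + z.1 • V p} h
      (((volume K).toReal + ε') * (1 + η) ^ 2 * Φ) := by
  classical
  obtain ⟨κ, hκ⟩ : ∃ κ, κ = 1 - L ^ 2 * (C₁₂ * C₂₁) := ⟨_, rfl⟩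
  have hκ0 : 0 < κ := by rw [hκ]; linarith
  obtain ⟨B, hB⟩ : ∃ B, B = L * (|C₁₂| + |C₂₁|) := ⟨_, rfl⟩
  have hB0 : 0 ≤ B := by rw [hB]; positivity
  have hR' : R = (1 + B) / κ := by rw [hR, hB, hκ]
  have hR0 : 0 < R := by rw [hR']; positivity
  have hfinK : volume K ≠ ∞ := hK.measure_lt_top.ne
  -- choose the scale
  obtain ⟨δ, hδ, hδρ, hδvol⟩ : ∃ δ : ℝ, 0 < δ ∧ R * δ ≤ ρ ∧
      (volume (cthickening ((R + 1) * δ) K)).toReal ≤ (volume K).toReal + ε' := by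
    have hlim := tendsto_measure_cthickening_of_isClosed (μ := (volume : Measure E2)) (s := K)
      ⟨1, one_pos, hK.isBounded.cthickening.measure_lt_top.ne⟩ hK.isClosed
    have hlt : volume K < volume K + ENNReal.ofReal ε' := by
      apply ENNReal.lt_add_right hfinK
      simpa using hε'
    have hev := hlim.eventually (gt_mem_nhds hlt)
    obtain ⟨r₀, hr₀, hball⟩ := Metric.eventually_nhds_iff.mp hev
    refine ⟨min (r₀ / (2 * (R + 1))) (ρ / R), lt_min (by positivity) (by positivity), ?_, ?_⟩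
    · calc R * min (r₀ / (2 * (R + 1))) (ρ / R) ≤ R * (ρ / R) :=
            mul_le_mul_of_nonneg_left (min_le_right _ _) hR0.le
        _ = ρ := by field_simp
    · have h1 : (R + 1) * min (r₀ / (2 * (R + 1))) (ρ / R) ≤ r₀ / 2 := by
        calc (R + 1) * min (r₀ / (2 * (R + 1))) (ρ / R) ≤ (R + 1) * (r₀ / (2 * (R + 1))) :=
              mul_le_mul_of_nonneg_left (min_le_left _ _) (by positivity)
          _ = r₀ / 2 := by field_simp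
      have h2 : 0 ≤ (R + 1) * min (r₀ / (2 * (R + 1))) (ρ / R) :=
        mul_nonneg (by positivity) (le_min (by positivity) (by positivity))
      have h3 : dist ((R + 1) * min (r₀ / (2 * (R + 1))) (ρ / R)) 0 < r₀ := by
        rw [Real.dist_eq, sub_zero, abs_of_nonneg h2]
        linarith
      have h4 := (hball h3).le
      have h5 : volume K + ENNReal.ofReal ε' ≠ ∞ := by
        simp [hfinK]
      have h6 := ENNReal.toReal_mono h5 h4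
      rwa [ENNReal.toReal_add hfinK ENNReal.ofReal_ne_top, ENNReal.toReal_ofReal hε'.le] at h6
  -- the lattice points
  let c₀ : ℤ × ℤ → E2 := latPt p₀ f₁ f₂ δ
  have hc₀₁ : ∀ z, (inner ℝ (c₀ z - p₀) f₁ : ℝ) = δ * z.1 := fun z => inner_latPt₁ p₀ f₁ f₂ hf₁ hf₁₂ δ z
  have hc₀₂ : ∀ z, (inner ℝ (c₀ z - p₀) f₂ : ℝ) = δ * z.2 := fun z => inner_latPt₂ p₀ f₁ f₂ hf₂ hf₁₂ δ z
  obtain ⟨N, hN⟩ : ∃ N : ℤ, N = ⌈(ρ + R * δ) / δ⌉ := ⟨_, rfl⟩
  have hcoord : ∀ (z : ℤ × ℤ) (p : E2), p ∈ K → ‖p - c₀ z‖ ≤ R * δ → z.1 ∈ Finset.Icc (-N) N ∧ z.2 ∈ Finset.Icc (-N) N := by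
    intro z p hp hz
    have hpp₀ : ‖p - p₀‖ ≤ ρ := by
      have := hKsub hp
      rwa [mem_closedBall, dist_eq_norm] at this
    have h1 : ‖c₀ z - p₀‖ ≤ ρ + R * δ := by
      have e : c₀ z - p₀ = (p - p₀) - (p - c₀ z) := by abel
      rw [e]
      calc _ ≤ ‖p - p₀‖ + ‖p - c₀ z‖ := norm_sub_le _ _
        _ ≤ _ := add_le_add hpp₀ hz
    have key : ∀ (f : E2) (a : ℤ), ‖f‖ = 1 → (inner ℝ (c₀ z - p₀) f : ℝ) = δ * a → a ∈ Finset.Icc (-N) N := by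
      intro f a hf hin
      have h2 : |δ * (a : ℝ)| ≤ ρ + R * δ := by
        rw [← hin]
        calc _ ≤ ‖c₀ z - p₀‖ * ‖f‖ := abs_real_inner_le_norm _ _
          _ ≤ _ := by rw [hf, mul_one]; exact h1
      rw [abs_mul, abs_of_pos hδ] at h2
      have h3 : |(a : ℝ)| ≤ (ρ + R * δ) / δ := by
        rw [le_div_iff₀ hδ]; linarith
      have h4 : (ρ + R * δ) / δ ≤ (N : ℝ) := by
        rw [hN]; exact Int.le_ceil _
      have h5 := abs_le.mp (h3.trans h4)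
      rw [Finset.mem_Icc]
      constructor
      · have : ((-N : ℤ) : ℝ) ≤ a := by push_cast; exact h5.1
        exact_mod_cast this
      · exact_mod_cast h5.2
    exact ⟨key f₁ z.1 hf₁ (hc₀₁ z), key f₂ z.2 hf₂ (hc₀₂ z)⟩
  let I : Finset (ℤ × ℤ) := ((Finset.Icc (-N) N) ×ˢ (Finset.Icc (-N) N)).filter
    (fun z => ∃ p ∈ K, ‖p - c₀ z‖ ≤ R * δ)
  have hIspec : ∀ z ∈ I, ∃ p ∈ K, ‖p - c₀ z‖ ≤ R * δ := fun z hz => (Finset.mem_filter.mp hz).2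
  have hIin : ∀ (z : ℤ × ℤ) (p : E2), p ∈ K → ‖p - c₀ z‖ ≤ R * δ → z ∈ I := by
    intro z p hp hz
    have := hcoord z p hp hz
    exact Finset.mem_filter.mpr ⟨Finset.mem_product.mpr this, p, hp, hz⟩
  -- points near `K` stay in the ball
  have hball : ∀ (z : ℤ × ℤ) (p : E2), p ∈ K → ‖p - c₀ z‖ ≤ R * δ → c₀ z ∈ closedBall p₀ (2 * ρ) := by
    intro z p hp hz
    have hpp₀ : ‖p - p₀‖ ≤ ρ := by
      have := hKsub hp
      rwa [mem_closedBall, dist_eq_norm] at this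
    rw [mem_closedBall, dist_eq_norm]
    have e : c₀ z - p₀ = (p - p₀) - (p - c₀ z) := by abel
    rw [e]
    calc _ ≤ ‖p - p₀‖ + ‖p - c₀ z‖ := norm_sub_le _ _
      _ ≤ _ := by linarith
  obtain ⟨s, hs⟩ : ∃ s, s = δ * (1 + η) := ⟨_, rfl⟩
  have hs0 : 0 < s := by rw [hs]; positivity
  apply SqCov.of_fintype (ι := {z // z ∈ I}) _ h _ (fun z => c₀ z.1 - (s / 2) • (f₁ + f₂))
    (fun _ => s • f₁) (fun _ => s • f₂) (fun z => V (c₀ z.1))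
  · -- squares
    intro _
    refine ⟨?_, ?_, ?_⟩
    · apply smul_ne_zero hs0.ne'
      intro h0
      rw [h0, norm_zero] at hf₁
      exact zero_ne_one hf₁
    · rw [norm_smul, norm_smul, hf₁, hf₂]
    · rw [inner_smul_left, inner_smul_right, hf₁₂]
      simp
  · -- cover
    rintro ⟨t, ξ⟩ ⟨p, hp, hts, hξ⟩
    simp only at hts hξ
    have hpp₀ : p ∈ closedBall p₀ (2 * ρ) := by
      have := hKsub hp
      rw [mem_closedBall, dist_eq_norm] at this ⊢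
      linarith
    obtain ⟨ξ₁, hξ₁⟩ : ∃ ξ₁, ξ₁ = (inner ℝ (p - p₀) f₁ : ℝ) / δ := ⟨_, rfl⟩
    obtain ⟨ξ₂, hξ₂⟩ : ∃ ξ₂, ξ₂ = (inner ℝ (p - p₀) f₂ : ℝ) / δ := ⟨_, rfl⟩
    obtain ⟨β, hβ⟩ : ∃ β, β = t * C₁₂ := ⟨_, rfl⟩
    obtain ⟨γ, hγ⟩ : ∃ γ, γ = t * C₂₁ := ⟨_, rfl⟩
    have ht2 : t ^ 2 ≤ L ^ 2 := sq_le_sq' (by linarith [(abs_le.mp hts).1]) (abs_le.mp hts).2
    have hβγ : β * γ = t ^ 2 * (C₁₂ * C₂₁) := by rw [hβ, hγ]; ring
    have hβγ0 : 0 ≤ β * γ := by rw [hβγ]; positivity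
    have hβγle : β * γ ≤ L ^ 2 * (C₁₂ * C₂₁) := by
      rw [hβγ]; exact mul_le_mul_of_nonneg_right ht2 hC0
    obtain ⟨m, n, hm, hn⟩ := lat_cover β γ hβγ0 (by linarith) (ξ₁ + β * ξ₂) (ξ₂ + γ * ξ₁)
    obtain ⟨u, hu⟩ : ∃ u, u = ξ₁ - m := ⟨_, rfl⟩
    obtain ⟨v, hv⟩ : ∃ v, v = ξ₂ - n := ⟨_, rfl⟩
    have h1 : |u + β * v| ≤ 1 / 2 := by
      rw [show u + β * v = ξ₁ + β * ξ₂ - m - β * n by rw [hu, hv]; ring]; exact hm
    have h2 : |v + γ * u| ≤ 1 / 2 := by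
      rw [show v + γ * u = ξ₂ + γ * ξ₁ - n - γ * m by rw [hu, hv]; ring]; exact hn
    have hβB : |β| ≤ B := by
      rw [hβ, abs_mul, hB]
      have : |t| * |C₁₂| ≤ L * |C₁₂| := mul_le_mul_of_nonneg_right hts (abs_nonneg _)
      have : L * |C₁₂| ≤ L * (|C₁₂| + |C₂₁|) :=
        mul_le_mul_of_nonneg_left (by linarith [abs_nonneg C₂₁]) hL.le
      linarith
    have hγB : |γ| ≤ B := by
      rw [hγ, abs_mul, hB]
      have : |t| * |C₂₁| ≤ L * |C₂₁| := mul_le_mul_of_nonneg_right hts (abs_nonneg _)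
      have : L * |C₂₁| ≤ L * (|C₁₂| + |C₂₁|) :=
        mul_le_mul_of_nonneg_left (by linarith [abs_nonneg C₁₂]) hL.le
      linarith
    obtain ⟨huR, hvR⟩ := lat_bound β γ u v κ B hκ0 (by rw [hκ]; linarith) hβB hγB h1 h2
    have hR2 : (1 + B) / (2 * κ) = R / 2 := by rw [hR']; field_simp
    rw [hR2] at huR hvR
    obtain ⟨z₀, hz₀⟩ : ∃ z₀ : ℤ × ℤ, z₀ = (m, n) := ⟨_, rfl⟩
    obtain ⟨d, hd⟩ : ∃ d, d = p - c₀ z₀ := ⟨_, rfl⟩
    have hd1 : (inner ℝ d f₁ : ℝ) = δ * u := by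
      have e : d = (p - p₀) - (c₀ z₀ - p₀) := by rw [hd]; abel
      rw [e, inner_sub_left, hc₀₁, hz₀, hu, hξ₁]
      simp only
      field_simp
    have hd2 : (inner ℝ d f₂ : ℝ) = δ * v := by
      have e : d = (p - p₀) - (c₀ z₀ - p₀) := by rw [hd]; abel
      rw [e, inner_sub_left, hc₀₂, hz₀, hv, hξ₂]
      simp only
      field_simp
    have hdexp : d = (δ * u) • f₁ + (δ * v) • f₂ := by
      conv_lhs => rw [hexp d, hd1, hd2]
    have hdnorm : ‖d‖ ≤ R * δ := by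
      have hsq : ‖d‖ ^ 2 = (δ * u) ^ 2 + (δ * v) ^ 2 := by
        conv_lhs => rw [hdexp]
        exact norm_comb f₁ f₂ hf₁ hf₂ hf₁₂ _ _
      have h3 := sq_le_sq' (by linarith [(abs_le.mp huR).1]) (abs_le.mp huR).2
      have h4 := sq_le_sq' (by linarith [(abs_le.mp hvR).1]) (abs_le.mp hvR).2
      apply (abs_le_of_sq_le_sq' _ (by positivity)).2
      rw [hsq]
      have h5 : (δ * u) ^ 2 ≤ δ ^ 2 * (R / 2) ^ 2 := by
        rw [mul_pow]; exact mul_le_mul_of_nonneg_left h3 (by positivity)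
      have h6 : (δ * v) ^ 2 ≤ δ ^ 2 * (R / 2) ^ 2 := by
        rw [mul_pow]; exact mul_le_mul_of_nonneg_left h4 (by positivity)
      have h7 : 0 ≤ δ ^ 2 * R ^ 2 := by positivity
      have e1 : (R * δ) ^ 2 = δ ^ 2 * R ^ 2 := by ring
      have e2 : δ ^ 2 * (R / 2) ^ 2 = δ ^ 2 * R ^ 2 / 4 := by ring
      rw [e1]
      rw [e2] at h5 h6
      linarith
    have hz₀I : z₀ ∈ I := hIin z₀ p hp (by rw [← hd]; exact hdnorm)
    have hc₀ball := hball z₀ p hp (by rw [← hd]; exact hdnorm)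
    -- mean value
    obtain ⟨Er, hEr⟩ : ∃ Er, Er = V p - V (c₀ z₀) - A d := ⟨_, rfl⟩
    have hErn : ‖Er‖ ≤ ω * ‖d‖ := by
      rw [hEr, hd]
      exact (convex_closedBall p₀ (2 * ρ)).norm_image_sub_le_of_norm_hasFDerivWithin_le'
        (fun x hx => (hdiff x hx).hasFDerivWithinAt) hclose hc₀ball hpp₀
    have hAd : A d = (δ * v * C₁₂) • f₁ + (δ * u * C₂₁) • f₂ := by
      conv_lhs => rw [hdexp]
      rw [map_add, map_smul, map_smul, hA₁, hA₂, smul_smul, smul_smul, add_comm]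
    obtain ⟨w, hw⟩ : ∃ w, w = (p + t • V p) - c₀ z₀ - t • V (c₀ z₀) := ⟨_, rfl⟩
    have hw' : w = d + t • A d + t • Er := by
      rw [hw, hEr, hd]
      simp only [smul_sub]
      abel
    have hEbd : ∀ f : E2, ‖f‖ = 1 → |t * (inner ℝ Er f : ℝ)| ≤ (η / 2) * δ := by
      intro f hf
      rw [abs_mul]
      have h3 : |(inner ℝ Er f : ℝ)| ≤ ‖Er‖ := by
        calc _ ≤ ‖Er‖ * ‖f‖ := abs_real_inner_le_norm _ _
          _ = ‖Er‖ := by rw [hf, mul_one]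
      have h4 : ‖Er‖ ≤ ω * (R * δ) :=
        hErn.trans (mul_le_mul_of_nonneg_left hdnorm hω)
      calc |t| * |(inner ℝ Er f : ℝ)| ≤ L * (ω * (R * δ)) :=
            mul_le_mul hts (h3.trans h4) (abs_nonneg _) hL.le
        _ = (L * ω * R) * δ := by ring
        _ ≤ _ := mul_le_mul_of_nonneg_right hωR hδ.le
    have hw1 : (inner ℝ w f₁ : ℝ) = δ * (u + β * v) + t * inner ℝ Er f₁ := by
      have e1 : (inner ℝ (A d) f₁ : ℝ) = δ * v * C₁₂ := by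
        rw [hAd, inner_add_left, inner_smul_left, inner_smul_left, real_inner_self_eq_norm_sq, hf₁,
          real_inner_comm, hf₁₂]
        simp
      rw [hw', inner_add_left, inner_add_left, hd1, inner_smul_left, inner_smul_left, e1, hβ]
      simp only [conj_trivial]
      ring
    have hw2 : (inner ℝ w f₂ : ℝ) = δ * (v + γ * u) + t * inner ℝ Er f₂ := by
      have e1 : (inner ℝ (A d) f₂ : ℝ) = δ * u * C₂₁ := by
        rw [hAd, inner_add_left, inner_smul_left, inner_smul_left, real_inner_self_eq_norm_sq, hf₂,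
          hf₁₂]
        simp
      rw [hw', inner_add_left, inner_add_left, hd2, inner_smul_left, inner_smul_left, e1, hγ]
      simp only [conj_trivial]
      ring
    have hbd₁ : |(inner ℝ w f₁ : ℝ)| ≤ s / 2 := by
      rw [hw1, hs]
      have h3 := hEbd f₁ hf₁
      have h4 : |δ * (u + β * v)| ≤ δ * (1 / 2) := by
        rw [abs_mul, abs_of_pos hδ]; exact mul_le_mul_of_nonneg_left h1 hδ.le
      calc _ ≤ |δ * (u + β * v)| + |t * (inner ℝ Er f₁ : ℝ)| := abs_add_le _ _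
        _ ≤ δ * (1 / 2) + (η / 2) * δ := add_le_add h4 h3
        _ = _ := by ring
    have hbd₂ : |(inner ℝ w f₂ : ℝ)| ≤ s / 2 := by
      rw [hw2, hs]
      have h3 := hEbd f₂ hf₂
      have h4 : |δ * (v + γ * u)| ≤ δ * (1 / 2) := by
        rw [abs_mul, abs_of_pos hδ]; exact mul_le_mul_of_nonneg_left h2 hδ.le
      calc _ ≤ |δ * (v + γ * u)| + |t * (inner ℝ Er f₂ : ℝ)| := abs_add_le _ _
        _ ≤ δ * (1 / 2) + (η / 2) * δ := add_le_add h4 h3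
        _ = _ := by ring
    refine mem_iUnion.mpr ⟨⟨z₀, hz₀I⟩, ((inner ℝ w f₁ : ℝ) + s / 2) / s, ⟨?_, ?_⟩,
      ((inner ℝ w f₂ : ℝ) + s / 2) / s, ⟨?_, ?_⟩, ?_⟩
    · have := (abs_le.mp hbd₁).1
      apply div_nonneg (by linarith) hs0.le
    · have := (abs_le.mp hbd₁).2
      rw [div_le_one hs0]; linarith
    · have := (abs_le.mp hbd₂).1
      apply div_nonneg (by linarith) hs0.le
    · have := (abs_le.mp hbd₂).2
      rw [div_le_one hs0]; linarith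
    · simp only
      rw [hξ]
      have hwexp := hexp w
      have e1 : ((inner ℝ w f₁ : ℝ) + s / 2) / s * s = (inner ℝ w f₁ : ℝ) + s / 2 :=
        div_mul_cancel₀ _ hs0.ne'
      have e2 : ((inner ℝ w f₂ : ℝ) + s / 2) / s * s = (inner ℝ w f₂ : ℝ) + s / 2 :=
        div_mul_cancel₀ _ hs0.ne'
      rw [smul_smul, smul_smul, e1, e2]
      have e3 : p + t • V p = w + c₀ z₀ + t • V (c₀ z₀) := by rw [hw]; abel
      rw [e3]
      conv_lhs => rw [hwexp]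
      simp only [add_smul, smul_add]
      abel
  · -- the cost
    have hterm : ∀ z : {z // z ∈ I}, ‖s • f₁‖ ^ 2 / Real.sqrt (1 + (V (c₀ z.1) 0) ^ 2 + h ^ 2 * (V (c₀ z.1) 1) ^ 2)
        ≤ s ^ 2 * Φ := by
      intro z
      rw [norm_smul, hf₁, mul_one, Real.norm_eq_abs, sq_abs, div_eq_mul_one_div]
      apply mul_le_mul_of_nonneg_left _ (by positivity)
      obtain ⟨p, hp, hpz⟩ := hIspec z.1 z.2
      exact hΦ _ (hball z.1 p hp hpz)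
    have hcount := count_tiles K hK.isBounded p₀ f₁ f₂ hf₁ hf₂ hf₁₂ hexp δ R hδ I hIspec
    calc _ ≤ ∑ _z : {z // z ∈ I}, s ^ 2 * Φ := Finset.sum_le_sum (fun z _ => hterm z)
      _ = (I.card : ℝ) * δ ^ 2 * (1 + η) ^ 2 * Φ := by
          rw [Finset.sum_const, Finset.card_univ, Fintype.card_coe, nsmul_eq_mul, hs]
          ring
      _ ≤ (volume (cthickening ((R + 1) * δ) K)).toReal * (1 + η) ^ 2 * Φ := by
          apply mul_le_mul_of_nonneg_right _ hΦ0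
          exact mul_le_mul_of_nonneg_right hcount (by positivity)
      _ ≤ _ := by
          apply mul_le_mul_of_nonneg_right _ hΦ0
          exact mul_le_mul_of_nonneg_right hδvol (by positivity)

end

end Crest.Agent.Tetra
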