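import Crest.Agent.Lib.Tetra.SqCov

/-!
# Local data for the cover of a ruled set; assembling the cells
-/

set_option autoImplicit false

namespace Crest.Agent.Tetra

open Set MeasureTheory Metric
open scoped ENNReal Topology

noncomputable section

lemma jac_continuousAt (V : E2 → E2) (h : ℝ) (p : E2) (hV : ContinuousAt V p) :
    ContinuousAt (fun x => jac h (V x)) p := by
  have h0 : ContinuousAt (fun x => V x 0) p :=
    (EuclideanSpace.proj (0 : Fin 2)).continuous.continuousAt.comp hV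
  have h1 : ContinuousAt (fun x => V x 1) p :=
    (EuclideanSpace.proj (1 : Fin 2)).continuous.continuousAt.comp hV
  have h2 : ContinuousAt (fun x => Real.sqrt (1 + V x 0 ^ 2 + h ^ 2 * V x 1 ^ 2)) p :=
    ((continuousAt_const.add (h0.pow 2)).add (continuousAt_const.mul (h1.pow 2))).sqrt
  exact continuousAt_const.div h2 (jac_sqrt_pos h (V p)).ne'

/-- The local cover near one point. -/
theorem point_data (V : E2 → E2) (U : Set E2) (hU : IsOpen U) (hV : ContDiffOn ℝ 1 V U)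
    (L h : ℝ) (hL : 0 < L) (p : E2) (hpU : p ∈ U)
    (htr : LinearMap.trace ℝ E2 (fderiv ℝ V p).toLinearMap = 0)
    (hdet : -(L ^ 2)⁻¹ < LinearMap.det (fderiv ℝ V p).toLinearMap ∧
      LinearMap.det (fderiv ℝ V p).toLinearMap ≤ 0)
    (η : ℝ) (hη : 0 < η) :
    ∃ ρ : ℝ, 0 < ρ ∧
      (∀ x ∈ closedBall p ρ, jac h (V p) ≤ jac h (V x) + η) ∧
      ∀ K : Set E2, IsCompact K → K ⊆ closedBall p ρ → ∀ ε' : ℝ, 0 < ε' →
        SqCov {z : ℝ × E2 | ∃ p ∈ K, |z.1| ≤ L ∧ z.2 = p + z.1 • V p} h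
          (((volume K).toReal + ε') * (1 + η) ^ 2 * (jac h (V p) + η)) := by
  obtain ⟨f₁, f₂, C₁₂, C₂₁, hf₁, hf₂, hf₁₂, hexp, hA₁, hA₂, hdetC⟩ := frame_exists _ htr
  have hL2 : 0 < L ^ 2 := by positivity
  have hC0 : 0 ≤ C₁₂ * C₂₁ := by rw [hdetC]; linarith [hdet.2]
  have hCL : L ^ 2 * (C₁₂ * C₂₁) < 1 := by
    have h1 : C₁₂ * C₂₁ < (L ^ 2)⁻¹ := by rw [hdetC]; linarith [hdet.1]
    calc L ^ 2 * (C₁₂ * C₂₁) < L ^ 2 * (L ^ 2)⁻¹ := mul_lt_mul_of_pos_left h1 hL2
      _ = 1 := mul_inv_cancel₀ hL2.ne'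
  obtain ⟨R, hR⟩ : ∃ R, R = (1 + L * (|C₁₂| + |C₂₁|)) / (1 - L ^ 2 * (C₁₂ * C₂₁)) := ⟨_, rfl⟩
  have hR0 : 0 < R := by
    rw [hR]
    apply div_pos (by positivity) (by linarith)
  obtain ⟨ω, hω⟩ : ∃ ω, ω = η / (2 * (L * R)) := ⟨_, rfl⟩
  have hω0 : 0 < ω := by rw [hω]; positivity
  have hωR : L * ω * R ≤ η / 2 := by
    rw [hω]; apply le_of_eq; field_simp
  have hpN : U ∈ 𝓝 p := hU.mem_nhds hpU
  have hVat : ContinuousAt V p := hV.continuousOn.continuousAt hpN
  have hDc : ContinuousAt (fderiv ℝ V) p :=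
    (hV.continuousOn_fderiv_of_isOpen hU le_rfl).continuousAt hpN
  have hjc := jac_continuousAt V h p hVat
  have ev1 : ∀ᶠ x in 𝓝 p, ‖fderiv ℝ V x - fderiv ℝ V p‖ < ω := by
    have := hDc.eventually (Metric.ball_mem_nhds _ hω0)
    filter_upwards [this] with x hx
    rwa [dist_eq_norm] at hx
  have ev2 : ∀ᶠ x in 𝓝 p, |jac h (V x) - jac h (V p)| < η := by
    have := hjc.eventually (Metric.ball_mem_nhds _ hη)
    filter_upwards [this] with x hx
    rwa [Real.dist_eq] at hx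
  obtain ⟨ε₀, hε₀, hball⟩ := Metric.eventually_nhds_iff_ball.mp (ev1.and (ev2.and hpN))
  have hmono : ∀ x ∈ closedBall p (2 * (ε₀ / 3)), x ∈ ball p ε₀ := by
    intro x hx
    rw [mem_closedBall] at hx
    rw [mem_ball]
    linarith
  refine ⟨ε₀ / 3, by positivity, ?_, ?_⟩
  · intro x hx
    have hx' : x ∈ closedBall p (2 * (ε₀ / 3)) :=
      closedBall_subset_closedBall (by linarith) hx
    have := (abs_lt.mp (hball x (hmono x hx')).2.1).1
    linarith
  · intro K hK hKsub ε' hε'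
    apply sq_cell_cover V (fderiv ℝ V p) p f₁ f₂ C₁₂ C₂₁ hf₁ hf₂ hf₁₂ hexp hA₁ hA₂ hC0 L h hL hCL R hR η ω
      (ε₀ / 3) (jac h (V p) + η) hη hω0.le hωR (by positivity)
      (add_nonneg (jac_pos h _).le hη.le) _ _ _ K hK hKsub ε' hε'
    · intro x hx
      have hxU := (hball x (hmono x hx)).2.2
      exact ((hV.differentiableOn (by norm_num)).differentiableAt (hU.mem_nhds hxU)).hasFDerivAt
    · intro x hx
      exact (hball x (hmono x hx)).1.le
    · intro x hx
      have := (abs_lt.mp (hball x (hmono x hx)).2.1).2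
      linarith

instance : Nontrivial E2 := by
  refine ⟨⟨0, !₂[1, 0], ?_⟩⟩
  intro h
  have : (0 : E2) 0 = (!₂[1, 0] : E2) 0 := by rw [← h]
  simp at this

/-- A finite cover of a compact set by balls induces a cover by compact, almost disjoint pieces,
each inside one of the closed balls. -/
theorem pieces {N : ℕ} (D : Set E2) (hD : IsCompact D) (q : Fin N → E2) (r : Fin N → ℝ)
    (hcov : D ⊆ ⋃ j, ball (q j) (r j)) :
    ∃ K : Fin N → Set E2, (∀ j, IsCompact (K j)) ∧ (∀ j, K j ⊆ D) ∧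
      (∀ j, K j ⊆ closedBall (q j) (r j)) ∧ (⋃ j, K j) = D ∧
      Pairwise (Function.onFun (AEDisjoint (volume : Measure E2)) K) := by
  classical
  let K : Fin N → Set E2 := fun j => (D ∩ closedBall (q j) (r j)) \ ⋃ i ∈ {i | i < j}, ball (q i) (r i)
  have hlt : ∀ i j, i < j → volume (K i ∩ K j) = 0 := by
    intro i j hij
    apply measure_mono_null _ (Measure.addHaar_sphere volume (q i) (r i))
    rintro x ⟨⟨⟨_, hx1⟩, _⟩, ⟨_, hx2⟩⟩
    rw [mem_sphere]
    rw [mem_closedBall] at hx1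
    apply le_antisymm hx1
    by_contra hc
    push Not at hc
    apply hx2
    simp only [mem_iUnion]
    exact ⟨i, hij, hc⟩
  refine ⟨K, ?_, ?_, ?_, ?_, ?_⟩
  · intro j
    apply (hD.inter_right isClosed_closedBall).diff
    exact isOpen_biUnion (fun _ _ => isOpen_ball)
  · exact fun j x hx => hx.1.1
  · exact fun j x hx => hx.1.2
  · apply Subset.antisymm
    · exact iUnion_subset (fun j x hx => hx.1.1)
    · intro x hx
      obtain ⟨j₀, hj₀⟩ := mem_iUnion.mp (hcov hx)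
      let S := Finset.univ.filter (fun j => x ∈ closedBall (q j) (r j))
      have hS : S.Nonempty := ⟨j₀, Finset.mem_filter.mpr ⟨Finset.mem_univ _, ball_subset_closedBall hj₀⟩⟩
      have hjS := S.min'_mem hS
      refine mem_iUnion.mpr ⟨S.min' hS, ⟨hx, (Finset.mem_filter.mp hjS).2⟩, ?_⟩
      intro hc
      simp only [mem_iUnion] at hc
      obtain ⟨i, hi, hxi⟩ := hc
      have : i ∈ S := Finset.mem_filter.mpr ⟨Finset.mem_univ _, ball_subset_closedBall hxi⟩
      exact absurd (S.min'_le i this) (not_le.mpr hi)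
  · intro i j hij
    show volume (K i ∩ K j) = 0
    rcases lt_or_gt_of_ne hij with h | h
    · exact hlt i j h
    · rw [inter_comm]
      exact hlt j i h

/-- Summing an integral over the pieces. -/
lemma sum_pieces {N : ℕ} (D : Set E2) (K : Fin N → Set E2) (hKm : ∀ j, MeasurableSet (K j))
    (hU : (⋃ j, K j) = D) (hd : Pairwise (Function.onFun (AEDisjoint (volume : Measure E2)) K)) (f : E2 → ℝ)
    (hf : IntegrableOn f D) : ∑ j, ∫ x in K j, f x = ∫ x in D, f x := by
  rw [← hU] at hf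
  have := integral_iUnion_ae (fun j => (hKm j).nullMeasurableSet) hd hf
  rw [hU] at this
  rw [this, tsum_fintype]

end

end Crest.Agent.Tetra
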